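import Vale.Agent.P162.Mid.Defs

namespace Vale.Agent.P162.Mid
open Finset

/-- log-sum inequality -/
theorem klw_nonneg {A : Type*} [Fintype A] (p q : A → ℝ) (hp : ∀ a, 0 ≤ p a) (hq : ∀ a, 0 ≤ q a)
    (hac : ∀ a, q a = 0 → p a = 0) : 0 ≤ klw p q := by
  have h := KL.log_sum Finset.univ p q (fun i _ => hp i) (fun i _ => hq i) (fun i _ => hac i)
  unfold klw
  linarith

end Vale.Agent.P162.Mid
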