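import Vale.Agent.P162.Mid.Defs
import Vale.Agent.P162.Mid.KlwNonneg

namespace Vale.Agent.P162.Mid
open Finset

/-- chain rule on a product: an identity, no positivity needed -/
theorem klw_chain {A B : Type*} [Fintype A] [Fintype B] (p q : A × B → ℝ) :
    klw p q = klw (fun a => ∑ b, p (a, b)) (fun a => ∑ b, q (a, b)) +
      ∑ a, klw (fun b => p (a, b)) (fun b => q (a, b)) := by
  unfold klw
  simp only [Fintype.sum_prod_type, Finset.sum_sub_distrib]
  ring

end Vale.Agent.P162.Mid
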