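import Vale.Agent.P162.Mid.Defs
import Vale.Agent.P162.Mid.KlwNonneg
import Vale.Agent.P162.Mid.KlwChain

namespace Vale.Agent.P162.Mid
open Finset

/-- chain rule along a map: an identity, no positivity needed -/
theorem klw_chain_map {A B : Type*} [Fintype A] [Fintype B] [DecidableEq B] (φ : A → B)
    (p q : A → ℝ) :
    klw p q = klw (fun b => ∑ a, if φ a = b then p a else 0) (fun b => ∑ a, if φ a = b then q a else 0)
      + ∑ b, klw (fun a => if φ a = b then p a else 0) (fun a => if φ a = b then q a else 0) := by
  have hP : ∀ r : A → ℝ, ∑ b, ∑ a, (if φ a = b then r a else 0) = ∑ a, r a := by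
    intro r
    rw [Finset.sum_comm]
    apply Finset.sum_congr rfl
    intro a _
    rw [Finset.sum_ite_eq]
    simp
  have hT : ∀ b a, (if φ a = b then p a else 0) *
      Real.log ((if φ a = b then p a else 0) / (if φ a = b then q a else 0)) =
      if φ a = b then p a * Real.log (p a / q a) else 0 := by
    intro b a
    split_ifs <;> simp
  unfold klw
  simp only [hT]
  rw [Finset.sum_sub_distrib, hP, hP, hP]
  ring

end Vale.Agent.P162.Mid
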