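import Vale.Agent.P162.Mid.Defs
import Vale.Agent.P162.Mid.KlwNonneg
import Vale.Agent.P162.Mid.KlwChain
import Vale.Agent.P162.Mid.KlwChainMap

namespace Vale.Agent.P162.Mid
open Finset

/-- data processing for a deterministic map -/
theorem klw_map_le {A B : Type*} [Fintype A] [Fintype B] [DecidableEq B] (φ : A → B)
    (p q : A → ℝ) (hp : ∀ a, 0 ≤ p a) (hq : ∀ a, 0 ≤ q a) (hac : ∀ a, q a = 0 → p a = 0) :
    klw (fun b => ∑ a, if φ a = b then p a else 0) (fun b => ∑ a, if φ a = b then q a else 0)
      ≤ klw p q := by
  rw [klw_chain_map φ p q]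
  have h : 0 ≤ ∑ b, klw (fun a => if φ a = b then p a else 0)
      (fun a => if φ a = b then q a else 0) := by
    apply Finset.sum_nonneg
    intro b _
    apply klw_nonneg
    · intro a; split_ifs
      · exact hp a
      · exact le_rfl
    · intro a; split_ifs
      · exact hq a
      · exact le_rfl
    · intro a h
      split_ifs at h ⊢ with h1
      · exact hac a h
      · rfl
  linarith

end Vale.Agent.P162.Mid
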