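import Vale.Agent.P162.Mid.Defs
import Vale.Agent.P162.Mid.KlwNonneg
import Vale.Agent.P162.Mid.KlwChain
import Vale.Agent.P162.Mid.KlwChainMap
import Vale.Agent.P162.Mid.KlwMapLe

namespace Vale.Agent.P162.Mid
open Finset

private theorem sum_q_ne {A : Type*} [Fintype A] (p q : A → ℝ)
    (hq : ∀ a, 0 ≤ q a) (hac : ∀ a, q a = 0 → p a = 0)
    (hP : ∑ a, p a ≠ 0) : ∑ a, q a ≠ 0 := by
  intro hQ
  apply hP
  have h0 : ∀ a ∈ (Finset.univ : Finset A), q a = 0 :=
    (Finset.sum_eq_zero_iff_of_nonneg (fun a _ => hq a)).1 hQ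
  exact Finset.sum_eq_zero (fun a ha => hac a (h0 a ha))

private theorem term_left (c x y : ℝ) (hc : 0 < c) (hxy : y = 0 → x = 0) :
    c * x * Real.log (c * x / y) = c * (x * Real.log c) + c * (x * Real.log (x / y)) := by
  by_cases hx : x = 0
  · subst hx; simp
  · have hy : y ≠ 0 := fun h => hx (hxy h)
    have h1 : c * x / y = c * (x / y) := by ring
    rw [h1, Real.log_mul hc.ne' (div_ne_zero hx hy)]
    ring

private theorem term_right (c x y : ℝ) (hc : 0 < c) (hxy : y = 0 → x = 0) :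
    x * Real.log (x / (c * y)) = x * Real.log (x / y) - x * Real.log c := by
  by_cases hx : x = 0
  · subst hx; simp
  · have hy : y ≠ 0 := fun h => hx (hxy h)
    have h1 : x / (c * y) = (x / y) / c := by
      field_simp
    rw [h1, Real.log_div (div_ne_zero hx hy) hc.ne']
    ring

theorem klw_smul_left {A : Type*} [Fintype A] (c : ℝ) (hc : 0 ≤ c) (p q : A → ℝ)
    (hp : ∀ a, 0 ≤ p a) (hq : ∀ a, 0 ≤ q a) (hac : ∀ a, q a = 0 → p a = 0) :
    klw (fun a => c * p a) q = c * klw p q := by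
  rcases hc.eq_or_lt with rfl | hc
  · simp [klw]
  · unfold klw
    have h1 : ∑ a, c * p a * Real.log (c * p a / q a)
        = c * ((∑ a, p a) * Real.log c) + c * ∑ a, p a * Real.log (p a / q a) := by
      rw [Finset.sum_mul, Finset.mul_sum, Finset.mul_sum, ← Finset.sum_add_distrib]
      exact Finset.sum_congr rfl (fun a _ => term_left c (p a) (q a) hc (hac a))
    have h2 : ∑ a, c * p a = c * ∑ a, p a := by rw [Finset.mul_sum]
    have h3 := term_left c (∑ a, p a) (∑ a, q a) hc
      (fun hQ => by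
        by_contra hP
        exact sum_q_ne p q hq hac hP hQ)
    rw [h1, h2, h3]
    ring

theorem klw_smul_right {A : Type*} [Fintype A] (c : ℝ) (hc : 0 < c) (p q : A → ℝ)
    (hp : ∀ a, 0 ≤ p a) (hq : ∀ a, 0 ≤ q a) (hac : ∀ a, q a = 0 → p a = 0) :
    klw p (fun a => c * q a) = klw p q := by
  unfold klw
  have h1 : ∑ a, p a * Real.log (p a / (c * q a))
      = ∑ a, p a * Real.log (p a / q a) - (∑ a, p a) * Real.log c := by
    rw [Finset.sum_mul, ← Finset.sum_sub_distrib]
    exact Finset.sum_congr rfl (fun a _ => term_right c (p a) (q a) hc (hac a))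
  have h2 : ∑ a, c * q a = c * ∑ a, q a := by rw [Finset.mul_sum]
  have h3 := term_right c (∑ a, p a) (∑ a, q a) hc
    (fun hQ => by
      by_contra hP
      exact sum_q_ne p q hq hac hP hQ)
  rw [h1, h2, h3]
  ring

theorem klw_smul_both {A : Type*} [Fintype A] (c : ℝ) (hc : 0 ≤ c) (p q : A → ℝ)
    (hp : ∀ a, 0 ≤ p a) (hq : ∀ a, 0 ≤ q a) (hac : ∀ a, q a = 0 → p a = 0) :
    klw (fun a => c * p a) (fun a => c * q a) = c * klw p q := by
  rcases hc.eq_or_lt with rfl | hc'
  · simp [klw]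
  · rw [klw_smul_right c hc' (fun a => c * p a) q (fun a => mul_nonneg hc (hp a)) hq
      (fun a h => by rw [hac a h, mul_zero])]
    exact klw_smul_left c hc p q hp hq hac

/-- a constant density has zero divergence -/
theorem klw_const_mul {A : Type*} [Fintype A] (c : ℝ) (hc : 0 ≤ c) (q : A → ℝ)
    (hq : ∀ a, 0 ≤ q a) : klw (fun a => c * q a) q = 0 := by
  rw [klw_smul_left c hc q q hq hq (fun _ h => h)]
  have : klw q q = 0 := by
    unfold klw
    simp
  rw [this, mul_zero]

end Vale.Agent.P162.Mid
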