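import Vale.Agent.P162.Mid.Defs
import Vale.Agent.P162.Mid.KlwNonneg
import Vale.Agent.P162.Mid.KlwChain
import Vale.Agent.P162.Mid.KlwChainMap
import Vale.Agent.P162.Mid.KlwMapLe
import Vale.Agent.P162.Mid.KlwSmul

namespace Vale.Agent.P162.Mid
open Finset

private lemma log_split (x y w : ℝ) (hx : 0 ≤ x) (hy : x ≠ 0 → 0 < y) (hw : x ≠ 0 → 0 < w) :
    x * Real.log (x / w) = x * Real.log (x / y) + x * Real.log (y / w) := by
  by_cases h0 : x = 0
  · rw [h0]; simp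
  · have hxpos : 0 < x := lt_of_le_of_ne hx (Ne.symm h0)
    have hy' := hy h0
    have hw' := hw h0
    rw [Real.log_div hxpos.ne' hw'.ne', Real.log_div hxpos.ne' hy'.ne',
      Real.log_div hy'.ne' hw'.ne']
    ring

/-- convexity (= subadditivity + homogeneity) in the first argument -/
theorem klw_sum_le {ι A : Type*} [Fintype ι] [Fintype A] (p : ι → A → ℝ) (q : A → ℝ)
    (hp : ∀ i a, 0 ≤ p i a) (hq : ∀ a, 0 ≤ q a) (hac : ∀ i a, q a = 0 → p i a = 0) :
    klw (fun a => ∑ i, p i a) q ≤ ∑ i, klw (p i) q := by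
  obtain ⟨pb, hpb⟩ : ∃ pb : A → ℝ, pb = fun a => ∑ i, p i a := ⟨_, rfl⟩
  obtain ⟨P, hP⟩ : ∃ P : ι → ℝ, P = fun i => ∑ a, p i a := ⟨_, rfl⟩
  obtain ⟨Pb, hPb⟩ : ∃ Pb : ℝ, Pb = ∑ a, pb a := ⟨_, rfl⟩
  obtain ⟨Qs, hQs⟩ : ∃ Qs : ℝ, Qs = ∑ a, q a := ⟨_, rfl⟩
  have hpbnn : ∀ a, 0 ≤ pb a := fun a => by rw [hpb]; exact Finset.sum_nonneg (fun i _ => hp i a)
  have hPnn : ∀ i, 0 ≤ P i := fun i => by rw [hP]; exact Finset.sum_nonneg (fun a _ => hp i a)
  have hPsum : ∑ i, P i = Pb := by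
    rw [hPb, hpb, hP]; exact Finset.sum_comm
  have hle_pb : ∀ i a, p i a ≤ pb a := fun i a => by
    rw [hpb]
    exact Finset.single_le_sum (f := fun i => p i a) (fun j _ => hp j a) (Finset.mem_univ i)
  have hle_Pb : ∀ i, P i ≤ Pb := fun i => by
    rw [← hPsum]
    exact Finset.single_le_sum (f := fun i => P i) (fun j _ => hPnn j) (Finset.mem_univ i)
  have hqpos : ∀ i a, p i a ≠ 0 → 0 < q a := fun i a h =>
    lt_of_le_of_ne (hq a) (fun h0 => h (hac i a h0.symm))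
  have hpbpos : ∀ i a, p i a ≠ 0 → 0 < pb a := fun i a h =>
    lt_of_lt_of_le (lt_of_le_of_ne (hp i a) (Ne.symm h)) (hle_pb i a)
  have hPbpos : ∀ i, P i ≠ 0 → 0 < Pb := fun i h =>
    lt_of_lt_of_le (lt_of_le_of_ne (hPnn i) (Ne.symm h)) (hle_Pb i)
  have hQspos : ∀ i, P i ≠ 0 → 0 < Qs := by
    intro i h
    have : ∃ a, p i a ≠ 0 := by
      by_contra hcon
      apply h
      rw [hP]
      apply Finset.sum_eq_zero
      intro a _
      by_contra h2
      exact hcon ⟨a, h2⟩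
    obtain ⟨a, ha⟩ := this
    rw [hQs]
    exact Finset.sum_pos' (fun a _ => hq a) ⟨a, Finset.mem_univ a, hqpos i a ha⟩
  -- first identity
  have e1 : ∑ i, ∑ a, p i a * Real.log (p i a / q a)
      = ∑ i, ∑ a, p i a * Real.log (p i a / pb a) + ∑ a, pb a * Real.log (pb a / q a) := by
    have h1 : ∑ a, pb a * Real.log (pb a / q a) = ∑ i, ∑ a, p i a * Real.log (pb a / q a) := by
      rw [Finset.sum_comm]
      refine Finset.sum_congr rfl fun a _ => ?_
      rw [← Finset.sum_mul]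
      rw [hpb]
    rw [h1, ← Finset.sum_add_distrib]
    refine Finset.sum_congr rfl fun i _ => ?_
    rw [← Finset.sum_add_distrib]
    refine Finset.sum_congr rfl fun a _ => ?_
    exact log_split _ _ _ (hp i a) (hpbpos i a) (hqpos i a)
  have e2 : ∑ i, P i * Real.log (P i / Qs)
      = ∑ i, P i * Real.log (P i / Pb) + Pb * Real.log (Pb / Qs) := by
    rw [← hPsum, Finset.sum_mul, ← Finset.sum_add_distrib, hPsum]
    refine Finset.sum_congr rfl fun i _ => ?_
    exact log_split _ _ _ (hPnn i) (hPbpos i) (hQspos i)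
  have hineq : ∑ i, P i * Real.log (P i / Pb) ≤ ∑ i, ∑ a, p i a * Real.log (p i a / pb a) := by
    refine Finset.sum_le_sum fun i _ => ?_
    have h := KL.log_sum Finset.univ (p i) pb (fun a _ => hp i a) (fun a _ => hpbnn a)
      (fun a _ h0 => le_antisymm (h0 ▸ hle_pb i a) (hp i a))
    rw [← hPb] at h
    have hPi : P i = ∑ a, p i a := by rw [hP]
    rw [hPi]
    exact h
  have hL : klw (fun a => ∑ i, p i a) q = ∑ a, pb a * Real.log (pb a / q a) - Pb * Real.log (Pb / Qs) := by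
    unfold klw
    rw [hPb, hQs, hpb]
  have hR : ∑ i, klw (p i) q
      = ∑ i, ∑ a, p i a * Real.log (p i a / q a) - ∑ i, P i * Real.log (P i / Qs) := by
    unfold klw
    rw [Finset.sum_sub_distrib, hQs, hP]
  rw [hL, hR, e1, e2]
  linarith

end Vale.Agent.P162.Mid
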