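import Vale.Agent.P162.Mid.Defs
import Vale.Agent.P162.Mid.KlwNonneg
import Vale.Agent.P162.Mid.KlwChain
import Vale.Agent.P162.Mid.KlwChainMap
import Vale.Agent.P162.Mid.KlwMapLe
import Vale.Agent.P162.Mid.KlwSmul
import Vale.Agent.P162.Mid.KlwSumLe

namespace Vale.Agent.P162.Mid
open Finset

/-- multiplying both weights by `w ≤ c`.  Proof: variational formula
`klw p q ≤ ∑ (p log (p/(t q)) - p + t q)` for every `t > 0`, equality at `t = ∑ p / ∑ q`,
and the summands are nonnegative. -/
theorem klw_mono_weight {A : Type*} [Fintype A] (p q w : A → ℝ) (c : ℝ)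
    (hp : ∀ a, 0 ≤ p a) (hq : ∀ a, 0 ≤ q a) (hac : ∀ a, q a = 0 → p a = 0)
    (hw0 : ∀ a, 0 ≤ w a) (hwc : ∀ a, w a ≤ c) :
    klw (fun a => w a * p a) (fun a => w a * q a) ≤ c * klw p q := by
  have hP0 : 0 ≤ ∑ a, p a := Finset.sum_nonneg (fun a _ => hp a)
  rcases hP0.eq_or_lt with hP | hP
  · -- all `p a` vanish
    have hz : ∀ a, p a = 0 := by
      intro a
      exact (Finset.sum_eq_zero_iff_of_nonneg (fun a _ => hp a)).mp hP.symm a (Finset.mem_univ a)
    unfold klw
    simp [hz]
  · have hQ : 0 < ∑ a, q a := by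
      obtain ⟨a, -, ha⟩ := Finset.exists_lt_of_sum_lt (s := Finset.univ) (f := fun _ => (0 : ℝ))
        (g := p) (by simpa using hP)
      have hqa : 0 < q a := by
        rcases (hq a).eq_or_lt with h | h
        · exact absurd (hac a h.symm) (ne_of_gt ha)
        · exact h
      exact lt_of_lt_of_le hqa (Finset.single_le_sum (fun a _ => hq a) (Finset.mem_univ a))
    set P := ∑ a, p a with hPdef
    set Q := ∑ a, q a with hQdef
    -- the nonnegative summands
    let h : A → ℝ := fun a =>
      p a * Real.log (p a / q a) - (p a * Real.log (P / Q) + p a - q a * (P / Q))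
    have hh0 : ∀ a, 0 ≤ h a := by
      intro a
      have := KL.log_sum_term (p a) (q a) P Q (hp a) (hq a) (hac a) hP hQ
      simp only [h]
      linarith
    have hsum : ∑ a, h a = klw p q := by
      simp only [h]
      unfold klw
      rw [Finset.sum_sub_distrib, Finset.sum_sub_distrib, Finset.sum_add_distrib,
        ← Finset.sum_mul, ← Finset.sum_mul, ← hPdef, ← hQdef]
      field_simp
      ring
    have hP'0 : 0 ≤ ∑ a, w a * p a := Finset.sum_nonneg (fun a _ => mul_nonneg (hw0 a) (hp a))
    have hQ'0 : 0 ≤ ∑ a, w a * q a := Finset.sum_nonneg (fun a _ => mul_nonneg (hw0 a) (hq a))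
    have hac' : ∑ a, w a * q a = 0 → ∑ a, w a * p a = 0 := by
      intro hz
      have hz' : ∀ a, w a * q a = 0 := fun a =>
        (Finset.sum_eq_zero_iff_of_nonneg (fun a _ => mul_nonneg (hw0 a) (hq a))).mp hz a
          (Finset.mem_univ a)
      apply Finset.sum_eq_zero
      intro a _
      rcases mul_eq_zero.mp (hz' a) with h1 | h1
      · rw [h1, zero_mul]
      · rw [hac a h1, mul_zero]
    have hvar := KL.log_sum_term (∑ a, w a * p a) (∑ a, w a * q a) P Q hP'0 hQ'0 hac' hP hQ
    have hterm : ∀ a, w a * p a * Real.log (w a * p a / (w a * q a))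
        = w a * (p a * Real.log (p a / q a)) := by
      intro a
      rcases (hw0 a).eq_or_lt with h1 | h1
      · rw [← h1]; simp
      · rw [mul_div_mul_left _ _ (ne_of_gt h1)]; ring
    have hwsum : ∑ a, w a * h a
        = ∑ a, w a * p a * Real.log (w a * p a / (w a * q a))
          - ((∑ a, w a * p a) * Real.log (P / Q) + ∑ a, w a * p a
            - (∑ a, w a * q a) * (P / Q)) := by
      simp only [h]
      rw [Finset.sum_congr rfl (fun a _ => hterm a), Finset.sum_mul, Finset.sum_mul,
        ← Finset.sum_add_distrib, ← Finset.sum_sub_distrib, ← Finset.sum_sub_distrib]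
      apply Finset.sum_congr rfl
      intro a _
      ring
    have h1 : klw (fun a => w a * p a) (fun a => w a * q a) ≤ ∑ a, w a * h a := by
      rw [hwsum]
      unfold klw
      linarith
    have h2 : ∑ a, w a * h a ≤ c * ∑ a, h a := by
      rw [Finset.mul_sum]
      exact Finset.sum_le_sum (fun a _ => mul_le_mul_of_nonneg_right (hwc a) (hh0 a))
    rw [← hsum]
    exact le_trans h1 h2

end Vale.Agent.P162.Mid
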