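import Vale.Agent.P162.Mid.Defs
import Vale.Agent.P162.Mid.KlwNonneg
import Vale.Agent.P162.Mid.KlwChain
import Vale.Agent.P162.Mid.KlwChainMap
import Vale.Agent.P162.Mid.KlwMapLe
import Vale.Agent.P162.Mid.KlwSmul
import Vale.Agent.P162.Mid.KlwSumLe
import Vale.Agent.P162.Mid.KlwMonoWeight

namespace Vale.Agent.P162.Mid
open Finset

/-- superadditivity for a product reference weight -/
theorem klw_super {A B : Type*} [Fintype A] [Fintype B] (Q : A × B → ℝ) (r1 : A → ℝ) (r2 : B → ℝ)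
    (hQ : ∀ p, 0 ≤ Q p) (h1 : ∀ a, 0 ≤ r1 a) (h2 : ∀ b, 0 ≤ r2 b)
    (hac : ∀ p : A × B, r1 p.1 * r2 p.2 = 0 → Q p = 0) :
    klw (fun a => ∑ b, Q (a, b)) r1 + klw (fun b => ∑ a, Q (a, b)) r2 ≤
      klw Q (fun p => r1 p.1 * r2 p.2) := by
  obtain ⟨P, hP⟩ : ∃ P : ℝ, P = ∑ p, Q p := ⟨_, rfl⟩
  obtain ⟨Q1, hQ1⟩ : ∃ Q1 : A → ℝ, Q1 = fun a => ∑ b, Q (a, b) := ⟨_, rfl⟩
  obtain ⟨Q2, hQ2⟩ : ∃ Q2 : B → ℝ, Q2 = fun b => ∑ a, Q (a, b) := ⟨_, rfl⟩
  rw [← hQ1, ← hQ2]
  have hQ1nn : ∀ a, 0 ≤ Q1 a := fun a => by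
    rw [hQ1]
    exact Finset.sum_nonneg (fun b _ => hQ _)
  have hQ2nn : ∀ b, 0 ≤ Q2 b := fun b => by
    rw [hQ2]
    exact Finset.sum_nonneg (fun a _ => hQ _)
  have hle1 : ∀ a b, Q (a, b) ≤ Q1 a := fun a b => by
    rw [hQ1]
    exact Finset.single_le_sum (f := fun b => Q (a, b)) (fun b _ => hQ _) (Finset.mem_univ b)
  have hle2 : ∀ a b, Q (a, b) ≤ Q2 b := fun a b => by
    rw [hQ2]
    exact Finset.single_le_sum (f := fun a => Q (a, b)) (fun a _ => hQ _) (Finset.mem_univ a)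
  have hs1 : ∑ a, Q1 a = P := by
    rw [hP, hQ1, Fintype.sum_prod_type]
  have hs2 : ∑ b, Q2 b = P := by
    rw [hP, hQ2, Fintype.sum_prod_type, Finset.sum_comm]
  have hsr : ∑ p : A × B, r1 p.1 * r2 p.2 = (∑ a, r1 a) * ∑ b, r2 b := by
    rw [Fintype.sum_prod_type, Finset.sum_mul_sum]
  have hP0 : 0 ≤ P := by
    rw [hP]
    exact Finset.sum_nonneg (fun p _ => hQ p)
  unfold klw
  rw [hs1, hs2, ← hP, hsr]
  rcases hP0.eq_or_lt with hz | hpos
  · -- everything vanishes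
    have hQz : ∀ p, Q p = 0 := by
      intro p
      have := (Finset.sum_eq_zero_iff_of_nonneg (fun p _ => hQ p)).1 (hP.symm.trans hz.symm)
      exact this p (Finset.mem_univ p)
    have hQ1z : ∀ a, Q1 a = 0 := fun a => by
      rw [hQ1]
      exact Finset.sum_eq_zero (fun b _ => hQz _)
    have hQ2z : ∀ b, Q2 b = 0 := fun b => by
      rw [hQ2]
      exact Finset.sum_eq_zero (fun a _ => hQz _)
    simp [hQz, hQ1z, hQ2z, ← hz]
  · -- the main case
    obtain ⟨p0, hp0⟩ : ∃ p, 0 < Q p := by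
      by_contra hcon
      have : ∑ p, Q p ≤ 0 := Finset.sum_nonpos (fun p _ => by
        by_contra h
        exact hcon ⟨p, not_le.1 h⟩)
      linarith
    have hr0 : r1 p0.1 * r2 p0.2 ≠ 0 := fun h => by
      have := hac p0 h
      linarith
    have hR1 : 0 < ∑ a, r1 a := by
      have h3 : 0 < r1 p0.1 := lt_of_le_of_ne (h1 _) (fun h => hr0 (by rw [← h, zero_mul]))
      exact Finset.sum_pos' (fun a _ => h1 a) ⟨p0.1, Finset.mem_univ _, h3⟩
    have hR2 : 0 < ∑ b, r2 b := by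
      have h3 : 0 < r2 p0.2 := lt_of_le_of_ne (h2 _) (fun h => hr0 (by rw [← h, mul_zero]))
      exact Finset.sum_pos' (fun b _ => h2 b) ⟨p0.2, Finset.mem_univ _, h3⟩
    -- pointwise identity
    have hpt : ∀ p : A × B, Q p * Real.log (Q p / (r1 p.1 * r2 p.2))
        = Q p * Real.log (Q p / (Q1 p.1 * Q2 p.2 / P)) + Q p * Real.log (Q1 p.1 / r1 p.1)
          + Q p * Real.log (Q2 p.2 / r2 p.2) - Q p * Real.log P := by
      intro p
      rcases (hQ p).eq_or_lt with h0 | hp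
      · rw [← h0]
        simp
      · have hr : r1 p.1 * r2 p.2 ≠ 0 := fun h => by
          have := hac p h
          linarith
        have hr1 : 0 < r1 p.1 := lt_of_le_of_ne (h1 _) (fun h => hr (by rw [← h, zero_mul]))
        have hr2 : 0 < r2 p.2 := lt_of_le_of_ne (h2 _) (fun h => hr (by rw [← h, mul_zero]))
        have hq1 : 0 < Q1 p.1 := lt_of_lt_of_le hp (hle1 p.1 p.2)
        have hq2 : 0 < Q2 p.2 := lt_of_lt_of_le hp (hle2 p.1 p.2)
        have e : Real.log (Q p / (r1 p.1 * r2 p.2))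
            = Real.log (Q p / (Q1 p.1 * Q2 p.2 / P)) + Real.log (Q1 p.1 / r1 p.1)
              + Real.log (Q2 p.2 / r2 p.2) - Real.log P := by
          rw [Real.log_div hp.ne' (by positivity), Real.log_div hp.ne' (by positivity),
            Real.log_div (by positivity) hpos.ne', Real.log_div hq1.ne' hr1.ne',
            Real.log_div hq2.ne' hr2.ne', Real.log_mul hr1.ne' hr2.ne',
            Real.log_mul hq1.ne' hq2.ne']
          ring
        rw [e]
        ring
    have hsumA : ∑ p : A × B, Q p * Real.log (Q1 p.1 / r1 p.1)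
        = ∑ a, Q1 a * Real.log (Q1 a / r1 a) := by
      rw [Fintype.sum_prod_type]
      apply Finset.sum_congr rfl
      intro a _
      show ∑ x, Q (a, x) * Real.log (Q1 a / r1 a) = Q1 a * Real.log (Q1 a / r1 a)
      rw [← Finset.sum_mul, hQ1]
    have hsumB : ∑ p : A × B, Q p * Real.log (Q2 p.2 / r2 p.2)
        = ∑ b, Q2 b * Real.log (Q2 b / r2 b) := by
      rw [Fintype.sum_prod_type, Finset.sum_comm]
      apply Finset.sum_congr rfl
      intro b _
      show ∑ x, Q (x, b) * Real.log (Q2 b / r2 b) = Q2 b * Real.log (Q2 b / r2 b)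
      rw [← Finset.sum_mul, hQ2]
    have hsumP : ∑ p : A × B, Q p * Real.log P = P * Real.log P := by
      rw [← Finset.sum_mul, ← hP]
    have hmain : ∑ p : A × B, Q p * Real.log (Q p / (r1 p.1 * r2 p.2))
        = ∑ p : A × B, Q p * Real.log (Q p / (Q1 p.1 * Q2 p.2 / P))
          + ∑ a, Q1 a * Real.log (Q1 a / r1 a) + ∑ b, Q2 b * Real.log (Q2 b / r2 b)
          - P * Real.log P := by
      rw [Finset.sum_congr rfl (fun p _ => hpt p), Finset.sum_sub_distrib, Finset.sum_add_distrib,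
        Finset.sum_add_distrib, hsumA, hsumB, hsumP]
    have hls := KL.log_sum Finset.univ Q (fun p : A × B => Q1 p.1 * Q2 p.2 / P)
      (fun p _ => hQ p) (fun p _ => div_nonneg (mul_nonneg (hQ1nn _) (hQ2nn _)) hP0)
      (fun p _ h0 => by
        have h3 : Q1 p.1 * Q2 p.2 = 0 := by
          rcases div_eq_zero_iff.1 h0 with h | h
          · exact h
          · exact absurd h hpos.ne'
        rcases mul_eq_zero.1 h3 with h | h
        · exact le_antisymm (h ▸ hle1 p.1 p.2) (hQ p)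
        · exact le_antisymm (h ▸ hle2 p.1 p.2) (hQ p))
    have hsb : ∑ p : A × B, Q1 p.1 * Q2 p.2 / P = P := by
      rw [← Finset.sum_div, Fintype.sum_prod_type, ← Finset.sum_mul_sum, hs1, hs2]
      field_simp
    rw [hsb, ← hP, div_self hpos.ne', Real.log_one, mul_zero] at hls
    have e1 : Real.log (P / ((∑ a, r1 a) * ∑ b, r2 b))
        = Real.log P - Real.log (∑ a, r1 a) - Real.log (∑ b, r2 b) := by
      rw [Real.log_div hpos.ne' (by positivity), Real.log_mul hR1.ne' hR2.ne']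
      ring
    have e2 : Real.log (P / ∑ a, r1 a) = Real.log P - Real.log (∑ a, r1 a) :=
      Real.log_div hpos.ne' hR1.ne'
    have e3 : Real.log (P / ∑ b, r2 b) = Real.log P - Real.log (∑ b, r2 b) :=
      Real.log_div hpos.ne' hR2.ne'
    rw [hmain, e1, e2, e3]
    nlinarith

end Vale.Agent.P162.Mid
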