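import Vale.Agent.P162.Mid.Defs
import Vale.Agent.P162.Mid.KlwNonneg
import Vale.Agent.P162.Mid.KlwChain
import Vale.Agent.P162.Mid.KlwChainMap
import Vale.Agent.P162.Mid.KlwMapLe
import Vale.Agent.P162.Mid.KlwSmul
import Vale.Agent.P162.Mid.KlwSumLe
import Vale.Agent.P162.Mid.KlwMonoWeight
import Vale.Agent.P162.Mid.KlwSuper

namespace Vale.Agent.P162.Mid
open Finset

theorem SDPIw_zero {X Y : Type*} [Fintype X] [Fintype Y] (W : X → Y → ℝ) (h : ∀ x y, W x y = 0)
    (η : ℝ) : SDPIw W η := by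
  intro f _
  simp [klw, h]

private theorem inp_nonneg {X Y : Type*} [Fintype X] [Fintype Y] (W : X → Y → ℝ)
    (hW : ∀ x y, 0 ≤ W x y) (f : X → ℝ) (hf : ∀ x, 0 ≤ f x) :
    0 ≤ klw (fun x => f x * ∑ y, W x y) (fun x => ∑ y, W x y) := by
  apply klw_nonneg
  · intro x
    exact mul_nonneg (hf x) (Finset.sum_nonneg (fun y _ => hW x y))
  · intro x
    exact Finset.sum_nonneg (fun y _ => hW x y)
  · intro x hx
    simp only [hx, mul_zero]

theorem SDPIw_mono {X Y : Type*} [Fintype X] [Fintype Y] (W : X → Y → ℝ) (hW : ∀ x y, 0 ≤ W x y)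
    {η η' : ℝ} (h : η ≤ η') (hs : SDPIw W η) : SDPIw W η' := by
  intro f hf
  exact le_trans (hs f hf) (mul_le_mul_of_nonneg_right h (inp_nonneg W hW f hf))

/-- scaling the joint weight -/
theorem SDPIw_smul {X Y : Type*} [Fintype X] [Fintype Y] (W : X → Y → ℝ) (hW : ∀ x y, 0 ≤ W x y)
    (c : ℝ) (hc : 0 ≤ c) {η : ℝ} (hs : SDPIw W η) : SDPIw (fun x y => c * W x y) η := by
  intro f hf
  have e1 : (fun y => ∑ x, f x * (c * W x y)) = fun y => c * ∑ x, f x * W x y := by
    funext y
    rw [Finset.mul_sum]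
    apply Finset.sum_congr rfl
    intro x _
    ring
  have e2 : (fun y => ∑ x, c * W x y) = fun y => c * ∑ x, W x y := by
    funext y
    rw [Finset.mul_sum]
  have e3 : (fun x => f x * ∑ y, c * W x y) = fun x => c * (f x * ∑ y, W x y) := by
    funext x
    rw [← Finset.mul_sum]
    ring
  have e4 : (fun x => ∑ y, c * W x y) = fun x => c * ∑ y, W x y := by
    funext x
    rw [Finset.mul_sum]
  show klw (fun y => ∑ x, f x * (c * W x y)) (fun y => ∑ x, c * W x y) ≤
      η * klw (fun x => f x * ∑ y, c * W x y) (fun x => ∑ y, c * W x y)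
  rw [e1, e2, e3, e4]
  rw [klw_smul_both c hc (fun y => ∑ x, f x * W x y) (fun y => ∑ x, W x y)
      (fun y => Finset.sum_nonneg (fun x _ => mul_nonneg (hf x) (hW x y)))
      (fun y => Finset.sum_nonneg (fun x _ => hW x y))
      (by
        intro y hy
        have h0 : ∀ x ∈ Finset.univ, W x y = 0 :=
          (Finset.sum_eq_zero_iff_of_nonneg (fun x _ => hW x y)).mp hy
        apply Finset.sum_eq_zero
        intro x hx
        rw [h0 x hx, mul_zero])]
  rw [klw_smul_both c hc (fun x => f x * ∑ y, W x y) (fun x => ∑ y, W x y)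
      (fun x => mul_nonneg (hf x) (Finset.sum_nonneg (fun y _ => hW x y)))
      (fun x => Finset.sum_nonneg (fun y _ => hW x y))
      (by
        intro x hx
        simp only [hx, mul_zero])]
  calc c * klw (fun y => ∑ x, f x * W x y) (fun y => ∑ x, W x y)
      ≤ c * (η * klw (fun x => f x * ∑ y, W x y) (fun x => ∑ y, W x y)) :=
        mul_le_mul_of_nonneg_left (hs f hf) hc
    _ = η * (c * klw (fun x => f x * ∑ y, W x y) (fun x => ∑ y, W x y)) := by ring

/-- the set of valid constants is closed under infimum -/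
theorem SDPIw_sInf {X Y : Type*} [Fintype X] [Fintype Y] (W : X → Y → ℝ) (hW : ∀ x y, 0 ≤ W x y)
    (s : Set ℝ) (hne : s.Nonempty) (hs : ∀ η ∈ s, 0 ≤ η ∧ SDPIw W η) : SDPIw W (sInf s) := by
  intro f hf
  have hin := inp_nonneg W hW f hf
  rcases hin.eq_or_lt with h0 | hpos
  · obtain ⟨η0, hη0⟩ := hne
    have h1 := (hs η0 hη0).2 f hf
    rw [← h0, mul_zero] at h1
    rw [← h0, mul_zero]
    exact h1
  · rw [← div_le_iff₀ hpos]
    apply le_csInf hne
    intro η hη
    rw [div_le_iff₀ hpos]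
    exact (hs η hη).2 f hf

end Vale.Agent.P162.Mid
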