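import Vale.Agent.P162.Mid.Defs
import Vale.Agent.P162.Mid.KlwNonneg
import Vale.Agent.P162.Mid.KlwChain
import Vale.Agent.P162.Mid.KlwChainMap
import Vale.Agent.P162.Mid.KlwMapLe
import Vale.Agent.P162.Mid.KlwSmul
import Vale.Agent.P162.Mid.KlwSumLe
import Vale.Agent.P162.Mid.KlwMonoWeight
import Vale.Agent.P162.Mid.KlwSuper
import Vale.Agent.P162.Mid.SdpiBasic

namespace Vale.Agent.P162.Mid
open Finset

private theorem klw_swap {X Y : Type*} [Fintype X] [Fintype Y] (p q : X → Y → ℝ) :
    klw (fun z : X × Y => p z.1 z.2) (fun z : X × Y => q z.1 z.2) =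
      klw (fun z : Y × X => p z.2 z.1) (fun z : Y × X => q z.2 z.1) := by
  unfold klw
  simp only [Fintype.sum_prod_type]
  rw [Finset.sum_comm (f := fun x y => p x y * Real.log (p x y / q x y)),
    Finset.sum_comm (f := fun x y => p x y), Finset.sum_comm (f := fun x y => q x y)]

/-- input divergence = output divergence + sum over outputs of the posterior divergences -/
theorem chain_io {X Y : Type*} [Fintype X] [Fintype Y] (W : X → Y → ℝ) (hW : ∀ x y, 0 ≤ W x y)
    (f : X → ℝ) (hf : ∀ x, 0 ≤ f x) :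
    klw (fun x => f x * ∑ y, W x y) (fun x => ∑ y, W x y) =
      klw (fun y => ∑ x, f x * W x y) (fun y => ∑ x, W x y) +
        ∑ y, klw (fun x => f x * W x y) (fun x => W x y) := by
  have h1 := klw_chain (fun z : X × Y => f z.1 * W z.1 z.2) (fun z : X × Y => W z.1 z.2)
  have h2 := klw_chain (fun z : Y × X => f z.2 * W z.2 z.1) (fun z : Y × X => W z.2 z.1)
  have h3 := klw_swap (fun x y => f x * W x y) W
  have h4 : ∑ x, klw (fun y => f x * W x y) (fun y => W x y) = 0 :=
    Finset.sum_eq_zero (fun x _ => klw_const_mul (f x) (hf x) (fun y => W x y) (hW x))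
  simp only [] at h1 h2 h3
  rw [h4, add_zero] at h1
  have h5 : (fun x => f x * ∑ y, W x y) = (fun x => ∑ y, f x * W x y) := by
    funext x; rw [Finset.mul_sum]
  rw [h5, ← h1, h3, h2]

end Vale.Agent.P162.Mid
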