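import Vale.Agent.P162.Mid.Defs
import Vale.Agent.P162.Mid.KlwNonneg
import Vale.Agent.P162.Mid.KlwChain
import Vale.Agent.P162.Mid.KlwChainMap
import Vale.Agent.P162.Mid.KlwMapLe
import Vale.Agent.P162.Mid.KlwSmul
import Vale.Agent.P162.Mid.KlwSumLe
import Vale.Agent.P162.Mid.KlwMonoWeight
import Vale.Agent.P162.Mid.KlwSuper
import Vale.Agent.P162.Mid.SdpiBasic
import Vale.Agent.P162.Mid.ChainIO

namespace Vale.Agent.P162.Mid
open Finset

/-- data processing -/
theorem SDPIw_one {X Y : Type*} [Fintype X] [Fintype Y] (W : X → Y → ℝ) (hW : ∀ x y, 0 ≤ W x y) :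
    SDPIw W 1 := by
  intro f hf
  rw [one_mul, chain_io W hW f hf]
  have h : 0 ≤ ∑ y, klw (fun x => f x * W x y) (fun x => W x y) := by
    refine Finset.sum_nonneg fun y _ => ?_
    refine klw_nonneg _ _ (fun x => mul_nonneg (hf x) (hW x y)) (fun x => hW x y) ?_
    intro x hx
    simp only [hx, mul_zero]
  linarith

end Vale.Agent.P162.Mid
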