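import Vale.Agent.P162.Mid.Defs
import Vale.Agent.P162.Mid.KlwNonneg
import Vale.Agent.P162.Mid.KlwChain
import Vale.Agent.P162.Mid.KlwChainMap
import Vale.Agent.P162.Mid.KlwMapLe
import Vale.Agent.P162.Mid.KlwSmul
import Vale.Agent.P162.Mid.KlwSumLe
import Vale.Agent.P162.Mid.KlwMonoWeight
import Vale.Agent.P162.Mid.KlwSuper
import Vale.Agent.P162.Mid.SdpiBasic
import Vale.Agent.P162.Mid.ChainIO
import Vale.Agent.P162.Mid.SdpiOne

namespace Vale.Agent.P162.Mid
open Finset

private theorem klw_zero_aux {X : Type*} [Fintype X] (f : X → ℝ) :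
    klw (fun x => f x * 0) (fun _ => (0 : ℝ)) = 0 := by
  simp [klw]

/-- the posterior divergences of a set `B` of outputs of relative weight at most `c` -/
theorem chain_part {X Y : Type*} [Fintype X] [Fintype Y] (W : X → Y → ℝ) (hW : ∀ x y, 0 ≤ W x y)
    (B : Finset Y) (c : ℝ) (hB : ∀ x, ∑ y ∈ B, W x y ≤ c * ∑ y, W x y)
    (f : X → ℝ) (hf : ∀ x, 0 ≤ f x) :
    ∑ y ∈ B, klw (fun x => f x * W x y) (fun x => W x y) ≤
      c * klw (fun x => f x * ∑ y, W x y) (fun x => ∑ y, W x y) := by
  classical
  have hu0 : ∀ x, 0 ≤ ∑ y, W x y := fun x => Finset.sum_nonneg (fun y _ => hW x y)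
  have hB0 : ∀ x, 0 ≤ ∑ y ∈ B, W x y := fun x => Finset.sum_nonneg (fun y _ => hW x y)
  by_cases hc : 0 ≤ c
  · set W' : X → Y → ℝ := fun x y => if y ∈ B then W x y else 0 with hW'
    have hW'0 : ∀ x y, 0 ≤ W' x y := by
      intro x y
      simp only [hW']
      split_ifs
      · exact hW x y
      · exact le_refl _
    have hsum : ∀ x, ∑ y, W' x y = ∑ y ∈ B, W x y := by
      intro x
      simp only [hW']
      rw [Finset.sum_ite_mem]
      simp
    have h1 := chain_io W' hW'0 f hf
    have h2 : 0 ≤ klw (fun y => ∑ x, f x * W' x y) (fun y => ∑ x, W' x y) := by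
      apply klw_nonneg
      · intro y
        exact Finset.sum_nonneg (fun x _ => mul_nonneg (hf x) (hW'0 x y))
      · intro y
        exact Finset.sum_nonneg (fun x _ => hW'0 x y)
      · intro y hy
        have h0 := (Finset.sum_eq_zero_iff_of_nonneg (fun x _ => hW'0 x y)).1 hy
        apply Finset.sum_eq_zero
        intro x hx
        rw [h0 x hx, mul_zero]
    have h3 : ∑ y, klw (fun x => f x * W' x y) (fun x => W' x y) =
        ∑ y ∈ B, klw (fun x => f x * W x y) (fun x => W x y) := by
      rw [← Finset.sum_subset (Finset.subset_univ B)]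
      · apply Finset.sum_congr rfl
        intro y hy
        simp only [hW', if_pos hy]
      · intro y _ hy
        simp only [hW', if_neg hy]
        exact klw_zero_aux f
    have hw : ∀ x, ∑ y ∈ B, W x y = ((∑ y ∈ B, W x y) / ∑ y, W x y) * ∑ y, W x y := by
      intro x
      by_cases hx : ∑ y, W x y = 0
      · have h4 := hB x
        rw [hx, mul_zero] at h4
        rw [hx, mul_zero]
        exact le_antisymm h4 (hB0 x)
      · rw [div_mul_cancel₀ _ hx]
    have h5 := klw_mono_weight (fun x => f x * ∑ y, W x y) (fun x => ∑ y, W x y)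
      (fun x => (∑ y ∈ B, W x y) / ∑ y, W x y) c
      (fun x => mul_nonneg (hf x) (hu0 x)) hu0
      (fun x hx => by simp only [hx, mul_zero])
      (fun x => div_nonneg (hB0 x) (hu0 x))
      (fun x => by
        by_cases hx : ∑ y, W x y = 0
        · rw [hx, div_zero]
          exact hc
        · have hpos : 0 < ∑ y, W x y := lt_of_le_of_ne (hu0 x) (Ne.symm hx)
          rw [div_le_iff₀ hpos]
          exact hB x)
    have e1 : (fun x => f x * ∑ y, W' x y) =
        (fun x => ((∑ y ∈ B, W x y) / ∑ y, W x y) * (f x * ∑ y, W x y)) := by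
      funext x
      rw [hsum x]
      conv_lhs => rw [hw x]
      ring
    have e2 : (fun x => ∑ y, W' x y) =
        (fun x => ((∑ y ∈ B, W x y) / ∑ y, W x y) * ∑ y, W x y) := by
      funext x
      rw [hsum x]
      exact hw x
    rw [e1, e2] at h1
    rw [← h3]
    linarith
  · have hc' : c < 0 := lt_of_not_ge hc
    have hu : ∀ x, ∑ y, W x y = 0 := by
      intro x
      have h4 := le_trans (hB0 x) (hB x)
      have h5 := hu0 x
      nlinarith
    have hW0 : ∀ x y, W x y = 0 := by
      intro x y
      exact (Finset.sum_eq_zero_iff_of_nonneg (fun y _ => hW x y)).1 (hu x) y (Finset.mem_univ y)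
    simp [klw, hW0]

end Vale.Agent.P162.Mid
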