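import Vale.Agent.P162.Mid.Defs
import Vale.Agent.P162.Mid.KlwNonneg
import Vale.Agent.P162.Mid.KlwChain
import Vale.Agent.P162.Mid.KlwChainMap
import Vale.Agent.P162.Mid.KlwMapLe
import Vale.Agent.P162.Mid.KlwSmul
import Vale.Agent.P162.Mid.KlwSumLe
import Vale.Agent.P162.Mid.KlwMonoWeight
import Vale.Agent.P162.Mid.KlwSuper
import Vale.Agent.P162.Mid.SdpiBasic
import Vale.Agent.P162.Mid.ChainIO
import Vale.Agent.P162.Mid.SdpiOne
import Vale.Agent.P162.Mid.ChainPart

namespace Vale.Agent.P162.Mid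
open Finset

theorem klw_embed16 {A A' : Type*} [Fintype A] [Fintype A'] (e : A' → A)
    (he : Function.Injective e) (p q : A → ℝ) (hp : ∀ a, a ∉ Set.range e → p a = 0)
    (hq : ∀ a, a ∉ Set.range e → q a = 0) :
    klw p q = klw (fun a' => p (e a')) (fun a' => q (e a')) := by
  have sumA : ∀ g : A → ℝ, (∀ a, a ∉ Set.range e → g a = 0) →
      ∑ a, g a = ∑ a', g (e a') := by
    intro g hg
    exact (Fintype.sum_of_injective e he (fun a' => g (e a')) g hg (fun _ => rfl)).symm
  unfold klw
  rw [sumA p hp, sumA q hq, sumA (fun a => p a * Real.log (p a / q a))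
    (fun a ha => by simp [hp a ha])]

/-- relabelling along injective maps whose images carry the whole weight -/
theorem SDPIw_embed {X Y X' Y' : Type*} [Fintype X] [Fintype Y] [Fintype X'] [Fintype Y']
    (i : X' → X) (j : Y' → Y) (hi : Function.Injective i) (hj : Function.Injective j)
    (W : X → Y → ℝ) (W' : X' → Y' → ℝ) (hW' : ∀ x' y', W (i x') (j y') = W' x' y')
    (hsupp : ∀ x y, W x y ≠ 0 → (∃ x', i x' = x) ∧ (∃ y', j y' = y))
    {η : ℝ} (hs : SDPIw W' η) : SDPIw W η := by
  intro f hf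
  have hx0 : ∀ x y, x ∉ Set.range i → W x y = 0 := by
    intro x y hx
    by_contra h
    exact hx (hsupp x y h).1
  have hy0 : ∀ x y, y ∉ Set.range j → W x y = 0 := by
    intro x y hy
    by_contra h
    exact hy (hsupp x y h).2
  have sumX : ∀ g : X → ℝ, (∀ a, a ∉ Set.range i → g a = 0) →
      ∑ a, g a = ∑ a', g (i a') := by
    intro g hg
    exact (Fintype.sum_of_injective i hi (fun a' => g (i a')) g hg (fun _ => rfl)).symm
  have sumY : ∀ g : Y → ℝ, (∀ a, a ∉ Set.range j → g a = 0) →
      ∑ a, g a = ∑ a', g (j a') := by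
    intro g hg
    exact (Fintype.sum_of_injective j hj (fun a' => g (j a')) g hg (fun _ => rfl)).symm
  have h := hs (fun x' => f (i x')) (fun x' => hf _)
  have e1 : klw (fun y => ∑ x, f x * W x y) (fun y => ∑ x, W x y) =
      klw (fun y' => ∑ x', f (i x') * W' x' y') (fun y' => ∑ x', W' x' y') := by
    rw [klw_embed16 j hj _ _
      (fun y hy => Finset.sum_eq_zero (fun x _ => by rw [hy0 x y hy, mul_zero]))
      (fun y hy => Finset.sum_eq_zero (fun x _ => hy0 x y hy))]
    congr 1
    · funext y'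
      rw [sumX (fun x => f x * W x (j y')) (fun x hx => by simp [hx0 x _ hx])]
      exact Finset.sum_congr rfl (fun x' _ => by rw [hW'])
    · funext y'
      rw [sumX (fun x => W x (j y')) (fun x hx => hx0 x _ hx)]
      exact Finset.sum_congr rfl (fun x' _ => by rw [hW'])
  have hrow : ∀ x', ∑ y, W (i x') y = ∑ y', W' x' y' := by
    intro x'
    rw [sumY (fun y => W (i x') y) (fun y hy => hy0 _ y hy)]
    exact Finset.sum_congr rfl (fun y' _ => by rw [hW'])
  have hrow0 : ∀ x, x ∉ Set.range i → ∑ y, W x y = 0 := fun x hx =>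
    Finset.sum_eq_zero (fun y _ => hx0 x y hx)
  have e2 : klw (fun x => f x * ∑ y, W x y) (fun x => ∑ y, W x y) =
      klw (fun x' => f (i x') * ∑ y', W' x' y') (fun x' => ∑ y', W' x' y') := by
    rw [klw_embed16 i hi _ _ (fun x hx => by rw [hrow0 x hx, mul_zero]) hrow0]
    congr 1
    · funext x'
      rw [hrow]
    · funext x'
      rw [hrow]
  rw [e1, e2]
  exact h

end Vale.Agent.P162.Mid
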