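import Vale.Agent.P162.Mid.Defs
import Vale.Agent.P162.Mid.KlwNonneg
import Vale.Agent.P162.Mid.KlwChain
import Vale.Agent.P162.Mid.KlwChainMap
import Vale.Agent.P162.Mid.KlwMapLe
import Vale.Agent.P162.Mid.KlwSmul
import Vale.Agent.P162.Mid.KlwSumLe
import Vale.Agent.P162.Mid.KlwMonoWeight
import Vale.Agent.P162.Mid.KlwSuper
import Vale.Agent.P162.Mid.SdpiBasic
import Vale.Agent.P162.Mid.ChainIO
import Vale.Agent.P162.Mid.SdpiOne
import Vale.Agent.P162.Mid.ChainPart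
import Vale.Agent.P162.Mid.SdpiEmbed

namespace Vale.Agent.P162.Mid
open Finset

private theorem all_zero_of_sum {A : Type*} [Fintype A] (g : A → ℝ) (hg : ∀ a, 0 ≤ g a)
    (h : ∑ a, g a = 0) (a : A) : g a = 0 :=
  (Finset.sum_eq_zero_iff_of_nonneg (fun a _ => hg a)).mp h a (Finset.mem_univ a)

/-- tensorisation -/
theorem SDPIw_tensor {X1 Y1 X2 Y2 : Type*} [Fintype X1] [Fintype Y1] [Fintype X2] [Fintype Y2]
    (W1 : X1 → Y1 → ℝ) (W2 : X2 → Y2 → ℝ) (h1 : ∀ x y, 0 ≤ W1 x y) (h2 : ∀ x y, 0 ≤ W2 x y)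
    {η : ℝ} (hη : 0 ≤ η) (hs1 : SDPIw W1 η) (hs2 : SDPIw W2 η) :
    SDPIw (fun (x : X1 × X2) (y : Y1 × Y2) => W1 x.1 y.1 * W2 x.2 y.2) η := by
  classical
  -- total mass of the second weight
  have hu2nn : ∀ x, 0 ≤ ∑ y, W2 x y := fun x => Finset.sum_nonneg (fun y _ => h2 x y)
  have hu1nn : ∀ x, 0 ≤ ∑ y, W1 x y := fun x => Finset.sum_nonneg (fun y _ => h1 x y)
  have hq2nn : ∀ y, 0 ≤ ∑ x, W2 x y := fun y => Finset.sum_nonneg (fun x _ => h2 x y)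
  have hq1nn : ∀ y, 0 ≤ ∑ x, W1 x y := fun y => Finset.sum_nonneg (fun x _ => h1 x y)
  have hU0 : 0 ≤ ∑ x, ∑ y, W2 x y := Finset.sum_nonneg (fun x _ => hu2nn x)
  rcases hU0.eq_or_lt with hU | hU
  · -- the second weight vanishes
    apply SDPIw_zero
    intro x y
    have hx := all_zero_of_sum _ hu2nn hU.symm x.2
    have hxy := all_zero_of_sum _ (h2 x.2) hx y.2
    show W1 x.1 y.1 * W2 x.2 y.2 = 0
    rw [hxy, mul_zero]
  intro f hf
  have hU' : ∑ y, ∑ x, W2 x y = ∑ x, ∑ y, W2 x y := Finset.sum_comm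
  -- abbreviations
  let F1 : X1 → ℝ := fun x1 => ∑ x2, f (x1, x2) * ∑ y, W2 x2 y
  let r : X1 → Y2 → ℝ := fun x1 y2 => ∑ x2, f (x1, x2) * W2 x2 y2
  let k : X1 → ℝ := fun x1 => klw (fun x2 => f (x1, x2) * ∑ y, W2 x2 y) (fun x2 => ∑ y, W2 x2 y)
  have hF1 : ∀ x1, 0 ≤ F1 x1 := fun x1 =>
    Finset.sum_nonneg (fun x2 _ => mul_nonneg (hf _) (hu2nn x2))
  have hr : ∀ x1 y2, 0 ≤ r x1 y2 := fun x1 y2 =>
    Finset.sum_nonneg (fun x2 _ => mul_nonneg (hf _) (h2 x2 y2))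
  have hrac : ∀ x1 y2, ∑ x, W2 x y2 = 0 → r x1 y2 = 0 := by
    intro x1 y2 h
    apply Finset.sum_eq_zero
    intro x2 _
    rw [all_zero_of_sum _ (fun x => h2 x y2) h x2, mul_zero]
  -- the four weight functions
  have hQ : ∀ y1 y2, (∑ x : X1 × X2, W1 x.1 y1 * W2 x.2 y2) = (∑ x, W1 x y1) * ∑ x, W2 x y2 := by
    intro y1 y2
    rw [Fintype.sum_prod_type, Finset.sum_mul_sum]
  have hJ : ∀ x1 x2, (∑ y : Y1 × Y2, W1 x1 y.1 * W2 x2 y.2) = (∑ y, W1 x1 y) * ∑ y, W2 x2 y := by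
    intro x1 x2
    rw [Fintype.sum_prod_type, Finset.sum_mul_sum]
  have hP : ∀ y1 y2, (∑ x : X1 × X2, f x * (W1 x.1 y1 * W2 x.2 y2)) =
      ∑ x1, W1 x1 y1 * r x1 y2 := by
    intro y1 y2
    rw [Fintype.sum_prod_type]
    apply Finset.sum_congr rfl
    intro x1 _
    show _ = W1 x1 y1 * ∑ x2, f (x1, x2) * W2 x2 y2
    rw [Finset.mul_sum]
    apply Finset.sum_congr rfl
    intro x2 _
    ring
  show klw (fun y : Y1 × Y2 => ∑ x : X1 × X2, f x * (W1 x.1 y.1 * W2 x.2 y.2))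
      (fun y : Y1 × Y2 => ∑ x : X1 × X2, W1 x.1 y.1 * W2 x.2 y.2) ≤
    η * klw (fun x : X1 × X2 => f x * ∑ y : Y1 × Y2, W1 x.1 y.1 * W2 x.2 y.2)
      (fun x : X1 × X2 => ∑ y : Y1 × Y2, W1 x.1 y.1 * W2 x.2 y.2)
  rw [klw_chain, klw_chain]
  simp only [hQ, hJ, hP]
  -- first marginals
  have e1 : (fun a : Y1 => ∑ b : Y2, ∑ x1, W1 x1 a * r x1 b) =
      fun y1 => ∑ x1, F1 x1 * W1 x1 y1 := by
    funext y1
    rw [Finset.sum_comm]
    apply Finset.sum_congr rfl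
    intro x1 _
    rw [← Finset.mul_sum]
    have : ∑ b, r x1 b = F1 x1 := by
      show ∑ b, ∑ x2, f (x1, x2) * W2 x2 b = ∑ x2, f (x1, x2) * ∑ y, W2 x2 y
      rw [Finset.sum_comm]
      apply Finset.sum_congr rfl
      intro x2 _
      rw [Finset.mul_sum]
    rw [this]
    ring
  have e2 : (fun a : Y1 => ∑ b : Y2, (∑ x, W1 x a) * ∑ x, W2 x b) =
      fun y1 => (∑ x, ∑ y, W2 x y) * ∑ x, W1 x y1 := by
    funext y1
    rw [← Finset.mul_sum, hU']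
    ring
  have e3 : (fun a : X1 => ∑ b : X2, f (a, b) * ((∑ y, W1 a y) * ∑ y, W2 b y)) =
      fun x1 => F1 x1 * ∑ y, W1 x1 y := by
    funext x1
    show _ = (∑ x2, f (x1, x2) * ∑ y, W2 x2 y) * ∑ y, W1 x1 y
    rw [Finset.sum_mul]
    apply Finset.sum_congr rfl
    intro x2 _
    ring
  have e4 : (fun a : X1 => ∑ b : X2, (∑ y, W1 a y) * ∑ y, W2 b y) =
      fun x1 => (∑ x, ∑ y, W2 x y) * ∑ y, W1 x1 y := by
    funext x1
    rw [← Finset.mul_sum]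
    ring
  rw [e1, e2, e3, e4]
  have A1 : klw (fun y1 => ∑ x1, F1 x1 * W1 x1 y1)
      (fun y1 => (∑ x, ∑ y, W2 x y) * ∑ x, W1 x y1) ≤
      η * klw (fun x1 => F1 x1 * ∑ y, W1 x1 y)
        (fun x1 => (∑ x, ∑ y, W2 x y) * ∑ y, W1 x1 y) := by
    rw [klw_smul_right _ hU (fun y1 => ∑ x1, F1 x1 * W1 x1 y1) (fun y1 => ∑ x, W1 x y1)
        (fun y1 => Finset.sum_nonneg (fun x1 _ => mul_nonneg (hF1 x1) (h1 x1 y1))) hq1nn
        (by
          intro y1 h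
          apply Finset.sum_eq_zero
          intro x1 _
          rw [all_zero_of_sum _ (fun x => h1 x y1) h x1, mul_zero])]
    rw [klw_smul_right _ hU (fun x1 => F1 x1 * ∑ y, W1 x1 y) (fun x1 => ∑ y, W1 x1 y)
        (fun x1 => mul_nonneg (hF1 x1) (hu1nn x1)) hu1nn
        (by
          intro x1 h
          simp only [h, mul_zero])]
    exact hs1 F1 hF1
  have A2 : ∀ y1 : Y1, klw (fun b : Y2 => ∑ x1, W1 x1 y1 * r x1 b)
      (fun b : Y2 => (∑ x, W1 x y1) * ∑ x, W2 x b) ≤ ∑ x1, W1 x1 y1 * (η * k x1) := by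
    intro y1
    rcases (hq1nn y1).eq_or_lt with hz | hpos
    · have hz' : ∀ x1, W1 x1 y1 = 0 := all_zero_of_sum _ (fun x => h1 x y1) hz.symm
      simp [klw, hz']
    · rw [klw_smul_right _ hpos (fun b : Y2 => ∑ x1, W1 x1 y1 * r x1 b) (fun b => ∑ x, W2 x b)
        (fun b => Finset.sum_nonneg (fun x1 _ => mul_nonneg (h1 x1 y1) (hr x1 b))) hq2nn
        (by
          intro b h
          apply Finset.sum_eq_zero
          intro x1 _
          rw [hrac x1 b h, mul_zero])]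
      refine le_trans (klw_sum_le (fun x1 b => W1 x1 y1 * r x1 b) (fun b => ∑ x, W2 x b)
        (fun x1 b => mul_nonneg (h1 x1 y1) (hr x1 b)) hq2nn
        (by
          intro x1 b h
          rw [hrac x1 b h, mul_zero])) ?_
      apply Finset.sum_le_sum
      intro x1 _
      rw [klw_smul_left (W1 x1 y1) (h1 x1 y1) (fun b => r x1 b) (fun b => ∑ x, W2 x b)
        (hr x1) hq2nn (hrac x1)]
      apply mul_le_mul_of_nonneg_left _ (h1 x1 y1)
      exact hs2 (fun x2 => f (x1, x2)) (fun x2 => hf _)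
  have A3 : ∀ x1 : X1, klw (fun b : X2 => f (x1, b) * ((∑ y, W1 x1 y) * ∑ y, W2 b y))
      (fun b : X2 => (∑ y, W1 x1 y) * ∑ y, W2 b y) = (∑ y, W1 x1 y) * k x1 := by
    intro x1
    have e : (fun b : X2 => f (x1, b) * ((∑ y, W1 x1 y) * ∑ y, W2 b y)) =
        fun b => (∑ y, W1 x1 y) * (f (x1, b) * ∑ y, W2 b y) := by
      funext b
      ring
    rw [e]
    exact klw_smul_both _ (hu1nn x1) (fun b => f (x1, b) * ∑ y, W2 b y) (fun b => ∑ y, W2 b y)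
      (fun b => mul_nonneg (hf _) (hu2nn b)) hu2nn (by
        intro b h
        simp only [h, mul_zero])
  have A4 : ∑ y1 : Y1, ∑ x1, W1 x1 y1 * (η * k x1) = η * ∑ x1, (∑ y, W1 x1 y) * k x1 := by
    rw [Finset.sum_comm, Finset.mul_sum]
    apply Finset.sum_congr rfl
    intro x1 _
    rw [← Finset.sum_mul]
    ring
  have A5 := Finset.sum_le_sum (fun y1 (_ : y1 ∈ (Finset.univ : Finset Y1)) => A2 y1)
  rw [A4] at A5
  simp only [A3]
  rw [mul_add]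
  exact add_le_add A1 A5

end Vale.Agent.P162.Mid
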