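import Vale.Agent.P162.Mid.Defs
import Vale.Agent.P162.Mid.KlwNonneg
import Vale.Agent.P162.Mid.KlwChain
import Vale.Agent.P162.Mid.KlwChainMap
import Vale.Agent.P162.Mid.KlwMapLe
import Vale.Agent.P162.Mid.KlwSmul
import Vale.Agent.P162.Mid.KlwSumLe
import Vale.Agent.P162.Mid.KlwMonoWeight
import Vale.Agent.P162.Mid.KlwSuper
import Vale.Agent.P162.Mid.SdpiBasic
import Vale.Agent.P162.Mid.ChainIO
import Vale.Agent.P162.Mid.SdpiOne
import Vale.Agent.P162.Mid.ChainPart
import Vale.Agent.P162.Mid.SdpiEmbed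
import Vale.Agent.P162.Mid.SdpiTensor

namespace Vale.Agent.P162.Mid
open Finset

/-- regrouping a sum along a map -/
private theorem sum_fiber_mul {X X' : Type*} [Fintype X] [Fintype X'] [DecidableEq X']
    (i : X → X') (g : X → ℝ) (h : X' → ℝ) :
    ∑ x, g x * h (i x) = ∑ x', (∑ x, if i x = x' then g x else 0) * h x' := by
  have h1 : ∀ x, g x * h (i x) = ∑ x', (if i x = x' then g x else 0) * h x' := by
    intro x
    rw [Finset.sum_eq_single (i x)]
    · simp
    · intro b _ hb
      simp [Ne.symm hb]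
    · intro hx
      exact absurd (Finset.mem_univ _) hx
  simp_rw [h1]
  rw [Finset.sum_comm]
  simp_rw [Finset.sum_mul]

/-- the channel factors through a function `i` of the input -/
theorem SDPIw_lift {X X' Y : Type*} [Fintype X] [Fintype X'] [Fintype Y] [DecidableEq X']
    (i : X → X') (c : X → ℝ) (hc0 : ∀ x, 0 ≤ c x) (W' : X' → Y → ℝ) (hW' : ∀ x y, 0 ≤ W' x y)
    (hc : ∀ x', (∑ y, W' x' y) ≠ 0 → ∑ x, (if i x = x' then c x else 0) = 1)
    {η : ℝ} (hη : 0 ≤ η) (hs : SDPIw W' η) : SDPIw (fun x y => c x * W' (i x) y) η := by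
  intro f hf
  -- the pushed density
  set f' : X' → ℝ := fun x' => ∑ x, if i x = x' then f x * c x else 0 with hf'
  have hf'0 : ∀ x', 0 ≤ f' x' := by
    intro x'
    refine Finset.sum_nonneg (fun x _ => ?_)
    split_ifs
    · exact mul_nonneg (hf x) (hc0 x)
    · exact le_refl 0
  -- if the row sum vanishes the row vanishes
  have hrow : ∀ x', (∑ y, W' x' y) = 0 → ∀ y, W' x' y = 0 := by
    intro x' h0 y
    exact (Finset.sum_eq_zero_iff_of_nonneg (fun y _ => hW' x' y)).1 h0 y (Finset.mem_univ y)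
  -- total mass of `c` on a fibre acts as one
  have hC : ∀ x' y, (∑ x, if i x = x' then c x else 0) * W' x' y = W' x' y := by
    intro x' y
    by_cases h0 : (∑ y, W' x' y) = 0
    · rw [hrow x' h0 y]; ring
    · rw [hc x' h0]; ring
  have hCu : ∀ x', (∑ x, if i x = x' then c x else 0) * (∑ y, W' x' y) = ∑ y, W' x' y := by
    intro x'
    rw [Finset.mul_sum]
    exact Finset.sum_congr rfl (fun y _ => hC x' y)
  -- output weights
  have hout : (fun y => ∑ x, f x * (c x * W' (i x) y)) = fun y => ∑ x', f' x' * W' x' y := by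
    funext y
    have := sum_fiber_mul i (fun x => f x * c x) (fun x' => W' x' y)
    simp only [hf']
    rw [← this]
    exact Finset.sum_congr rfl (fun x _ => by ring)
  have href : (fun y => ∑ x, c x * W' (i x) y) = fun y => ∑ x', W' x' y := by
    funext y
    rw [sum_fiber_mul i c (fun x' => W' x' y)]
    exact Finset.sum_congr rfl (fun x' _ => hC x' y)
  -- input weights
  have hu : ∀ x, (∑ y, c x * W' (i x) y) = c x * ∑ y, W' (i x) y := by
    intro x
    rw [Finset.mul_sum]
  have hpush_p : (fun x' => ∑ x, if i x = x' then f x * ∑ y, c x * W' (i x) y else 0)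
      = fun x' => f' x' * ∑ y, W' x' y := by
    funext x'
    simp only [hf']
    rw [Finset.sum_mul]
    refine Finset.sum_congr rfl (fun x _ => ?_)
    by_cases h : i x = x'
    · subst h
      simp only [if_true, hu]
      ring
    · simp [h]
  have hpush_q : (fun x' => ∑ x, if i x = x' then ∑ y, c x * W' (i x) y else 0)
      = fun x' => ∑ y, W' x' y := by
    funext x'
    rw [← hCu x', Finset.sum_mul]
    refine Finset.sum_congr rfl (fun x _ => ?_)
    by_cases h : i x = x'
    · subst h
      simp only [if_true, hu]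
    · simp [h]
  have hu0 : ∀ x, 0 ≤ ∑ y, c x * W' (i x) y :=
    fun x => Finset.sum_nonneg (fun y _ => mul_nonneg (hc0 x) (hW' _ _))
  have hmap := klw_map_le i (fun x => f x * ∑ y, c x * W' (i x) y)
    (fun x => ∑ y, c x * W' (i x) y) (fun x => mul_nonneg (hf x) (hu0 x)) hu0
    (fun x h => by simp only [h, mul_zero])
  rw [hpush_p, hpush_q] at hmap
  have hmain := hs f' hf'0
  show klw (fun y => ∑ x, f x * (c x * W' (i x) y)) (fun y => ∑ x, c x * W' (i x) y) ≤
      η * klw (fun x => f x * ∑ y, c x * W' (i x) y) (fun x => ∑ y, c x * W' (i x) y)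
  rw [hout, href]
  exact hmain.trans (mul_le_mul_of_nonneg_left hmap hη)

end Vale.Agent.P162.Mid
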