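import Vale.Agent.P162.Mid.Defs
import Vale.Agent.P162.Mid.KlwNonneg
import Vale.Agent.P162.Mid.KlwChain
import Vale.Agent.P162.Mid.KlwChainMap
import Vale.Agent.P162.Mid.KlwMapLe
import Vale.Agent.P162.Mid.KlwSmul
import Vale.Agent.P162.Mid.KlwSumLe
import Vale.Agent.P162.Mid.KlwMonoWeight
import Vale.Agent.P162.Mid.KlwSuper
import Vale.Agent.P162.Mid.SdpiBasic
import Vale.Agent.P162.Mid.ChainIO
import Vale.Agent.P162.Mid.SdpiOne
import Vale.Agent.P162.Mid.ChainPart
import Vale.Agent.P162.Mid.SdpiEmbed
import Vale.Agent.P162.Mid.SdpiTensor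
import Vale.Agent.P162.Mid.SdpiLift

namespace Vale.Agent.P162.Mid
open Finset

/-- reweighting the outputs -/
theorem SDPIw_reweight {X Y : Type*} [Fintype X] [Fintype Y] (W : X → Y → ℝ)
    (hW : ∀ x y, 0 ≤ W x y) (wt : Y → ℝ) (wmin κ : ℝ) (hwmin : 0 < wmin) (hwt : ∀ y, wmin ≤ wt y)
    (hκ : ∀ x, ∑ y, wt y * W x y ≤ κ * ∑ y, W x y)
    {η : ℝ} (hη : 0 ≤ η) (hs : SDPIw (fun x y => wt y * W x y) η) :
    SDPIw W (κ / wmin * η) := by
  have hwt0 : ∀ y, 0 < wt y := fun y => lt_of_lt_of_le hwmin (hwt y)
  have hu0 : ∀ x, 0 ≤ ∑ y, W x y := fun x => Finset.sum_nonneg (fun y _ => hW x y)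
  have hu1lb : ∀ x, wmin * ∑ y, W x y ≤ ∑ y, wt y * W x y := by
    intro x
    rw [Finset.mul_sum]
    exact Finset.sum_le_sum (fun y _ => mul_le_mul_of_nonneg_right (hwt y) (hW x y))
  by_cases hκ0 : 0 ≤ κ
  · intro f hf
    -- output side
    have hout : klw (fun y => ∑ x, f x * W x y) (fun y => ∑ x, W x y) ≤
        (1 / wmin) * klw (fun y => ∑ x, f x * (wt y * W x y)) (fun y => ∑ x, wt y * W x y) := by
      have h := klw_mono_weight (fun y => ∑ x, f x * (wt y * W x y)) (fun y => ∑ x, wt y * W x y)
        (fun y => 1 / wt y) (1 / wmin)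
        (fun y => Finset.sum_nonneg (fun x _ =>
          mul_nonneg (hf x) (mul_nonneg (hwt0 y).le (hW x y))))
        (fun y => Finset.sum_nonneg (fun x _ => mul_nonneg (hwt0 y).le (hW x y)))
        (by
          intro y hy
          have h0 : ∀ x ∈ Finset.univ, wt y * W x y = 0 :=
            (Finset.sum_eq_zero_iff_of_nonneg
              (fun x _ => mul_nonneg (hwt0 y).le (hW x y))).mp hy
          apply Finset.sum_eq_zero
          intro x hx
          rw [h0 x hx, mul_zero])
        (fun y => by have := hwt0 y; positivity)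
        (fun y => one_div_le_one_div_of_le hwmin (hwt y))
      have e1 : (fun y => 1 / wt y * ∑ x, f x * (wt y * W x y)) = fun y => ∑ x, f x * W x y := by
        funext y
        rw [Finset.mul_sum]
        apply Finset.sum_congr rfl
        intro x _
        have := (hwt0 y).ne'
        field_simp
      have e2 : (fun y => 1 / wt y * ∑ x, wt y * W x y) = fun y => ∑ x, W x y := by
        funext y
        rw [Finset.mul_sum]
        apply Finset.sum_congr rfl
        intro x _
        have := (hwt0 y).ne'
        field_simp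
      rw [e1, e2] at h
      exact h
    -- input side
    have hin : klw (fun x => f x * ∑ y, wt y * W x y) (fun x => ∑ y, wt y * W x y) ≤
        κ * klw (fun x => f x * ∑ y, W x y) (fun x => ∑ y, W x y) := by
      have h := klw_mono_weight (fun x => f x * ∑ y, W x y) (fun x => ∑ y, W x y)
        (fun x => (∑ y, wt y * W x y) / ∑ y, W x y) κ
        (fun x => mul_nonneg (hf x) (hu0 x)) hu0
        (by intro x hx; simp only [hx, mul_zero])
        (fun x => div_nonneg
          (Finset.sum_nonneg (fun y _ => mul_nonneg (hwt0 y).le (hW x y))) (hu0 x))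
        (by
          intro x
          rcases (hu0 x).eq_or_lt with h0 | h0
          · rw [← h0, div_zero]; exact hκ0
          · rw [div_le_iff₀ h0]; exact hκ x)
      have hz : ∀ x, ∑ y, W x y = 0 → ∑ y, wt y * W x y = 0 := by
        intro x hx
        have h0 : ∀ y ∈ Finset.univ, W x y = 0 :=
          (Finset.sum_eq_zero_iff_of_nonneg (fun y _ => hW x y)).mp hx
        apply Finset.sum_eq_zero
        intro y hy
        rw [h0 y hy, mul_zero]
      have e1 : (fun x => (∑ y, wt y * W x y) / (∑ y, W x y) * (f x * ∑ y, W x y))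
          = fun x => f x * ∑ y, wt y * W x y := by
        funext x
        by_cases hx : ∑ y, W x y = 0
        · rw [hz x hx, hx]; simp
        · field_simp
      have e2 : (fun x => (∑ y, wt y * W x y) / (∑ y, W x y) * ∑ y, W x y)
          = fun x => ∑ y, wt y * W x y := by
        funext x
        by_cases hx : ∑ y, W x y = 0
        · rw [hz x hx, hx]; simp
        · field_simp
      rw [e1, e2] at h
      exact h
    have hmid := hs f hf
    have hw' : 0 ≤ 1 / wmin := by positivity
    calc klw (fun y => ∑ x, f x * W x y) (fun y => ∑ x, W x y)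
        ≤ (1 / wmin) * klw (fun y => ∑ x, f x * (wt y * W x y)) (fun y => ∑ x, wt y * W x y) :=
          hout
      _ ≤ (1 / wmin) * (η * klw (fun x => f x * ∑ y, wt y * W x y)
            (fun x => ∑ y, wt y * W x y)) := mul_le_mul_of_nonneg_left hmid hw'
      _ ≤ (1 / wmin) * (η * (κ * klw (fun x => f x * ∑ y, W x y) (fun x => ∑ y, W x y))) :=
          mul_le_mul_of_nonneg_left (mul_le_mul_of_nonneg_left hin hη) hw'
      _ = κ / wmin * η * klw (fun x => f x * ∑ y, W x y) (fun x => ∑ y, W x y) := by ring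
  · -- `κ < 0` forces `W = 0`
    rw [not_le] at hκ0
    apply SDPIw_zero
    intro x y
    have h1 := hu1lb x
    have h2 := hκ x
    have h3 : ∑ y, W x y = 0 := by
      by_contra hne
      have hpos : 0 < ∑ y, W x y := lt_of_le_of_ne (hu0 x) (Ne.symm hne)
      nlinarith [mul_pos hwmin hpos, mul_pos (neg_pos.mpr hκ0) hpos]
    exact (Finset.sum_eq_zero_iff_of_nonneg (fun y _ => hW x y)).mp h3 y (Finset.mem_univ y)

end Vale.Agent.P162.Mid
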