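import Vale.Agent.P162.Mid.Defs
import Vale.Agent.P162.Mid.KlwNonneg
import Vale.Agent.P162.Mid.KlwChain
import Vale.Agent.P162.Mid.KlwChainMap
import Vale.Agent.P162.Mid.KlwMapLe
import Vale.Agent.P162.Mid.KlwSmul
import Vale.Agent.P162.Mid.KlwSumLe
import Vale.Agent.P162.Mid.KlwMonoWeight
import Vale.Agent.P162.Mid.KlwSuper
import Vale.Agent.P162.Mid.SdpiBasic
import Vale.Agent.P162.Mid.ChainIO
import Vale.Agent.P162.Mid.SdpiOne
import Vale.Agent.P162.Mid.ChainPart
import Vale.Agent.P162.Mid.SdpiEmbed
import Vale.Agent.P162.Mid.SdpiTensor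
import Vale.Agent.P162.Mid.SdpiLift
import Vale.Agent.P162.Mid.SdpiReweight

namespace Vale.Agent.P162.Mid
open Finset

private lemma os_sum_mem {Z : Type*} [Fintype Z] [DecidableEq Z] (B : Finset Z) (g : Z → ℝ) :
    (∑ z, if z ∈ B then g z else 0) = ∑ z ∈ B, g z := by
  rw [Finset.sum_ite_mem, Finset.univ_inter]

private lemma os_sum_not_mem {Z : Type*} [Fintype Z] [DecidableEq Z] (B : Finset Z) (g : Z → ℝ) :
    (∑ z, if z ∈ B then 0 else g z) = ∑ z, g z - ∑ z ∈ B, g z := by
  rw [← os_sum_mem B g, ← Finset.sum_sub_distrib]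
  refine Finset.sum_congr rfl fun z _ => ?_
  split_ifs <;> ring

private lemma os_split {Z : Type*} [Fintype Z] [DecidableEq Z] (P Q : Z → ℝ) (B : Finset Z) :
    klw P Q =
      klw (fun b : Bool => if b then ∑ z ∈ B, P z else ∑ z, P z - ∑ z ∈ B, P z)
        (fun b : Bool => if b then ∑ z ∈ B, Q z else ∑ z, Q z - ∑ z ∈ B, Q z)
      + (klw (fun z => if z ∈ B then P z else 0) (fun z => if z ∈ B then Q z else 0)
      + klw (fun z => if z ∈ B then 0 else P z) (fun z => if z ∈ B then 0 else Q z)) := by
  rw [klw_chain_map (fun z => decide (z ∈ B)) P Q, Fintype.sum_bool]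
  have e : ∀ g : Z → ℝ, (fun b : Bool => ∑ z, if decide (z ∈ B) = b then g z else 0)
      = fun b : Bool => if b then ∑ z ∈ B, g z else ∑ z, g z - ∑ z ∈ B, g z := by
    intro g
    funext b
    cases b
    · simp only [decide_eq_false_iff_not, ite_not, Bool.false_eq_true, if_false]
      exact os_sum_not_mem B g
    · simp only [decide_eq_true_eq, if_true]
      exact os_sum_mem B g
  rw [e P, e Q]
  simp only [decide_eq_true_eq, decide_eq_false_iff_not, ite_not]

private lemma os_two_point (c TP TQ : ℝ) :
    klw (fun b : Bool => if b then c * TP else TP - c * TP)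
      (fun b : Bool => if b then c * TQ else TQ - c * TQ) = 0 := by
  unfold klw
  simp only [Fintype.sum_bool, if_true, Bool.false_eq_true, if_false]
  have h1 : c * TP * Real.log (c * TP / (c * TQ)) = c * TP * Real.log (TP / TQ) := by
    by_cases hc : c = 0
    · simp [hc]
    · rw [mul_div_mul_left _ _ hc]
  have h2 : (TP - c * TP) * Real.log ((TP - c * TP) / (TQ - c * TQ))
      = (TP - c * TP) * Real.log (TP / TQ) := by
    by_cases hc : 1 - c = 0
    · have : TP - c * TP = 0 := by
        have : TP - c * TP = (1 - c) * TP := by ring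
        rw [this, hc, zero_mul]
      simp [this]
    · have e1 : TP - c * TP = (1 - c) * TP := by ring
      have e2 : TQ - c * TQ = (1 - c) * TQ := by ring
      rw [e1, e2, mul_div_mul_left _ _ hc]
  rw [h1, h2]
  have e3 : c * TP + (TP - c * TP) = TP := by ring
  have e4 : c * TQ + (TQ - c * TQ) = TQ := by ring
  rw [e3, e4]
  ring

/-- output divergence of the reweighted channel `lam z * W x z`: good outputs are compared with
`W`, the bad outputs `B` have input independent relative weight `c` -/
theorem out_split {X Z : Type*} [Fintype X] [Fintype Z] (W : X → Z → ℝ) (hW : ∀ x z, 0 ≤ W x z)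
    (lam : Z → ℝ) (hlam : ∀ z, 0 ≤ lam z) (B : Finset Z) (lam0 c : ℝ) (hlam0 : 0 ≤ lam0)
    (hc0 : 0 ≤ c) (hc1 : c ≤ 1) (hl0 : ∀ z, z ∉ B → lam z ≤ lam0)
    (hB : ∀ x, ∑ z ∈ B, lam z * W x z = c * ∑ z, lam z * W x z)
    (f : X → ℝ) (hf : ∀ x, 0 ≤ f x) :
    klw (fun z => ∑ x, f x * (lam z * W x z)) (fun z => ∑ x, lam z * W x z) ≤
      lam0 * klw (fun z => ∑ x, f x * W x z) (fun z => ∑ x, W x z) +
        c * klw (fun x => f x * ∑ z, lam z * W x z) (fun x => ∑ z, lam z * W x z) := by
  classical
  rw [os_split _ _ B]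
  -- the two point term vanishes
  have hPB : ∑ z ∈ B, ∑ x, f x * (lam z * W x z) = c * ∑ z, ∑ x, f x * (lam z * W x z) := by
    rw [Finset.sum_comm, Finset.sum_comm (s := Finset.univ) (t := Finset.univ), Finset.mul_sum]
    refine Finset.sum_congr rfl fun x _ => ?_
    rw [← Finset.mul_sum, ← Finset.mul_sum, hB x]
    ring
  have hQB : ∑ z ∈ B, ∑ x, lam z * W x z = c * ∑ z, ∑ x, lam z * W x z := by
    rw [Finset.sum_comm, Finset.sum_comm (s := Finset.univ) (t := Finset.univ), Finset.mul_sum]
    exact Finset.sum_congr rfl fun x _ => hB x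
  have part0 : klw (fun b : Bool => if b then ∑ z ∈ B, ∑ x, f x * (lam z * W x z)
        else ∑ z, ∑ x, f x * (lam z * W x z) - ∑ z ∈ B, ∑ x, f x * (lam z * W x z))
      (fun b : Bool => if b then ∑ z ∈ B, ∑ x, lam z * W x z
        else ∑ z, ∑ x, lam z * W x z - ∑ z ∈ B, ∑ x, lam z * W x z) = 0 := by
    rw [hPB, hQB]
    exact os_two_point c _ _
  -- the bad outputs
  have partT : klw (fun z => if z ∈ B then ∑ x, f x * (lam z * W x z) else 0)
      (fun z => if z ∈ B then ∑ x, lam z * W x z else 0) ≤
      c * klw (fun x => f x * ∑ z, lam z * W x z) (fun x => ∑ z, lam z * W x z) := by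
    have h1 := SDPIw_one (fun (x : X) (z : Z) => if z ∈ B then lam z * W x z else 0)
      (fun x z => by
        split_ifs
        · exact mul_nonneg (hlam z) (hW x z)
        · exact le_rfl) f hf
    have e1 : (fun z => ∑ x, f x * (if z ∈ B then lam z * W x z else 0))
        = fun z => if z ∈ B then ∑ x, f x * (lam z * W x z) else 0 := by
      funext z
      split_ifs <;> simp
    have e2 : (fun z => ∑ x : X, (if z ∈ B then lam z * W x z else 0))
        = fun z => if z ∈ B then ∑ x, lam z * W x z else 0 := by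
      funext z
      split_ifs <;> simp
    have e3 : ∀ x : X, (∑ z, if z ∈ B then lam z * W x z else 0) = c * ∑ z, lam z * W x z := by
      intro x
      rw [os_sum_mem B (fun z => lam z * W x z), hB x]
    simp only [e3] at h1
    rw [e1, e2, one_mul] at h1
    refine h1.trans (le_of_eq ?_)
    have e4 : (fun x => f x * (c * ∑ z, lam z * W x z))
        = fun x => c * (f x * ∑ z, lam z * W x z) := by
      funext x; ring
    rw [e4]
    exact klw_smul_both c hc0 _ _
      (fun x => mul_nonneg (hf x) (Finset.sum_nonneg fun z _ => mul_nonneg (hlam z) (hW x z)))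
      (fun x => Finset.sum_nonneg fun z _ => mul_nonneg (hlam z) (hW x z))
      (fun x hx => by rw [hx, mul_zero])
  -- the good outputs
  have partF : klw (fun z => if z ∈ B then 0 else ∑ x, f x * (lam z * W x z))
      (fun z => if z ∈ B then 0 else ∑ x, lam z * W x z) ≤
      lam0 * klw (fun z => ∑ x, f x * W x z) (fun z => ∑ x, W x z) := by
    have h1 := klw_mono_weight (fun z => ∑ x, f x * W x z) (fun z => ∑ x, W x z)
      (fun z => if z ∈ B then 0 else lam z) lam0
      (fun z => Finset.sum_nonneg fun x _ => mul_nonneg (hf x) (hW x z))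
      (fun z => Finset.sum_nonneg fun x _ => hW x z)
      (fun z hz => by
        have h0 : ∀ x ∈ Finset.univ, W x z = 0 :=
          (Finset.sum_eq_zero_iff_of_nonneg fun x _ => hW x z).1 hz
        exact Finset.sum_eq_zero fun x hx => by rw [h0 x hx, mul_zero])
      (fun z => by
        split_ifs
        · exact le_rfl
        · exact hlam z)
      (fun z => by
        split_ifs with h
        · exact hlam0
        · exact hl0 z h)
    have e1 : (fun z => (if z ∈ B then 0 else lam z) * ∑ x, f x * W x z)
        = fun z => if z ∈ B then 0 else ∑ x, f x * (lam z * W x z) := by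
      funext z
      split_ifs
      · simp
      · rw [Finset.mul_sum]
        exact Finset.sum_congr rfl fun x _ => by ring
    have e2 : (fun z => (if z ∈ B then 0 else lam z) * ∑ x, W x z)
        = fun z => if z ∈ B then 0 else ∑ x, lam z * W x z := by
      funext z
      split_ifs
      · simp
      · rw [Finset.mul_sum]
    rw [e1, e2] at h1
    exact h1
  linarith

end Vale.Agent.P162.Mid
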