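import Vale.Agent.P162.Mid.Defs
import Vale.Agent.P162.Mid.KlwNonneg
import Vale.Agent.P162.Mid.KlwChain
import Vale.Agent.P162.Mid.KlwChainMap
import Vale.Agent.P162.Mid.KlwMapLe
import Vale.Agent.P162.Mid.KlwSmul
import Vale.Agent.P162.Mid.KlwSumLe
import Vale.Agent.P162.Mid.KlwMonoWeight
import Vale.Agent.P162.Mid.KlwSuper
import Vale.Agent.P162.Mid.SdpiBasic
import Vale.Agent.P162.Mid.ChainIO
import Vale.Agent.P162.Mid.SdpiOne
import Vale.Agent.P162.Mid.ChainPart
import Vale.Agent.P162.Mid.SdpiEmbed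
import Vale.Agent.P162.Mid.SdpiTensor
import Vale.Agent.P162.Mid.SdpiLift
import Vale.Agent.P162.Mid.SdpiReweight
import Vale.Agent.P162.Mid.OutSplit

namespace Vale.Agent.P162.Mid
open Finset

/-- rescaling the reference weight by `1 / n` shifts the entropy sum by `(∑ a) log n` -/
private theorem sum_log_scale {A : Type*} [Fintype A] (a b : A → ℝ) (n : ℝ) (hn : 0 < n)
    (hab : ∀ y, a y ≠ 0 → b y ≠ 0) :
    ∑ y, a y * Real.log (a y / (b y / n)) =
      ∑ y, a y * Real.log (a y / b y) + (∑ y, a y) * Real.log n := by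
  rw [Finset.sum_mul, ← Finset.sum_add_distrib]
  refine Finset.sum_congr rfl (fun y _ => ?_)
  by_cases ha : a y = 0
  · simp [ha]
  · have hb : b y ≠ 0 := hab y ha
    have h1 : a y / (b y / n) = a y / b y * n := by
      field_simp
    rw [h1, Real.log_mul (div_ne_zero ha hb) hn.ne']
    ring

/-- bridge to the normalised interface `KL.SDPI` of `KL/Chan.lean` -/
theorem SDPI_of_SDPIw {X Y : Type*} [Fintype X] [Fintype Y] [Nonempty X] (K : X → Y → ℝ)
    (hK : KL.IsChan K) {η : ℝ} (hs : SDPIw K η) : KL.SDPI K η := by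
  intro p hp
  have hn : (0 : ℝ) < (Fintype.card X : ℝ) := by
    exact_mod_cast Fintype.card_pos
  have hrow : ∀ x, ∑ y, K x y = 1 := fun x => (hK x).2
  have hKnn : ∀ x y, 0 ≤ K x y := fun x y => (hK x).1 y
  have h := hs p hp.1
  -- the input side
  have hin : klw (fun x => p x * ∑ y, K x y) (fun x => ∑ y, K x y) = KL.kl p (KL.unif X) := by
    have e1 : (fun x => p x * ∑ y, K x y) = p := by
      funext x
      rw [hrow x, mul_one]
    have e2 : (fun x => ∑ y, K x y) = fun _ : X => (1 : ℝ) := by
      funext x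
      exact hrow x
    rw [e1, e2]
    unfold klw KL.kl KL.unif
    rw [sum_log_scale p (fun _ => (1 : ℝ)) _ hn (fun _ _ => one_ne_zero), hp.2]
    simp only [Finset.sum_const, Finset.card_univ, nsmul_eq_mul, mul_one, one_mul]
    rw [one_div, Real.log_inv]
    ring
  -- the output side
  have hout : klw (fun y => ∑ x, p x * K x y) (fun y => ∑ x, K x y) =
      KL.kl (KL.push K p) (KL.push K (KL.unif X)) := by
    have e1 : KL.push K (KL.unif X) = fun y => (∑ x, K x y) / (Fintype.card X : ℝ) := by
      funext y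
      unfold KL.push KL.unif
      rw [Finset.sum_div]
      refine Finset.sum_congr rfl (fun x _ => ?_)
      ring
    have s1 : ∑ y, ∑ x, p x * K x y = 1 := by
      rw [Finset.sum_comm]
      have : ∀ x, ∑ y, p x * K x y = p x := by
        intro x
        rw [← Finset.mul_sum, hrow x, mul_one]
      rw [Finset.sum_congr rfl (fun x _ => this x)]
      exact hp.2
    have s2 : ∑ y, ∑ x, K x y = (Fintype.card X : ℝ) := by
      rw [Finset.sum_comm, Finset.sum_congr rfl (fun x _ => hrow x)]
      simp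
    have hac : ∀ y, (∑ x, p x * K x y) ≠ 0 → (∑ x, K x y) ≠ 0 := by
      intro y hy h0
      apply hy
      have hz := (Finset.sum_eq_zero_iff_of_nonneg (fun x _ => hKnn x y)).1 h0
      exact Finset.sum_eq_zero (fun x hx => by rw [hz x hx, mul_zero])
    rw [e1]
    unfold klw KL.kl KL.push
    rw [sum_log_scale (fun y => ∑ x, p x * K x y) (fun y => ∑ x, K x y) _ hn hac, s1, s2]
    rw [one_div, Real.log_inv]
    ring
  rw [hin, hout] at h
  exact h

end Vale.Agent.P162.Mid
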