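import Vale.Agent.P162.Mid.ConcBase

/-!
# P162 (P2) middle layer : gluing along a closed set
-/

namespace Vale.Agent.P162.Mid.H98

open Finset

variable {S : Type*} [Fintype S] [DecidableEq S]

theorem mem_gl (x : Finset S) (t : Finset {a // a ∈ x} × Finset {a // ¬ a ∈ x}) (a : S) :
    a ∈ gl x t ↔ (∃ h : a ∈ x, (⟨a, h⟩ : {a // a ∈ x}) ∈ t.1) ∨
      (∃ h : ¬ a ∈ x, (⟨a, h⟩ : {a // ¬ a ∈ x}) ∈ t.2) := by
  unfold gl
  simp only [Finset.mem_union, Finset.mem_map, Function.Embedding.coe_subtype]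
  constructor
  · rintro (⟨b, hb, rfl⟩ | ⟨b, hb, rfl⟩)
    · exact Or.inl ⟨b.2, hb⟩
    · exact Or.inr ⟨b.2, hb⟩
  · rintro (⟨h, hb⟩ | ⟨h, hb⟩)
    · exact Or.inl ⟨⟨a, h⟩, hb, rfl⟩
    · exact Or.inr ⟨⟨a, h⟩, hb, rfl⟩

theorem mem_gl_of_mem (x : Finset S) (t : Finset {a // a ∈ x} × Finset {a // ¬ a ∈ x}) {a : S}
    (h : a ∈ x) : a ∈ gl x t ↔ (⟨a, h⟩ : {a // a ∈ x}) ∈ t.1 := by
  rw [mem_gl]
  constructor
  · rintro (⟨_, hb⟩ | ⟨h', _⟩)
    · exact hb
    · exact absurd h h'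
  · intro hb
    exact Or.inl ⟨h, hb⟩

theorem mem_gl_of_not_mem (x : Finset S) (t : Finset {a // a ∈ x} × Finset {a // ¬ a ∈ x}) {a : S}
    (h : ¬ a ∈ x) : a ∈ gl x t ↔ (⟨a, h⟩ : {a // ¬ a ∈ x}) ∈ t.2 := by
  rw [mem_gl]
  constructor
  · rintro (⟨h', _⟩ | ⟨_, hb⟩)
    · exact absurd h' h
    · exact hb
  · intro hb
    exact Or.inr ⟨h, hb⟩

/-- `gl x` as a bijection -/
def glE (x : Finset S) : Finset {a // a ∈ x} × Finset {a // ¬ a ∈ x} ≃ Finset S where
  toFun := gl x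
  invFun y := (y.subtype _, y.subtype _)
  left_inv t := by
    apply Prod.ext
    · ext ⟨a, ha⟩
      simp only [Finset.mem_subtype]
      exact mem_gl_of_mem x t ha
    · ext ⟨a, ha⟩
      simp only [Finset.mem_subtype]
      exact mem_gl_of_not_mem x t ha
  right_inv y := by
    ext a
    by_cases h : a ∈ x
    · rw [mem_gl_of_mem x _ h]
      simp [Finset.mem_subtype]
    · rw [mem_gl_of_not_mem x _ h]
      simp [Finset.mem_subtype]

theorem glE_apply (x : Finset S) (t) : glE x t = gl x t := rfl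

theorem gl_injective (x : Finset S) : Function.Injective (gl x) := (glE x).injective

theorem gl_surjective (x : Finset S) : Function.Surjective (gl x) := (glE x).surjective

theorem inter_gl (x : Finset S) (t : Finset {a // a ∈ x} × Finset {a // ¬ a ∈ x}) :
    x ∩ gl x t = t.1.map (Function.Embedding.subtype _) := by
  ext a
  simp only [Finset.mem_inter, Finset.mem_map, Function.Embedding.coe_subtype]
  constructor
  · rintro ⟨h, hg⟩
    exact ⟨⟨a, h⟩, (mem_gl_of_mem x t h).1 hg, rfl⟩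
  · rintro ⟨b, hb, rfl⟩
    exact ⟨b.2, (mem_gl_of_mem x t b.2).2 hb⟩

theorem gl_sdiff (x : Finset S) (t : Finset {a // a ∈ x} × Finset {a // ¬ a ∈ x}) :
    gl x t \ x = t.2.map (Function.Embedding.subtype _) := by
  ext a
  simp only [Finset.mem_sdiff, Finset.mem_map, Function.Embedding.coe_subtype]
  constructor
  · rintro ⟨hg, h⟩
    exact ⟨⟨a, h⟩, (mem_gl_of_not_mem x t h).1 hg, rfl⟩
  · rintro ⟨b, hb, rfl⟩
    exact ⟨(mem_gl_of_not_mem x t b.2).2 hb, b.2⟩

theorem card_inter_gl (x : Finset S) (t : Finset {a // a ∈ x} × Finset {a // ¬ a ∈ x}) :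
    (x ∩ gl x t).card = t.1.card := by rw [inter_gl, Finset.card_map]

theorem card_gl_sdiff (x : Finset S) (t : Finset {a // a ∈ x} × Finset {a // ¬ a ∈ x}) :
    (gl x t \ x).card = t.2.card := by rw [gl_sdiff, Finset.card_map]

theorem card_sdiff_gl (x : Finset S) (t : Finset {a // a ∈ x} × Finset {a // ¬ a ∈ x}) :
    (x \ gl x t).card = x.card - t.1.card := by
  have h := Finset.card_inter_add_card_sdiff x (gl x t)
  rw [card_inter_gl] at h
  omega

theorem card_union_gl (x : Finset S) (t : Finset {a // a ∈ x} × Finset {a // ¬ a ∈ x}) :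
    (x ∪ gl x t).card = x.card + t.2.card := by
  have h := Finset.card_sdiff_add_card (gl x t) x
  rw [card_gl_sdiff, Finset.union_comm] at h
  omega

theorem glp_mem (x : Finset S) (s : Equiv.Perm {a // a ∈ x} × Equiv.Perm {a // ¬ a ∈ x}) {a : S}
    (h : a ∈ x) : glp x s a = (s.1 ⟨a, h⟩ : S) :=
  Equiv.Perm.subtypeCongr.left_apply _ _ h

theorem glp_not_mem (x : Finset S) (s : Equiv.Perm {a // a ∈ x} × Equiv.Perm {a // ¬ a ∈ x})
    {a : S} (h : ¬ a ∈ x) : glp x s a = (s.2 ⟨a, h⟩ : S) :=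
  Equiv.Perm.subtypeCongr.right_apply _ _ h

theorem glp_injective (x : Finset S) : Function.Injective (glp x) := by
  intro s s' h
  apply Prod.ext
  · ext ⟨a, ha⟩
    have := congrArg (fun f : Equiv.Perm S => f a) h
    simp only [glp_mem x _ ha] at this
    exact this
  · ext ⟨a, ha⟩
    have := congrArg (fun f : Equiv.Perm S => f a) h
    simp only [glp_not_mem x _ ha] at this
    exact this

theorem isM_glp (x : Finset S) (s : Equiv.Perm {a // a ∈ x} × Equiv.Perm {a // ¬ a ∈ x}) :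
    IsM (glp x s) ↔ IsM s.1 ∧ IsM s.2 := by
  constructor
  · intro h
    refine ⟨⟨?_, ?_⟩, ⟨?_, ?_⟩⟩
    · rintro ⟨a, ha⟩
      have := h.1 a
      rw [glp_mem x s ha, glp_mem x s (s.1 ⟨a, ha⟩).2] at this
      exact Subtype.ext this
    · rintro ⟨a, ha⟩ he
      apply h.2 a
      rw [glp_mem x s ha, he]
    · rintro ⟨a, ha⟩
      have := h.1 a
      rw [glp_not_mem x s ha, glp_not_mem x s (s.2 ⟨a, ha⟩).2] at this
      exact Subtype.ext this
    · rintro ⟨a, ha⟩ he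
      apply h.2 a
      rw [glp_not_mem x s ha, he]
  · rintro ⟨h1, h2⟩
    refine ⟨?_, ?_⟩
    · intro a
      by_cases ha : a ∈ x
      · rw [glp_mem x s ha, glp_mem x s (s.1 ⟨a, ha⟩).2]
        simp [h1.1]
      · rw [glp_not_mem x s ha, glp_not_mem x s (s.2 ⟨a, ha⟩).2]
        simp [h2.1]
    · intro a
      by_cases ha : a ∈ x
      · rw [glp_mem x s ha]
        intro he
        exact h1.2 ⟨a, ha⟩ (Subtype.ext he)
      · rw [glp_not_mem x s ha]
        intro he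
        exact h2.2 ⟨a, ha⟩ (Subtype.ext he)

theorem clo_glp_self (x : Finset S) (s : Equiv.Perm {a // a ∈ x} × Equiv.Perm {a // ¬ a ∈ x}) :
    Clo (glp x s) x := by
  intro a ha
  rw [glp_mem x s ha]
  exact (s.1 ⟨a, ha⟩).2

theorem clo_glp_gl (x : Finset S) (s : Equiv.Perm {a // a ∈ x} × Equiv.Perm {a // ¬ a ∈ x})
    (t : Finset {a // a ∈ x} × Finset {a // ¬ a ∈ x}) :
    Clo (glp x s) (gl x t) ↔ Clo s.1 t.1 ∧ Clo s.2 t.2 := by
  constructor
  · intro h
    constructor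
    · rintro ⟨a, ha⟩ hat
      have := h a ((mem_gl_of_mem x t ha).2 hat)
      rw [glp_mem x s ha, mem_gl_of_mem x t (s.1 ⟨a, ha⟩).2] at this
      exact this
    · rintro ⟨a, ha⟩ hat
      have := h a ((mem_gl_of_not_mem x t ha).2 hat)
      rw [glp_not_mem x s ha, mem_gl_of_not_mem x t (s.2 ⟨a, ha⟩).2] at this
      exact this
  · rintro ⟨h1, h2⟩ a hag
    by_cases ha : a ∈ x
    · rw [glp_mem x s ha, mem_gl_of_mem x t (s.1 ⟨a, ha⟩).2]
      exact h1 _ ((mem_gl_of_mem x t ha).1 hag)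
    · rw [glp_not_mem x s ha, mem_gl_of_not_mem x t (s.2 ⟨a, ha⟩).2]
      exact h2 _ ((mem_gl_of_not_mem x t ha).1 hag)

/-- every matching for which `x` is closed is glued -/
theorem exists_glp {σ : Equiv.Perm S} (h : IsM σ) {x : Finset S} (hx : Clo σ x) :
    ∃ s, glp x s = σ := by
  have hc := (clo_iff h x).1 hx
  refine ⟨(σ.subtypePerm hc, σ.subtypePerm (fun a => not_congr (hc a))), ?_⟩
  ext a
  by_cases ha : a ∈ x
  · rw [glp_mem x _ ha]
    rfl
  · rw [glp_not_mem x _ ha]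
    rfl

/-- the pair weight factorises along the first closed set -/
theorem Wp_factor (x : Finset S) (s : Equiv.Perm {a // a ∈ x} × Equiv.Perm {a // ¬ a ∈ x})
    (t : Finset {a // a ∈ x} × Finset {a // ¬ a ∈ x}) :
    Wp S (glp x s) (x, gl x t) = Wc {a // a ∈ x} s.1 t.1 * Wc {a // ¬ a ∈ x} s.2 t.2 := by
  unfold Wp Wc
  have c1 : Fintype.card {a // a ∈ x} = x.card := Fintype.card_coe x
  have c2 : Fintype.card {a // ¬ a ∈ x} = Fintype.card S - x.card := by
    rw [Fintype.card_subtype_compl, c1]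
  simp only [card_inter_gl, card_gl_sdiff, card_sdiff_gl, card_union_gl, c1, c2]
  by_cases h : (IsM s.1 ∧ Clo s.1 t.1) ∧ (IsM s.2 ∧ Clo s.2 t.2)
  · rw [if_pos ⟨(isM_glp x s).2 ⟨h.1.1, h.2.1⟩, clo_glp_self x s,
      (clo_glp_gl x s t).2 ⟨h.1.2, h.2.2⟩⟩, if_pos h.1, if_pos h.2]
    rw [Nat.sub_sub, one_div_mul_one_div]
    congr 1
    ring
  · rw [if_neg]
    · by_cases h1 : IsM s.1 ∧ Clo s.1 t.1
      · rw [if_neg (fun h2 => h ⟨h1, h2⟩), mul_zero]
      · rw [if_neg h1, zero_mul]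
    · rintro ⟨g1, _, g3⟩
      have a1 := (isM_glp x s).1 g1
      have a2 := (clo_glp_gl x s t).1 g3
      exact h ⟨⟨a1.1, a2.1⟩, ⟨a1.2, a2.2⟩⟩

end Vale.Agent.P162.Mid.H98
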