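import Vale.Agent.P162.Mid.Defs
import Vale.Agent.P162.Mid.KlwNonneg
import Vale.Agent.P162.Mid.KlwChain
import Vale.Agent.P162.Mid.KlwChainMap
import Vale.Agent.P162.Mid.KlwMapLe
import Vale.Agent.P162.Mid.KlwSmul
import Vale.Agent.P162.Mid.KlwSumLe
import Vale.Agent.P162.Mid.KlwMonoWeight
import Vale.Agent.P162.Mid.KlwSuper
import Vale.Agent.P162.Mid.SdpiBasic
import Vale.Agent.P162.Mid.ChainIO
import Vale.Agent.P162.Mid.SdpiOne
import Vale.Agent.P162.Mid.ChainPart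
import Vale.Agent.P162.Mid.SdpiEmbed
import Vale.Agent.P162.Mid.SdpiTensor
import Vale.Agent.P162.Mid.SdpiLift
import Vale.Agent.P162.Mid.SdpiReweight
import Vale.Agent.P162.Mid.OutSplit
import Vale.Agent.P162.Mid.Bridge

namespace Vale.Agent.P162.Mid
open Finset

/-- ABSTRACT STEP Z (board 298).  `Wp` = symmetric pair coupling, `R` its output weight, which
satisfies the Brascamp-Lieb inequality with defect `ε`; first marginal of `Wp` = `wt y * Wc x y`;
for `y1 ∉ B` the slice channel `x ↦ y2` has SDPI constant `g`; `B` has relative weight `≤ c`. -/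
theorem stepZ_abs {X Y : Type*} [Fintype X] [Fintype Y] [DecidableEq Y]
    (Wp : X → Y × Y → ℝ) (Wc : X → Y → ℝ)
    (hWp : ∀ x p, 0 ≤ Wp x p) (hWc : ∀ x y, 0 ≤ Wc x y)
    (hsym : ∀ x y1 y2, Wp x (y1, y2) = Wp x (y2, y1))
    (R : Y × Y → ℝ) (hR : ∀ p, ∑ x, Wp x p = R p) (ε : ℝ)
    (hBL : ∀ Q : Y × Y → ℝ, (∀ p, 0 ≤ Q p) → (∀ p, R p = 0 → Q p = 0) →
      (1 - ε) * (klw (fun y1 => ∑ y2, Q (y1, y2)) (fun y1 => ∑ y2, R (y1, y2)) +
        klw (fun y2 => ∑ y1, Q (y1, y2)) (fun y2 => ∑ y1, R (y1, y2))) ≤ klw Q R)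
    (wt : Y → ℝ) (hW1 : ∀ x y1, ∑ y2, Wp x (y1, y2) = wt y1 * Wc x y1)
    (wmin κ : ℝ) (hwmin : 0 < wmin) (hwt : ∀ y, wmin ≤ wt y)
    (hκ : ∀ x, ∑ y, wt y * Wc x y ≤ κ * ∑ y, Wc x y)
    (B : Finset Y) (c : ℝ) (hc : 0 ≤ c)
    (hB : ∀ x, ∑ y ∈ B, wt y * Wc x y ≤ c * ∑ y, wt y * Wc x y)
    (g : ℝ) (hg : 0 ≤ g) (hgood : ∀ y1, y1 ∉ B → SDPIw (fun x y2 => Wp x (y1, y2)) g)
    (hpos : 0 < 1 - 2 * ε + g) :
    SDPIw Wc (κ / wmin * ((g + c) / (1 - 2 * ε + g))) := by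
  have hη : 0 ≤ (g + c) / (1 - 2 * ε + g) := div_nonneg (add_nonneg hg hc) hpos.le
  refine SDPIw_reweight Wc hWc wt wmin κ hwmin hwt hκ hη ?_
  intro f hf
  have hwt0 : ∀ y, 0 ≤ wt y := fun y => hwmin.le.trans (hwt y)
  have hW1p : ∀ x y, 0 ≤ wt y * Wc x y := fun x y => mul_nonneg (hwt0 y) (hWc x y)
  set D1 := klw (fun y => ∑ x, f x * (wt y * Wc x y)) (fun y => ∑ x, wt y * Wc x y) with hD1
  set D := klw (fun x => f x * ∑ y, wt y * Wc x y) (fun x => ∑ y, wt y * Wc x y) with hD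
  set E : Y → ℝ := fun y => klw (fun x => f x * (wt y * Wc x y)) (fun x => wt y * Wc x y) with hE
  have hE0 : ∀ y, 0 ≤ E y := fun y =>
    klw_nonneg _ _ (fun x => mul_nonneg (hf x) (hW1p x y)) (fun x => hW1p x y)
      (fun x h => by rw [h, mul_zero])
  have hio : D = D1 + ∑ y, E y := chain_io (fun x y => wt y * Wc x y) hW1p f hf
  have hpart : ∑ y ∈ B, E y ≤ c * D := chain_part (fun x y => wt y * Wc x y) hW1p B c hB f hf
  let Q : Y × Y → ℝ := fun p => ∑ x, f x * Wp x p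
  have hQ0 : ∀ p, 0 ≤ Q p := fun p => Finset.sum_nonneg (fun x _ => mul_nonneg (hf x) (hWp x p))
  have hQac : ∀ p, R p = 0 → Q p = 0 := by
    intro p hp
    rw [← hR p] at hp
    have hz := (Finset.sum_eq_zero_iff_of_nonneg (fun x _ => hWp x p)).1 hp
    exact Finset.sum_eq_zero (fun x hx => by rw [hz x hx, mul_zero])
  have hbl := hBL Q hQ0 hQac
  have m1Q : (fun y1 => ∑ y2, Q (y1, y2)) = fun y => ∑ x, f x * (wt y * Wc x y) := by
    funext y1
    show ∑ y2, ∑ x, f x * Wp x (y1, y2) = _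
    rw [Finset.sum_comm]
    refine Finset.sum_congr rfl (fun x _ => ?_)
    rw [← Finset.mul_sum, hW1 x y1]
  have m1R : (fun y1 => ∑ y2, R (y1, y2)) = fun y => ∑ x, wt y * Wc x y := by
    funext y1
    have : ∀ y2, R (y1, y2) = ∑ x, Wp x (y1, y2) := fun y2 => (hR (y1, y2)).symm
    simp only [this]
    rw [Finset.sum_comm]
    exact Finset.sum_congr rfl (fun x _ => hW1 x y1)
  have m2Q : (fun y2 => ∑ y1, Q (y1, y2)) = fun y => ∑ x, f x * (wt y * Wc x y) := by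
    funext y2
    show ∑ y1, ∑ x, f x * Wp x (y1, y2) = _
    rw [Finset.sum_comm]
    refine Finset.sum_congr rfl (fun x _ => ?_)
    rw [← Finset.mul_sum, ← hW1 x y2]
    congr 1
    exact Finset.sum_congr rfl (fun y1 _ => hsym x y1 y2)
  have m2R : (fun y2 => ∑ y1, R (y1, y2)) = fun y => ∑ x, wt y * Wc x y := by
    funext y2
    have : ∀ y1, R (y1, y2) = ∑ x, Wp x (y1, y2) := fun y1 => (hR (y1, y2)).symm
    simp only [this]
    rw [Finset.sum_comm]
    refine Finset.sum_congr rfl (fun x _ => ?_)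
    rw [← hW1 x y2]
    exact Finset.sum_congr rfl (fun y1 _ => hsym x y1 y2)
  rw [m1Q, m1R, m2Q, m2R] at hbl
  have hchain := klw_chain Q R
  rw [m1Q, m1R] at hchain
  have hsl : ∀ (y1 : Y) (η' : ℝ), SDPIw (fun x y2 => Wp x (y1, y2)) η' →
      klw (fun b => Q (y1, b)) (fun b => R (y1, b)) ≤ η' * E y1 := by
    intro y1 η' hs
    have h := hs f hf
    have e1 : (fun y => ∑ x, Wp x (y1, y)) = fun b => R (y1, b) := funext (fun b => hR (y1, b))
    have e2 : (fun x => f x * ∑ y, Wp x (y1, y)) = fun x => f x * (wt y1 * Wc x y1) :=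
      funext (fun x => by rw [hW1])
    have e3 : (fun x => ∑ y, Wp x (y1, y)) = fun x => wt y1 * Wc x y1 :=
      funext (fun x => hW1 x y1)
    rw [e1, e2, e3] at h
    exact h
  have hterm : ∀ y1, klw (fun b => Q (y1, b)) (fun b => R (y1, b)) ≤
      g * E y1 + (if y1 ∈ B then E y1 else 0) := by
    intro y1
    by_cases hy : y1 ∈ B
    · have h1 := hsl y1 1 (SDPIw_one _ (fun x y2 => hWp x (y1, y2)))
      rw [if_pos hy]
      have h2 : 0 ≤ g * E y1 := mul_nonneg hg (hE0 y1)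
      linarith
    · have h1 := hsl y1 g (hgood y1 hy)
      rw [if_neg hy]
      linarith
  have hsum : ∑ y1, klw (fun b => Q (y1, b)) (fun b => R (y1, b)) ≤
      g * ∑ y, E y + ∑ y ∈ B, E y := by
    calc ∑ y1, klw (fun b => Q (y1, b)) (fun b => R (y1, b))
        ≤ ∑ y1, (g * E y1 + (if y1 ∈ B then E y1 else 0)) :=
          Finset.sum_le_sum (fun y1 _ => hterm y1)
      _ = g * ∑ y, E y + ∑ y ∈ B, E y := by
          rw [Finset.sum_add_distrib, ← Finset.mul_sum, Finset.sum_ite_mem, Finset.univ_inter]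
  have hSE : ∑ y, E y = D - D1 := by linarith
  rw [hSE] at hsum
  have hfin : D1 * (1 - 2 * ε + g) ≤ (g + c) * D := by
    have h1 : (1 - ε) * (D1 + D1) ≤ D1 + (g * (D - D1) + c * D) := by linarith
    linarith
  rw [div_mul_eq_mul_div, le_div_iff₀ hpos]
  exact hfin

end Vale.Agent.P162.Mid
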