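import Vale.Agent.P162.Mid.Defs
import Vale.Agent.P162.Mid.KlwNonneg
import Vale.Agent.P162.Mid.KlwChain
import Vale.Agent.P162.Mid.KlwChainMap
import Vale.Agent.P162.Mid.KlwMapLe
import Vale.Agent.P162.Mid.KlwSmul
import Vale.Agent.P162.Mid.KlwSumLe
import Vale.Agent.P162.Mid.KlwMonoWeight
import Vale.Agent.P162.Mid.KlwSuper
import Vale.Agent.P162.Mid.SdpiBasic
import Vale.Agent.P162.Mid.ChainIO
import Vale.Agent.P162.Mid.SdpiOne
import Vale.Agent.P162.Mid.ChainPart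
import Vale.Agent.P162.Mid.SdpiEmbed
import Vale.Agent.P162.Mid.SdpiTensor
import Vale.Agent.P162.Mid.SdpiLift
import Vale.Agent.P162.Mid.SdpiReweight
import Vale.Agent.P162.Mid.OutSplit
import Vale.Agent.P162.Mid.Bridge
import Vale.Agent.P162.Mid.StepZAbs

namespace Vale.Agent.P162.Mid
open Finset

/-- ABSTRACT TWO COPIES: product output weight gives the constant `1/2`. -/
theorem half_abs {X Y : Type*} [Fintype X] [Fintype Y]
    (W3 : X → Y × Y → ℝ) (Wt : X → Y → ℝ)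
    (hW3 : ∀ x p, 0 ≤ W3 x p) (hWt : ∀ x y, 0 ≤ Wt x y)
    (r1 r2 : Y → ℝ) (hr1 : ∀ y, 0 ≤ r1 y) (hr2 : ∀ y, 0 ≤ r2 y)
    (hR : ∀ y1 y2, ∑ x, W3 x (y1, y2) = r1 y1 * r2 y2)
    (cT : ℝ) (hcT : 0 < cT)
    (hm1 : ∀ x y1, ∑ y2, W3 x (y1, y2) = cT * Wt x y1)
    (hm2 : ∀ x y2, ∑ y1, W3 x (y1, y2) = cT * Wt x y2) :
    SDPIw Wt (1 / 2) := by
  classical
  have hs1n : 0 ≤ ∑ y, r1 y := Finset.sum_nonneg (fun y _ => hr1 y)
  have hs2n : 0 ≤ ∑ y, r2 y := Finset.sum_nonneg (fun y _ => hr2 y)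
  have href1 : ∀ a, cT * ∑ x, Wt x a = r1 a * ∑ y, r2 y := by
    intro a
    calc cT * ∑ x, Wt x a = ∑ x, cT * Wt x a := by rw [Finset.mul_sum]
      _ = ∑ x, ∑ y2, W3 x (a, y2) := by simp_rw [hm1]
      _ = ∑ y2, ∑ x, W3 x (a, y2) := Finset.sum_comm
      _ = ∑ y2, r1 a * r2 y2 := by simp_rw [hR]
      _ = r1 a * ∑ y, r2 y := by rw [← Finset.mul_sum]
  have href2 : ∀ b, cT * ∑ x, Wt x b = r2 b * ∑ y, r1 y := by
    intro b
    calc cT * ∑ x, Wt x b = ∑ x, cT * Wt x b := by rw [Finset.mul_sum]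
      _ = ∑ x, ∑ y1, W3 x (y1, b) := by simp_rw [hm2]
      _ = ∑ y1, ∑ x, W3 x (y1, b) := Finset.sum_comm
      _ = ∑ y1, r2 b * r1 y1 := by simp_rw [hR, mul_comm]
      _ = r2 b * ∑ y, r1 y := by rw [← Finset.mul_sum]
  by_cases h2 : ∑ y, r2 y = 0
  · apply SDPIw_zero
    intro x y
    have h3 := href1 y
    rw [h2, mul_zero] at h3
    have hsum : ∑ x, Wt x y = 0 := (mul_eq_zero.1 h3).resolve_left hcT.ne'
    exact (Finset.sum_eq_zero_iff_of_nonneg (fun x _ => hWt x y)).1 hsum x (Finset.mem_univ x)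
  by_cases h1 : ∑ y, r1 y = 0
  · apply SDPIw_zero
    intro x y
    have h3 := href2 y
    rw [h1, mul_zero] at h3
    have hsum : ∑ x, Wt x y = 0 := (mul_eq_zero.1 h3).resolve_left hcT.ne'
    exact (Finset.sum_eq_zero_iff_of_nonneg (fun x _ => hWt x y)).1 hsum x (Finset.mem_univ x)
  have hs1p : 0 < ∑ y, r1 y := lt_of_le_of_ne hs1n (Ne.symm h1)
  have hs2p : 0 < ∑ y, r2 y := lt_of_le_of_ne hs2n (Ne.symm h2)
  intro f hf
  have hu : ∀ x, 0 ≤ ∑ y, Wt x y := fun x => Finset.sum_nonneg (fun y _ => hWt x y)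
  have hout : ∀ y, 0 ≤ ∑ x, f x * Wt x y :=
    fun y => Finset.sum_nonneg (fun x _ => mul_nonneg (hf x) (hWt x y))
  have hrefn : ∀ y, 0 ≤ ∑ x, Wt x y := fun y => Finset.sum_nonneg (fun x _ => hWt x y)
  have hacout : ∀ y, ∑ x, Wt x y = 0 → ∑ x, f x * Wt x y = 0 := by
    intro y hy
    apply Finset.sum_eq_zero
    intro x _
    rw [(Finset.sum_eq_zero_iff_of_nonneg (fun x _ => hWt x y)).1 hy x (Finset.mem_univ x), mul_zero]
  -- data processing for the pair channel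
  have hA := SDPIw_one W3 hW3 f hf
  have hu3 : ∀ x, ∑ p, W3 x p = cT * ∑ y, Wt x y := by
    intro x
    rw [Fintype.sum_prod_type]
    simp_rw [hm1]
    rw [← Finset.mul_sum]
  have hR' : (fun p : Y × Y => ∑ x, W3 x p) = fun p => r1 p.1 * r2 p.2 := by
    funext p
    exact hR p.1 p.2
  have hrhs : klw (fun x => f x * ∑ p, W3 x p) (fun x => ∑ p, W3 x p)
      = cT * klw (fun x => f x * ∑ y, Wt x y) (fun x => ∑ y, Wt x y) := by
    have e1 : (fun x => f x * ∑ p, W3 x p) = fun x => cT * (f x * ∑ y, Wt x y) := by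
      funext x
      rw [hu3]; ring
    have e2 : (fun x => ∑ p, W3 x p) = fun x => cT * ∑ y, Wt x y := by
      funext x
      exact hu3 x
    rw [e1, e2]
    exact klw_smul_both cT hcT.le _ _ (fun x => mul_nonneg (hf x) (hu x)) hu
      (fun x hx => by rw [hx, mul_zero])
  rw [hrhs, hR', one_mul] at hA
  -- superadditivity
  have hS := klw_super (fun p : Y × Y => ∑ x, f x * W3 x p) r1 r2
    (fun p => Finset.sum_nonneg (fun x _ => mul_nonneg (hf x) (hW3 x p))) hr1 hr2 (by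
      intro p hp
      have h0 : ∑ x, W3 x p = 0 := by rw [← hp]; exact hR p.1 p.2
      apply Finset.sum_eq_zero
      intro x _
      rw [(Finset.sum_eq_zero_iff_of_nonneg (fun x _ => hW3 x p)).1 h0 x (Finset.mem_univ x),
        mul_zero])
  have m1 : (fun a => ∑ b, ∑ x, f x * W3 x (a, b)) = fun a => cT * ∑ x, f x * Wt x a := by
    funext a
    rw [Finset.sum_comm, Finset.mul_sum]
    apply Finset.sum_congr rfl
    intro x _
    rw [← Finset.mul_sum, hm1]; ring
  have m2 : (fun b => ∑ a, ∑ x, f x * W3 x (a, b)) = fun b => cT * ∑ x, f x * Wt x b := by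
    funext b
    rw [Finset.sum_comm, Finset.mul_sum]
    apply Finset.sum_congr rfl
    intro x _
    rw [← Finset.mul_sum, hm2]; ring
  have k1 : klw (fun a => cT * ∑ x, f x * Wt x a) r1
      = cT * klw (fun y => ∑ x, f x * Wt x y) (fun y => ∑ x, Wt x y) := by
    have er : r1 = fun a => (cT / ∑ y, r2 y) * ∑ x, Wt x a := by
      funext a
      have h3 := href1 a
      field_simp
      linarith
    rw [er, klw_smul_right (cT / ∑ y, r2 y) (by positivity) _ _
      (fun a => mul_nonneg hcT.le (hout a)) hrefn (fun a ha => by rw [hacout a ha, mul_zero]),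
      klw_smul_left cT hcT.le _ _ hout hrefn hacout]
  have k2 : klw (fun a => cT * ∑ x, f x * Wt x a) r2
      = cT * klw (fun y => ∑ x, f x * Wt x y) (fun y => ∑ x, Wt x y) := by
    have er : r2 = fun a => (cT / ∑ y, r1 y) * ∑ x, Wt x a := by
      funext a
      have h3 := href2 a
      field_simp
      linarith
    rw [er, klw_smul_right (cT / ∑ y, r1 y) (by positivity) _ _
      (fun a => mul_nonneg hcT.le (hout a)) hrefn (fun a ha => by rw [hacout a ha, mul_zero]),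
      klw_smul_left cT hcT.le _ _ hout hrefn hacout]
  rw [m1, m2, k1, k2] at hS
  have hfin : cT * (2 * klw (fun y => ∑ x, f x * Wt x y) (fun y => ∑ x, Wt x y))
      ≤ cT * klw (fun x => f x * ∑ y, Wt x y) (fun x => ∑ y, Wt x y) := by linarith
  have := le_of_mul_le_mul_left hfin hcT
  linarith

end Vale.Agent.P162.Mid
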