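import Vale.Agent.P162.Mid.Defs
import Vale.Agent.P162.Mid.KlwNonneg
import Vale.Agent.P162.Mid.KlwChain
import Vale.Agent.P162.Mid.KlwChainMap
import Vale.Agent.P162.Mid.KlwMapLe
import Vale.Agent.P162.Mid.KlwSmul
import Vale.Agent.P162.Mid.KlwSumLe
import Vale.Agent.P162.Mid.KlwMonoWeight
import Vale.Agent.P162.Mid.KlwSuper
import Vale.Agent.P162.Mid.SdpiBasic
import Vale.Agent.P162.Mid.ChainIO
import Vale.Agent.P162.Mid.SdpiOne
import Vale.Agent.P162.Mid.ChainPart
import Vale.Agent.P162.Mid.SdpiEmbed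
import Vale.Agent.P162.Mid.SdpiTensor
import Vale.Agent.P162.Mid.SdpiLift
import Vale.Agent.P162.Mid.SdpiReweight
import Vale.Agent.P162.Mid.OutSplit
import Vale.Agent.P162.Mid.Bridge
import Vale.Agent.P162.Mid.StepZAbs
import Vale.Agent.P162.Mid.HalfAbs

namespace Vale.Agent.P162.Mid
open Finset

private theorem sum0 {I : Type*} [Fintype I] (g : I → ℝ) (hg : ∀ i, 0 ≤ g i)
    (h : ∑ i, g i = 0) (i : I) : g i = 0 :=
  (Finset.sum_eq_zero_iff_of_nonneg (fun i _ => hg i)).1 h i (Finset.mem_univ i)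

/-- scaling of the input divergence -/
private theorem din_scale {X : Type*} [Fintype X] (f u v : X → ℝ) (k : ℝ) (hk : 0 ≤ k)
    (hf : ∀ x, 0 ≤ f x) (hu : ∀ x, 0 ≤ u x) (hv : ∀ x, v x = k * u x) :
    klw (fun x => f x * v x) (fun x => v x) = k * klw (fun x => f x * u x) (fun x => u x) := by
  have e1 : (fun x => f x * v x) = fun x => k * (f x * u x) := by
    funext x; rw [hv]; ring
  have e2 : (fun x => v x) = fun x => k * u x := by
    funext x; rw [hv]
  rw [e1, e2]
  exact klw_smul_both k hk _ _ (fun x => mul_nonneg (hf x) (hu x)) hu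
    (fun x h => by rw [h, mul_zero])

/-- scaling of a marginal output divergence -/
private theorem marg_scale {Y : Type*} [Fintype Y] (o q r : Y → ℝ) (cT s : ℝ) (hcT : 0 < cT)
    (hs : 0 < s) (ho : ∀ y, 0 ≤ o y) (hq : ∀ y, 0 ≤ q y) (hac : ∀ y, q y = 0 → o y = 0)
    (hr : ∀ y, r y * s = cT * q y) :
    klw (fun y => cT * o y) r = cT * klw o q := by
  have e : r = fun y => (cT / s) * q y := by
    funext y
    rw [div_mul_eq_mul_div, eq_div_iff hs.ne']
    exact hr y
  rw [e, klw_smul_right (cT / s) (div_pos hcT hs) _ _ (fun y => mul_nonneg hcT.le (ho y)) hq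
    (fun y h => by rw [hac y h, mul_zero])]
  exact klw_smul_left cT hcT.le o q ho hq hac

/-- ABSTRACT STEP T (board 298). -/
theorem stepT_abs {X Y Z : Type*} [Fintype X] [Fintype Y] [Fintype Z] [DecidableEq Z]
    (W3 : X → Y × Y → ℝ) (Wt : X → Y → ℝ) (Wc : X → Z → ℝ) (ζ : Y × Y → Z)
    (hW3 : ∀ x p, 0 ≤ W3 x p) (hWt : ∀ x y, 0 ≤ Wt x y) (hWc : ∀ x z, 0 ≤ Wc x z)
    (r1 r2 : Y → ℝ) (hr1 : ∀ y, 0 ≤ r1 y) (hr2 : ∀ y, 0 ≤ r2 y)
    (hR : ∀ y1 y2, ∑ x, W3 x (y1, y2) = r1 y1 * r2 y2)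
    (cT : ℝ) (hcT : 0 < cT)
    (hm1 : ∀ x y1, ∑ y2, W3 x (y1, y2) = cT * Wt x y1)
    (hm2 : ∀ x y2, ∑ y1, W3 x (y1, y2) = cT * Wt x y2)
    (lam : Z → ℝ) (hlam0 : ∀ z, 0 ≤ lam z)
    (hlam : ∀ x z, ∑ p, (if ζ p = z then W3 x p else 0) = lam z * Wc x z)
    (B : Finset Z) (lam0 c κu : ℝ) (hl00 : 0 ≤ lam0) (hc0 : 0 ≤ c) (hc1 : c ≤ 1) (hκu : 0 < κu)
    (hl0 : ∀ z, z ∉ B → lam z ≤ lam0)
    (hB : ∀ x, ∑ z ∈ B, lam z * Wc x z = c * ∑ z, lam z * Wc x z)
    (hu : ∀ x, ∑ z, lam z * Wc x z = κu * ∑ z, Wc x z)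
    (ηc : ℝ) (hηc : 0 ≤ ηc) (hc : SDPIw Wc ηc)
    (sg : ℝ) (hsg : 0 ≤ sg)
    (hgood : ∀ z, z ∉ B → SDPIw (fun x p => if ζ p = z then W3 x p else 0) sg) :
    SDPIw Wt ((lam0 / κu * ηc + sg + 2 * c) / 2) := by
  classical
  intro f hf
  -- total masses
  have htot : ∀ x, ∑ z, lam z * Wc x z = cT * ∑ y, Wt x y := by
    intro x
    calc ∑ z, lam z * Wc x z = ∑ z, ∑ p, (if ζ p = z then W3 x p else 0) := by
          simp_rw [hlam]
      _ = ∑ p, ∑ z, (if ζ p = z then W3 x p else 0) := Finset.sum_comm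
      _ = ∑ p, W3 x p := by simp
      _ = ∑ y1, ∑ y2, W3 x (y1, y2) := Fintype.sum_prod_type _
      _ = cT * ∑ y, Wt x y := by simp_rw [hm1, Finset.mul_sum]
  have hRp : ∀ p : Y × Y, ∑ x, W3 x p = r1 p.1 * r2 p.2 := fun p => hR p.1 p.2
  -- masses of the two factors
  have h1 : ∀ a, r1 a * ∑ b, r2 b = cT * ∑ x, Wt x a := by
    intro a
    calc r1 a * ∑ b, r2 b = ∑ b, ∑ x, W3 x (a, b) := by
          rw [Finset.mul_sum]; exact Finset.sum_congr rfl (fun b _ => (hR a b).symm)
      _ = ∑ x, ∑ b, W3 x (a, b) := Finset.sum_comm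
      _ = cT * ∑ x, Wt x a := by simp_rw [hm1, Finset.mul_sum]
  have h2 : ∀ b, r2 b * ∑ a, r1 a = cT * ∑ x, Wt x b := by
    intro b
    calc r2 b * ∑ a, r1 a = ∑ a, ∑ x, W3 x (a, b) := by
          rw [Finset.mul_sum]
          exact Finset.sum_congr rfl (fun a _ => by rw [hR a b, mul_comm])
      _ = ∑ x, ∑ a, W3 x (a, b) := Finset.sum_comm
      _ = cT * ∑ x, Wt x b := by simp_rw [hm2, Finset.mul_sum]
  have hs1n : 0 ≤ ∑ a, r1 a := Finset.sum_nonneg (fun a _ => hr1 a)
  have hs2n : 0 ≤ ∑ b, r2 b := Finset.sum_nonneg (fun b _ => hr2 b)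
  -- degenerate cases
  by_cases hs2 : ∑ b, r2 b = 0
  · have hz : ∀ x y, Wt x y = 0 := by
      intro x y
      have h := h1 y
      rw [hs2, mul_zero] at h
      have h' : ∑ x, Wt x y = 0 := by
        rcases mul_eq_zero.1 h.symm with h | h
        · exact absurd h hcT.ne'
        · exact h
      exact sum0 _ (fun x => hWt x y) h' x
    exact SDPIw_zero Wt hz _ f hf
  by_cases hs1 : ∑ a, r1 a = 0
  · have hz : ∀ x y, Wt x y = 0 := by
      intro x y
      have h := h2 y
      rw [hs1, mul_zero] at h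
      have h' : ∑ x, Wt x y = 0 := by
        rcases mul_eq_zero.1 h.symm with h | h
        · exact absurd h hcT.ne'
        · exact h
      exact sum0 _ (fun x => hWt x y) h' x
    exact SDPIw_zero Wt hz _ f hf
  have hs1p : 0 < ∑ a, r1 a := lt_of_le_of_ne hs1n (Ne.symm hs1)
  have hs2p : 0 < ∑ b, r2 b := lt_of_le_of_ne hs2n (Ne.symm hs2)
  -- the four divergences
  have hD3t : klw (fun x => f x * ∑ z, lam z * Wc x z) (fun x => ∑ z, lam z * Wc x z) =
      cT * klw (fun x => f x * ∑ y, Wt x y) (fun x => ∑ y, Wt x y) :=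
    din_scale f (fun x => ∑ y, Wt x y) (fun x => ∑ z, lam z * Wc x z) cT hcT.le hf
      (fun x => Finset.sum_nonneg (fun y _ => hWt x y)) htot
  have hD3c : klw (fun x => f x * ∑ z, lam z * Wc x z) (fun x => ∑ z, lam z * Wc x z) =
      κu * klw (fun x => f x * ∑ z, Wc x z) (fun x => ∑ z, Wc x z) :=
    din_scale f (fun x => ∑ z, Wc x z) (fun x => ∑ z, lam z * Wc x z) κu hκu.le hf
      (fun x => Finset.sum_nonneg (fun z _ => hWc x z)) hu
  -- step 1 : superadditivity
  have hQ0 : ∀ p, 0 ≤ ∑ x, f x * W3 x p :=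
    fun p => Finset.sum_nonneg (fun x _ => mul_nonneg (hf x) (hW3 x p))
  have hQac : ∀ p : Y × Y, r1 p.1 * r2 p.2 = 0 → ∑ x, f x * W3 x p = 0 := by
    intro p hp
    have h0 : ∀ x, W3 x p = 0 := sum0 _ (fun x => hW3 x p) ((hRp p).trans hp)
    simp [h0]
  have hsuper := klw_super (fun p => ∑ x, f x * W3 x p) r1 r2 hQ0 hr1 hr2 hQac
  have hQ1 : (fun a => ∑ b, ∑ x, f x * W3 x (a, b)) = fun a => cT * ∑ x, f x * Wt x a := by
    funext a
    rw [Finset.sum_comm, Finset.mul_sum]
    refine Finset.sum_congr rfl (fun x _ => ?_)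
    rw [← Finset.mul_sum, hm1]; ring
  have hQ2 : (fun b => ∑ a, ∑ x, f x * W3 x (a, b)) = fun b => cT * ∑ x, f x * Wt x b := by
    funext b
    rw [Finset.sum_comm, Finset.mul_sum]
    refine Finset.sum_congr rfl (fun x _ => ?_)
    rw [← Finset.mul_sum, hm2]; ring
  have ho0 : ∀ y, 0 ≤ ∑ x, f x * Wt x y :=
    fun y => Finset.sum_nonneg (fun x _ => mul_nonneg (hf x) (hWt x y))
  have hq0 : ∀ y, 0 ≤ ∑ x, Wt x y := fun y => Finset.sum_nonneg (fun x _ => hWt x y)
  have hoac : ∀ y, ∑ x, Wt x y = 0 → ∑ x, f x * Wt x y = 0 := by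
    intro y hy
    have h0 : ∀ x, Wt x y = 0 := sum0 _ (fun x => hWt x y) hy
    simp [h0]
  have hM1 := marg_scale (fun y => ∑ x, f x * Wt x y) (fun y => ∑ x, Wt x y) r1 cT _ hcT hs2p
    ho0 hq0 hoac h1
  have hM2 := marg_scale (fun y => ∑ x, f x * Wt x y) (fun y => ∑ x, Wt x y) r2 cT _ hcT hs1p
    ho0 hq0 hoac h2
  rw [hQ1, hQ2, hM1, hM2] at hsuper
  -- step 2 : chain rule along zeta
  have hchain := klw_chain_map ζ (fun p => ∑ x, f x * W3 x p) (fun p => r1 p.1 * r2 p.2)
  have hP1 : (fun z => ∑ p, if ζ p = z then ∑ x, f x * W3 x p else 0) =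
      fun z => ∑ x, f x * (lam z * Wc x z) := by
    funext z
    calc (∑ p, if ζ p = z then ∑ x, f x * W3 x p else 0)
        = ∑ p, ∑ x, f x * (if ζ p = z then W3 x p else 0) := by
          refine Finset.sum_congr rfl (fun p _ => ?_)
          by_cases h : ζ p = z <;> simp [h]
      _ = ∑ x, ∑ p, f x * (if ζ p = z then W3 x p else 0) := Finset.sum_comm
      _ = ∑ x, f x * (lam z * Wc x z) := by
          refine Finset.sum_congr rfl (fun x _ => ?_)
          rw [← Finset.mul_sum, hlam]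
  have hP2 : (fun z => ∑ p : Y × Y, if ζ p = z then r1 p.1 * r2 p.2 else 0) =
      fun z => ∑ x, lam z * Wc x z := by
    funext z
    calc (∑ p : Y × Y, if ζ p = z then r1 p.1 * r2 p.2 else 0)
        = ∑ p, ∑ x, (if ζ p = z then W3 x p else 0) := by
          refine Finset.sum_congr rfl (fun p _ => ?_)
          by_cases h : ζ p = z <;> simp [h, hRp]
      _ = ∑ x, ∑ p, (if ζ p = z then W3 x p else 0) := Finset.sum_comm
      _ = ∑ x, lam z * Wc x z := by
          refine Finset.sum_congr rfl (fun x _ => ?_)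
          rw [hlam]
  rw [hP1, hP2] at hchain
  -- step 3 : slices
  have hW'0 : ∀ x z, 0 ≤ lam z * Wc x z := fun x z => mul_nonneg (hlam0 z) (hWc x z)
  have hE0 : ∀ z, 0 ≤ klw (fun x => f x * (lam z * Wc x z)) (fun x => lam z * Wc x z) :=
    fun z => klw_nonneg _ _ (fun x => mul_nonneg (hf x) (hW'0 x z)) (fun x => hW'0 x z)
      (fun x h => by rw [h, mul_zero])
  have hslice : ∀ (z : Z) (e : ℝ), SDPIw (fun x p => if ζ p = z then W3 x p else 0) e →
      klw (fun p => if ζ p = z then ∑ x, f x * W3 x p else 0)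
        (fun p : Y × Y => if ζ p = z then r1 p.1 * r2 p.2 else 0) ≤
      e * klw (fun x => f x * (lam z * Wc x z)) (fun x => lam z * Wc x z) := by
    intro z e he
    have h := he f hf
    have e1 : (fun p => ∑ x, f x * (if ζ p = z then W3 x p else 0)) =
        fun p => if ζ p = z then ∑ x, f x * W3 x p else 0 := by
      funext p
      by_cases h : ζ p = z <;> simp [h]
    have e2 : (fun p => ∑ x, (if ζ p = z then W3 x p else 0)) =
        fun p : Y × Y => if ζ p = z then r1 p.1 * r2 p.2 else 0 := by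
      funext p
      by_cases h : ζ p = z <;> simp [h, hRp]
    have e3 : (fun x => f x * ∑ p, (if ζ p = z then W3 x p else 0)) =
        fun x => f x * (lam z * Wc x z) := by
      funext x; rw [hlam]
    have e4 : (fun x => ∑ p, (if ζ p = z then W3 x p else 0)) =
        fun x => lam z * Wc x z := by
      funext x; rw [hlam]
    rw [e1, e2, e3, e4] at h
    exact h
  have hslices : ∑ z, klw (fun p => if ζ p = z then ∑ x, f x * W3 x p else 0)
        (fun p : Y × Y => if ζ p = z then r1 p.1 * r2 p.2 else 0) ≤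
      sg * ∑ z, klw (fun x => f x * (lam z * Wc x z)) (fun x => lam z * Wc x z) +
        ∑ z ∈ B, klw (fun x => f x * (lam z * Wc x z)) (fun x => lam z * Wc x z) := by
    calc (∑ z, klw (fun p => if ζ p = z then ∑ x, f x * W3 x p else 0)
          (fun p : Y × Y => if ζ p = z then r1 p.1 * r2 p.2 else 0))
        ≤ ∑ z, (sg * klw (fun x => f x * (lam z * Wc x z)) (fun x => lam z * Wc x z) +
            if z ∈ B then klw (fun x => f x * (lam z * Wc x z)) (fun x => lam z * Wc x z)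
              else 0) := by
          refine Finset.sum_le_sum (fun z _ => ?_)
          by_cases hz : z ∈ B
          · have h := hslice z 1 (SDPIw_one _ (fun x p => by
              by_cases hp : ζ p = z
              · simp only [hp, if_true]; exact hW3 x p
              · simp only [hp, if_false]; exact le_rfl))
            simp only [hz, if_true]
            have h' := mul_nonneg hsg (hE0 z)
            linarith
          · have h := hslice z sg (hgood z hz)
            simp only [hz, if_false]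
            linarith
      _ = _ := by
          rw [Finset.sum_add_distrib, Finset.mul_sum, Finset.sum_ite_mem, Finset.univ_inter]
  -- step 4 : assembly
  have hio := chain_io (fun x z => lam z * Wc x z) hW'0 f hf
  have hpart := chain_part (fun x z => lam z * Wc x z) hW'0 B c (fun x => (hB x).le) f hf
  have hout := out_split Wc hWc lam hlam0 B lam0 c hl00 hc0 hc1 hl0 hB f hf
  have hcc := hc f hf
  have hout0 : 0 ≤ klw (fun z => ∑ x, f x * (lam z * Wc x z)) (fun z => ∑ x, lam z * Wc x z) := by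
    refine klw_nonneg _ _ (fun z => Finset.sum_nonneg (fun x _ => mul_nonneg (hf x) (hW'0 x z)))
      (fun z => Finset.sum_nonneg (fun x _ => hW'0 x z)) (fun z hz => ?_)
    have h0 : ∀ x, lam z * Wc x z = 0 := sum0 _ (fun x => hW'0 x z) hz
    simp [h0]
  generalize klw (fun x => f x * ∑ z, lam z * Wc x z) (fun x => ∑ z, lam z * Wc x z) = D3
    at hD3t hD3c hio hpart hout
  generalize klw (fun x => f x * ∑ z, Wc x z) (fun x => ∑ z, Wc x z) = Dc at hD3c hcc
  generalize klw (fun z => ∑ x, f x * Wc x z) (fun z => ∑ x, Wc x z) = Oc at hcc hout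
  generalize klw (fun z => ∑ x, f x * (lam z * Wc x z)) (fun z => ∑ x, lam z * Wc x z) = O'
    at hchain hio hout hout0
  generalize (∑ z, klw (fun x => f x * (lam z * Wc x z)) (fun x => lam z * Wc x z)) = SE
    at hslices hio
  generalize (∑ z ∈ B, klw (fun x => f x * (lam z * Wc x z)) (fun x => lam z * Wc x z)) = SB
    at hslices hpart
  generalize (∑ z, klw (fun p => if ζ p = z then ∑ x, f x * W3 x p else 0)
        (fun p : Y × Y => if ζ p = z then r1 p.1 * r2 p.2 else 0)) = SS at hslices hchain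
  generalize klw (fun p => ∑ x, f x * W3 x p) (fun p : Y × Y => r1 p.1 * r2 p.2) = KQR
    at hsuper hchain
  generalize klw (fun x => f x * ∑ y, Wt x y) (fun x => ∑ y, Wt x y) = Dt at hD3t ⊢
  generalize klw (fun y => ∑ x, f x * Wt x y) (fun y => ∑ x, Wt x y) = Ot at hsuper ⊢
  have a1 : lam0 * Oc ≤ lam0 * (ηc * Dc) := mul_le_mul_of_nonneg_left hcc hl00
  have a2 : sg * SE ≤ sg * D3 := mul_le_mul_of_nonneg_left (by linarith) hsg
  have a3 : lam0 * (ηc * Dc) = lam0 / κu * ηc * D3 := by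
    rw [hD3c]; field_simp
  have key : 2 * cT * Ot ≤ (lam0 / κu * ηc + sg + 2 * c) * D3 := by
    have e : (lam0 / κu * ηc + sg + 2 * c) * D3 = lam0 / κu * ηc * D3 + sg * D3 + 2 * (c * D3) := by
      ring
    rw [e]
    linarith
  rw [hD3t] at key
  have fin : cT * Ot ≤ cT * ((lam0 / κu * ηc + sg + 2 * c) / 2 * Dt) := by
    have e : cT * ((lam0 / κu * ηc + sg + 2 * c) / 2 * Dt) =
        ((lam0 / κu * ηc + sg + 2 * c) * (cT * Dt)) / 2 := by ring
    rw [e]
    linarith
  exact le_of_mul_le_mul_left fin hcT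

end Vale.Agent.P162.Mid
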