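import Vale.Agent.P162.Mid.Defs
import Vale.Agent.P162.KL.SizeLaws
import Vale.Agent.P162.KL.BL
import Vale.Agent.P162.KL.PairLaw
import Vale.Agent.P162.Scalar.Harmonic
import Vale.Agent.P162.Mid.KlwNonneg
import Vale.Agent.P162.Mid.KlwChain
import Vale.Agent.P162.Mid.KlwChainMap
import Vale.Agent.P162.Mid.KlwMapLe
import Vale.Agent.P162.Mid.KlwSmul
import Vale.Agent.P162.Mid.KlwSumLe
import Vale.Agent.P162.Mid.KlwMonoWeight
import Vale.Agent.P162.Mid.KlwSuper
import Vale.Agent.P162.Mid.SdpiBasic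
import Vale.Agent.P162.Mid.ChainIO
import Vale.Agent.P162.Mid.SdpiOne
import Vale.Agent.P162.Mid.ChainPart
import Vale.Agent.P162.Mid.SdpiEmbed
import Vale.Agent.P162.Mid.SdpiTensor
import Vale.Agent.P162.Mid.SdpiLift
import Vale.Agent.P162.Mid.SdpiReweight
import Vale.Agent.P162.Mid.OutSplit
import Vale.Agent.P162.Mid.Bridge
import Vale.Agent.P162.Mid.StepZAbs
import Vale.Agent.P162.Mid.HalfAbs
import Vale.Agent.P162.Mid.StepTAbs
import Vale.Agent.P162.Mid.ConcGlue

namespace Vale.Agent.P162.Mid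
open Finset

section
variable {S : Type*} [Fintype S] [DecidableEq S]

theorem glp_apply_mem (x : Finset S) (s : Equiv.Perm {a // a ∈ x} × Equiv.Perm {a // ¬ a ∈ x})
    (a : S) (ha : a ∈ x) : glp x s a = (s.1 ⟨a, ha⟩ : S) :=
  H98.glp_mem x s ha

theorem glp_apply_not_mem (x : Finset S)
    (s : Equiv.Perm {a // a ∈ x} × Equiv.Perm {a // ¬ a ∈ x})
    (a : S) (ha : ¬ a ∈ x) : glp x s a = (s.2 ⟨a, ha⟩ : S) :=
  H98.glp_not_mem x s ha

theorem glp_injective (x : Finset S) : Function.Injective (glp x) :=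
  H98.glp_injective x

theorem isM_glp (x : Finset S) (s : Equiv.Perm {a // a ∈ x} × Equiv.Perm {a // ¬ a ∈ x}) :
    IsM (glp x s) ↔ IsM s.1 ∧ IsM s.2 :=
  H98.isM_glp x s

theorem clo_glp_self (x : Finset S) (s : Equiv.Perm {a // a ∈ x} × Equiv.Perm {a // ¬ a ∈ x}) :
    Clo (glp x s) x :=
  H98.clo_glp_self x s

/-- a matching for which `x` is closed is glued from matchings of `x` and of its complement -/
theorem exists_glp (x : Finset S) (σ : Equiv.Perm S) (hσ : IsM σ) (hx : Clo σ x) :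
    ∃ s, glp x s = σ :=
  H98.exists_glp hσ hx
end

end Vale.Agent.P162.Mid
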