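import Vale.Agent.P162.Mid.Defs
import Vale.Agent.P162.KL.SizeLaws
import Vale.Agent.P162.KL.BL
import Vale.Agent.P162.KL.PairLaw
import Vale.Agent.P162.Scalar.Harmonic
import Vale.Agent.P162.Mid.KlwNonneg
import Vale.Agent.P162.Mid.KlwChain
import Vale.Agent.P162.Mid.KlwChainMap
import Vale.Agent.P162.Mid.KlwMapLe
import Vale.Agent.P162.Mid.KlwSmul
import Vale.Agent.P162.Mid.KlwSumLe
import Vale.Agent.P162.Mid.KlwMonoWeight
import Vale.Agent.P162.Mid.KlwSuper
import Vale.Agent.P162.Mid.SdpiBasic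
import Vale.Agent.P162.Mid.ChainIO
import Vale.Agent.P162.Mid.SdpiOne
import Vale.Agent.P162.Mid.ChainPart
import Vale.Agent.P162.Mid.SdpiEmbed
import Vale.Agent.P162.Mid.SdpiTensor
import Vale.Agent.P162.Mid.SdpiLift
import Vale.Agent.P162.Mid.SdpiReweight
import Vale.Agent.P162.Mid.OutSplit
import Vale.Agent.P162.Mid.Bridge
import Vale.Agent.P162.Mid.StepZAbs
import Vale.Agent.P162.Mid.HalfAbs
import Vale.Agent.P162.Mid.StepTAbs
import Vale.Agent.P162.Mid.GlueP
import Vale.Agent.P162.Mid.GlueS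

namespace Vale.Agent.P162.Mid
open Finset

section
variable {S : Type*} [Fintype S] [DecidableEq S]

theorem clo_glp (x : Finset S) (s : Equiv.Perm {a // a ∈ x} × Equiv.Perm {a // ¬ a ∈ x})
    (t : Finset {a // a ∈ x} × Finset {a // ¬ a ∈ x}) :
    Clo (glp x s) (gl x t) ↔ Clo s.1 t.1 ∧ Clo s.2 t.2 :=
  H98.clo_glp_gl x s t

theorem trv_glp (x : Finset S) (s : Equiv.Perm {a // a ∈ x} × Equiv.Perm {a // ¬ a ∈ x})
    (t : Finset {a // a ∈ x} × Finset {a // ¬ a ∈ x}) :
    Trv (glp x s) (gl x t) ↔ Trv s.1 t.1 ∧ Trv s.2 t.2 := by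
  constructor
  · intro h
    constructor
    · rintro ⟨a, ha⟩
      have := h a
      rw [H98.glp_mem x s ha, H98.mem_gl_of_mem x t ha, H98.mem_gl_of_mem x t (s.1 ⟨a, ha⟩).2] at this
      exact this
    · rintro ⟨a, ha⟩
      have := h a
      rw [H98.glp_not_mem x s ha, H98.mem_gl_of_not_mem x t ha,
        H98.mem_gl_of_not_mem x t (s.2 ⟨a, ha⟩).2] at this
      exact this
  · rintro ⟨h1, h2⟩ a
    by_cases ha : a ∈ x
    · rw [H98.glp_mem x s ha, H98.mem_gl_of_mem x t ha, H98.mem_gl_of_mem x t (s.1 ⟨a, ha⟩).2]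
      exact h1 ⟨a, ha⟩
    · rw [H98.glp_not_mem x s ha, H98.mem_gl_of_not_mem x t ha,
        H98.mem_gl_of_not_mem x t (s.2 ⟨a, ha⟩).2]
      exact h2 ⟨a, ha⟩

theorem trv_compl (σ : Equiv.Perm S) (T : Finset S) : Trv σ Tᶜ ↔ Trv σ T := by
  unfold Trv
  simp only [Finset.mem_compl]
  constructor
  · intro h a
    have := h a
    tauto
  · intro h a
    have := h a
    tauto

/-- the agreement set of two transversals is closed -/
theorem clo_agr (σ : Equiv.Perm S) (p : Finset S × Finset S) (h1 : Trv σ p.1) (h2 : Trv σ p.2) :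
    Clo σ (agr p) := by
  intro a ha
  unfold agr at *
  simp only [Finset.mem_union, Finset.mem_inter, Finset.mem_compl] at *
  have a1 := h1 a
  have a2 := h2 a
  tauto
end

end Vale.Agent.P162.Mid
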