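import Vale.Agent.P162.Mid.Defs
import Vale.Agent.P162.KL.SizeLaws
import Vale.Agent.P162.KL.BL
import Vale.Agent.P162.KL.PairLaw
import Vale.Agent.P162.Scalar.Harmonic
import Vale.Agent.P162.Mid.KlwNonneg
import Vale.Agent.P162.Mid.KlwChain
import Vale.Agent.P162.Mid.KlwChainMap
import Vale.Agent.P162.Mid.KlwMapLe
import Vale.Agent.P162.Mid.KlwSmul
import Vale.Agent.P162.Mid.KlwSumLe
import Vale.Agent.P162.Mid.KlwMonoWeight
import Vale.Agent.P162.Mid.KlwSuper
import Vale.Agent.P162.Mid.SdpiBasic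
import Vale.Agent.P162.Mid.ChainIO
import Vale.Agent.P162.Mid.SdpiOne
import Vale.Agent.P162.Mid.ChainPart
import Vale.Agent.P162.Mid.SdpiEmbed
import Vale.Agent.P162.Mid.SdpiTensor
import Vale.Agent.P162.Mid.SdpiLift
import Vale.Agent.P162.Mid.SdpiReweight
import Vale.Agent.P162.Mid.OutSplit
import Vale.Agent.P162.Mid.Bridge
import Vale.Agent.P162.Mid.StepZAbs
import Vale.Agent.P162.Mid.HalfAbs
import Vale.Agent.P162.Mid.StepTAbs
import Vale.Agent.P162.Mid.GlueP

namespace Vale.Agent.P162.Mid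
open Finset

section
variable {S : Type*} [Fintype S] [DecidableEq S]

theorem mem_gl (x : Finset S) (t : Finset {a // a ∈ x} × Finset {a // ¬ a ∈ x}) (a : S) :
    a ∈ gl x t ↔ (∃ h : a ∈ x, (⟨a, h⟩ : {a // a ∈ x}) ∈ t.1) ∨
      (∃ h : ¬ a ∈ x, (⟨a, h⟩ : {a // ¬ a ∈ x}) ∈ t.2) :=
  H98.mem_gl x t a

theorem gl_injective (x : Finset S) : Function.Injective (gl x) :=
  H98.gl_injective x

theorem exists_gl (x y : Finset S) : ∃ t, gl x t = y :=
  H98.gl_surjective x y

theorem gl2_injective (x : Finset S) : Function.Injective (gl2 x) := by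
  intro t t' h
  exact H98.gl_injective x (congrArg Prod.fst h)

theorem card_sub_mem (x : Finset S) : Fintype.card {a // a ∈ x} = x.card :=
  Fintype.card_coe x

theorem card_sub_not_mem (x : Finset S) :
    Fintype.card {a // ¬ a ∈ x} = Fintype.card S - x.card := by
  rw [Fintype.card_subtype_compl, Fintype.card_coe]

theorem card_inter_gl (x : Finset S) (t : Finset {a // a ∈ x} × Finset {a // ¬ a ∈ x}) :
    (x ∩ gl x t).card = t.1.card :=
  H98.card_inter_gl x t

theorem card_sdiff_gl (x : Finset S) (t : Finset {a // a ∈ x} × Finset {a // ¬ a ∈ x}) :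
    (x \ gl x t).card = x.card - t.1.card :=
  H98.card_sdiff_gl x t

theorem card_gl_sdiff (x : Finset S) (t : Finset {a // a ∈ x} × Finset {a // ¬ a ∈ x}) :
    (gl x t \ x).card = t.2.card :=
  H98.card_gl_sdiff x t

theorem card_union_gl (x : Finset S) (t : Finset {a // a ∈ x} × Finset {a // ¬ a ∈ x}) :
    Fintype.card S - (x ∪ gl x t).card = (Fintype.card S - x.card) - t.2.card := by
  rw [H98.card_union_gl, Nat.sub_sub]

theorem card_gl (x : Finset S) (t : Finset {a // a ∈ x} × Finset {a // ¬ a ∈ x}) :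
    (gl x t).card = t.1.card + t.2.card := by
  have h := Finset.card_inter_add_card_sdiff (gl x t) x
  rw [Finset.inter_comm, H98.card_inter_gl, H98.card_gl_sdiff] at h
  exact h.symm

/-- the two members of `gl2 x t` agree exactly on `x` -/
theorem agr_gl2 (x : Finset S) (t : Finset {a // a ∈ x} × Finset {a // ¬ a ∈ x}) :
    agr (gl2 x t) = x := by
  ext a
  unfold agr gl2
  simp only [Finset.mem_union, Finset.mem_inter, Finset.mem_compl]
  by_cases ha : a ∈ x
  · rw [H98.mem_gl_of_mem x t ha, H98.mem_gl_of_mem x (t.1, t.2ᶜ) ha]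
    simp only [ha, iff_true]
    tauto
  · rw [H98.mem_gl_of_not_mem x t ha, H98.mem_gl_of_not_mem x (t.1, t.2ᶜ) ha]
    simp only [ha, iff_false, Finset.mem_compl]
    tauto

theorem card_gl2_inter (x : Finset S) (t : Finset {a // a ∈ x} × Finset {a // ¬ a ∈ x}) :
    ((gl2 x t).1 ∩ (gl2 x t).2).card = t.1.card := by
  have e : (gl2 x t).1 ∩ (gl2 x t).2 = t.1.map (Function.Embedding.subtype _) := by
    ext a
    unfold gl2
    simp only [Finset.mem_inter, Finset.mem_map, Function.Embedding.coe_subtype]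
    constructor
    · rintro ⟨h1, h2⟩
      by_cases ha : a ∈ x
      · exact ⟨⟨a, ha⟩, (H98.mem_gl_of_mem x t ha).1 h1, rfl⟩
      · rw [H98.mem_gl_of_not_mem x t ha] at h1
        rw [H98.mem_gl_of_not_mem x (t.1, t.2ᶜ) ha] at h2
        exact absurd h1 (Finset.mem_compl.1 h2)
    · rintro ⟨b, hb, rfl⟩
      exact ⟨(H98.mem_gl_of_mem x t b.2).2 hb, (H98.mem_gl_of_mem x (t.1, t.2ᶜ) b.2).2 hb⟩
  rw [e, Finset.card_map]

theorem card_gl2_sdiff (x : Finset S) (t : Finset {a // a ∈ x} × Finset {a // ¬ a ∈ x}) :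
    ((gl2 x t).1 \ (gl2 x t).2).card = t.2.card := by
  have e : (gl2 x t).1 \ (gl2 x t).2 = t.2.map (Function.Embedding.subtype _) := by
    ext a
    unfold gl2
    simp only [Finset.mem_sdiff, Finset.mem_map, Function.Embedding.coe_subtype]
    constructor
    · rintro ⟨h1, h2⟩
      by_cases ha : a ∈ x
      · rw [H98.mem_gl_of_mem x t ha] at h1
        rw [H98.mem_gl_of_mem x (t.1, t.2ᶜ) ha] at h2
        exact absurd h1 h2
      · exact ⟨⟨a, ha⟩, (H98.mem_gl_of_not_mem x t ha).1 h1, rfl⟩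
    · rintro ⟨b, hb, rfl⟩
      refine ⟨(H98.mem_gl_of_not_mem x t b.2).2 hb, ?_⟩
      rw [H98.mem_gl_of_not_mem x (t.1, t.2ᶜ) b.2]
      simp only [Finset.mem_compl, not_not]
      exact hb
  rw [e, Finset.card_map]

/-- every pair with agreement set `x` is of the form `gl2 x t` -/
theorem exists_gl2 (x : Finset S) (p : Finset S × Finset S) (h : agr p = x) :
    ∃ t, gl2 x t = p := by
  obtain ⟨t, ht⟩ := H98.gl_surjective x p.1
  refine ⟨t, ?_⟩
  unfold gl2
  apply Prod.ext
  · exact ht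
  · ext a
    have hx : a ∈ agr p ↔ a ∈ x := by rw [h]
    unfold agr at hx
    simp only [Finset.mem_union, Finset.mem_inter, Finset.mem_compl] at hx
    have h1 : a ∈ gl x t ↔ a ∈ p.1 := by rw [ht]
    by_cases ha : a ∈ x
    · rw [H98.mem_gl_of_mem x (t.1, t.2ᶜ) ha]
      rw [H98.mem_gl_of_mem x t ha] at h1
      simp only [ha, iff_true] at hx
      show _ ∈ t.1 ↔ _
      tauto
    · rw [H98.mem_gl_of_not_mem x (t.1, t.2ᶜ) ha]
      rw [H98.mem_gl_of_not_mem x t ha] at h1
      simp only [ha, iff_false] at hx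
      show _ ∈ t.2ᶜ ↔ _
      rw [Finset.mem_compl]
      tauto
end

end Vale.Agent.P162.Mid
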