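import Vale.Agent.P162.Mid.Defs
import Vale.Agent.P162.KL.SizeLaws
import Vale.Agent.P162.KL.BL
import Vale.Agent.P162.KL.PairLaw
import Vale.Agent.P162.Scalar.Harmonic
import Vale.Agent.P162.Mid.KlwNonneg
import Vale.Agent.P162.Mid.KlwChain
import Vale.Agent.P162.Mid.KlwChainMap
import Vale.Agent.P162.Mid.KlwMapLe
import Vale.Agent.P162.Mid.KlwSmul
import Vale.Agent.P162.Mid.KlwSumLe
import Vale.Agent.P162.Mid.KlwMonoWeight
import Vale.Agent.P162.Mid.KlwSuper
import Vale.Agent.P162.Mid.SdpiBasic
import Vale.Agent.P162.Mid.ChainIO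
import Vale.Agent.P162.Mid.SdpiOne
import Vale.Agent.P162.Mid.ChainPart
import Vale.Agent.P162.Mid.SdpiEmbed
import Vale.Agent.P162.Mid.SdpiTensor
import Vale.Agent.P162.Mid.SdpiLift
import Vale.Agent.P162.Mid.SdpiReweight
import Vale.Agent.P162.Mid.OutSplit
import Vale.Agent.P162.Mid.Bridge
import Vale.Agent.P162.Mid.StepZAbs
import Vale.Agent.P162.Mid.HalfAbs
import Vale.Agent.P162.Mid.StepTAbs
import Vale.Agent.P162.Mid.GlueP
import Vale.Agent.P162.Mid.GlueS
import Vale.Agent.P162.Mid.GlueC
import Vale.Agent.P162.Mid.Trv0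

namespace Vale.Agent.P162.Mid
open Finset

private theorem mem_jj33 {S : Type*} [DecidableEq S] (σ : Equiv.Perm S) (hσ : IsM σ)
    (T1 I : Finset S) (a : S) :
    a ∈ I ∪ (T1 \ I).image σ ↔ a ∈ I ∨ (σ a ∈ T1 ∧ σ a ∉ I) := by
  rw [Finset.mem_union, Finset.mem_image]
  constructor
  · rintro (h | ⟨b, hb, rfl⟩)
    · exact Or.inl h
    · rw [Finset.mem_sdiff] at hb
      rw [hσ.1 b]
      exact Or.inr hb
  · rintro (h | h)
    · exact Or.inl h
    · exact Or.inr ⟨σ a, Finset.mem_sdiff.2 h, hσ.1 a⟩

private theorem flip33 {S : Type*} (σ : Equiv.Perm S) (hσ : IsM σ) (T1 : Finset S)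
    (h1 : Trv σ T1) (a : S) : σ a ∈ T1 ↔ a ∉ T1 := by
  have := h1 (σ a)
  rw [hσ.1 a] at this
  exact this

open Classical in
/-- the transversals `T` of `σ` correspond to the subsets `T1 ∩ T` of a fixed transversal `T1` -/
theorem sum_trv {S : Type*} [Fintype S] [DecidableEq S] (M : ℕ) (hM : Fintype.card S = 2 * M)
    (σ : Equiv.Perm S) (hσ : IsM σ) (T1 : Finset S) (h1 : Trv σ T1) (F : ℕ → ℝ) :
    ∑ T : Finset S, (if Trv σ T then F (T1 ∩ T).card else 0) =
      ∑ a ∈ range (M + 1), (M.choose a : ℝ) * F a := by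
  have hc : T1.card = M := by
    have := trv_card σ T1 h1
    omega
  rw [← Finset.sum_filter]
  have hb : ∑ T ∈ Finset.univ.filter (fun T : Finset S => Trv σ T), F (T1 ∩ T).card
      = ∑ I ∈ T1.powerset, F I.card := by
    refine Finset.sum_bij' (fun T _ => T1 ∩ T) (fun I _ => I ∪ (T1 \ I).image σ) ?_ ?_ ?_ ?_ ?_
    · intro T _
      exact Finset.mem_powerset.2 Finset.inter_subset_left
    · intro I hI
      have hI' := Finset.mem_powerset.1 hI
      rw [Finset.mem_filter]
      refine ⟨Finset.mem_univ _, ?_⟩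
      intro a
      rw [mem_jj33 σ hσ, mem_jj33 σ hσ, hσ.1 a]
      have f1 := flip33 σ hσ T1 h1 a
      by_cases ha : a ∈ T1
      · have h2 : σ a ∉ T1 := fun h => (f1.1 h) ha
        have h3 : σ a ∉ I := fun h => h2 (hI' h)
        constructor
        · rintro (h | h)
          · rintro (h' | h')
            · exact h3 h'
            · exact h'.2 h
          · exact absurd h.1 h2
        · intro h
          by_contra hn
          exact h (Or.inr ⟨ha, fun h' => hn (Or.inl h')⟩)
      · have h2 : σ a ∈ T1 := f1.2 ha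
        have h3 : a ∉ I := fun h => ha (hI' h)
        constructor
        · rintro (h | h)
          · exact absurd h h3
          · rintro (h' | h')
            · exact h.2 h'
            · exact ha h'.1
        · intro h
          exact Or.inr ⟨h2, fun h' => h (Or.inl h')⟩
    · intro T hT
      have hT' : Trv σ T := (Finset.mem_filter.1 hT).2
      ext a
      rw [mem_jj33 σ hσ, Finset.mem_inter, Finset.mem_inter]
      have f1 := flip33 σ hσ T1 h1 a
      have f2 := hT' a
      by_cases ha : a ∈ T1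
      · have h2 : σ a ∉ T1 := fun h => (f1.1 h) ha
        constructor
        · rintro (h | h)
          · exact h.2
          · exact absurd h.1 h2
        · intro h
          exact Or.inl ⟨ha, h⟩
      · have h2 : σ a ∈ T1 := f1.2 ha
        constructor
        · rintro (h | h)
          · exact absurd h.1 ha
          · exact f2.2 (fun h' => h.2 ⟨h2, h'⟩)
        · intro h
          exact Or.inr ⟨h2, fun h' => (f2.1 h) h'.2⟩
    · intro I hI
      have hI' := Finset.mem_powerset.1 hI
      ext a
      rw [Finset.mem_inter, mem_jj33 σ hσ]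
      have f1 := flip33 σ hσ T1 h1 a
      constructor
      · rintro ⟨ha, h | h⟩
        · exact h
        · exact absurd ha (f1.1 h.1)
      · intro h
        exact ⟨hI' h, Or.inl h⟩
    · intro T _
      rfl
  rw [hb, Finset.sum_powerset_apply_card, hc]
  refine Finset.sum_congr rfl (fun a _ => ?_)
  rw [nsmul_eq_mul]

end Vale.Agent.P162.Mid
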