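import Vale.Agent.P162.Mid.Defs
import Vale.Agent.P162.KL.SizeLaws
import Vale.Agent.P162.KL.BL
import Vale.Agent.P162.KL.PairLaw
import Vale.Agent.P162.Scalar.Harmonic
import Vale.Agent.P162.Mid.KlwNonneg
import Vale.Agent.P162.Mid.KlwChain
import Vale.Agent.P162.Mid.KlwChainMap
import Vale.Agent.P162.Mid.KlwMapLe
import Vale.Agent.P162.Mid.KlwSmul
import Vale.Agent.P162.Mid.KlwSumLe
import Vale.Agent.P162.Mid.KlwMonoWeight
import Vale.Agent.P162.Mid.KlwSuper
import Vale.Agent.P162.Mid.SdpiBasic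
import Vale.Agent.P162.Mid.ChainIO
import Vale.Agent.P162.Mid.SdpiOne
import Vale.Agent.P162.Mid.ChainPart
import Vale.Agent.P162.Mid.SdpiEmbed
import Vale.Agent.P162.Mid.SdpiTensor
import Vale.Agent.P162.Mid.SdpiLift
import Vale.Agent.P162.Mid.SdpiReweight
import Vale.Agent.P162.Mid.OutSplit
import Vale.Agent.P162.Mid.Bridge
import Vale.Agent.P162.Mid.StepZAbs
import Vale.Agent.P162.Mid.HalfAbs
import Vale.Agent.P162.Mid.StepTAbs
import Vale.Agent.P162.Mid.GlueP
import Vale.Agent.P162.Mid.GlueS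
import Vale.Agent.P162.Mid.GlueC

namespace Vale.Agent.P162.Mid
open Finset

section
variable {S : Type*} [Fintype S] [DecidableEq S]

theorem exists_trv (σ : Equiv.Perm S) (hσ : IsM σ) : ∃ T, Trv σ T := by
  classical
  let e := Fintype.equivFin S
  refine ⟨Finset.univ.filter (fun a => e a < e (σ a)), ?_⟩
  intro a
  simp only [Finset.mem_filter, Finset.mem_univ, true_and, hσ.1 a, not_lt]
  have hne : e (σ a) ≠ e a := fun h => hσ.2 a (e.injective h)
  constructor
  · intro h; exact h.le
  · intro h; exact lt_of_le_of_ne h (Ne.symm hne)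

theorem trv_card (σ : Equiv.Perm S) (T : Finset S) (hT : Trv σ T) :
    2 * T.card = Fintype.card S := by
  have hmap : T.map σ.toEmbedding = Tᶜ := by
    ext b
    rw [Finset.mem_compl]
    constructor
    · intro hb
      obtain ⟨a, ha, rfl⟩ := Finset.mem_map.1 hb
      exact (hT a).1 ha
    · intro hb
      refine Finset.mem_map.2 ⟨σ.symm b, ?_, by simp⟩
      rw [hT]
      simpa using hb
  have h1 : (T.map σ.toEmbedding).card = T.card := Finset.card_map _
  have h2 := Finset.card_add_card_compl T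
  rw [hmap] at h1
  omega

theorem clo_even (σ : Equiv.Perm S) (hσ : IsM σ) (z : Finset S) (hz : Clo σ z) :
    Even z.card := by
  obtain ⟨T, hT⟩ := exists_trv σ hσ
  have hmap : (z ∩ T).map σ.toEmbedding = z \ T := by
    ext b
    rw [Finset.mem_sdiff]
    constructor
    · intro hb
      obtain ⟨a, ha, rfl⟩ := Finset.mem_map.1 hb
      rw [Finset.mem_inter] at ha
      exact ⟨hz a ha.1, (hT a).1 ha.2⟩
    · intro hb
      refine Finset.mem_map.2 ⟨σ b, ?_, hσ.1 b⟩
      rw [Finset.mem_inter]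
      refine ⟨hz b hb.1, ?_⟩
      rw [hT, hσ.1 b]
      exact hb.2
  have h1 : ((z ∩ T).map σ.toEmbedding).card = (z ∩ T).card := Finset.card_map _
  have h2 := Finset.card_inter_add_card_sdiff z T
  rw [hmap] at h1
  exact ⟨(z ∩ T).card, by omega⟩

theorem isM_even (σ : Equiv.Perm S) (hσ : IsM σ) : Even (Fintype.card S) := by
  have := clo_even σ hσ Finset.univ (fun a _ => Finset.mem_univ _)
  rwa [Finset.card_univ] at this
end

end Vale.Agent.P162.Mid
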