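import Vale.Agent.P162.Mid.Defs
import Vale.Agent.P162.KL.SizeLaws
import Vale.Agent.P162.KL.BL
import Vale.Agent.P162.KL.PairLaw
import Vale.Agent.P162.Scalar.Harmonic
import Vale.Agent.P162.Mid.KlwNonneg
import Vale.Agent.P162.Mid.KlwChain
import Vale.Agent.P162.Mid.KlwChainMap
import Vale.Agent.P162.Mid.KlwMapLe
import Vale.Agent.P162.Mid.KlwSmul
import Vale.Agent.P162.Mid.KlwSumLe
import Vale.Agent.P162.Mid.KlwMonoWeight
import Vale.Agent.P162.Mid.KlwSuper
import Vale.Agent.P162.Mid.SdpiBasic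
import Vale.Agent.P162.Mid.ChainIO
import Vale.Agent.P162.Mid.SdpiOne
import Vale.Agent.P162.Mid.ChainPart
import Vale.Agent.P162.Mid.SdpiEmbed
import Vale.Agent.P162.Mid.SdpiTensor
import Vale.Agent.P162.Mid.SdpiLift
import Vale.Agent.P162.Mid.SdpiReweight
import Vale.Agent.P162.Mid.OutSplit
import Vale.Agent.P162.Mid.Bridge
import Vale.Agent.P162.Mid.StepZAbs
import Vale.Agent.P162.Mid.HalfAbs
import Vale.Agent.P162.Mid.StepTAbs
import Vale.Agent.P162.Mid.GlueP
import Vale.Agent.P162.Mid.GlueS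
import Vale.Agent.P162.Mid.GlueC
import Vale.Agent.P162.Mid.Trv0
import Vale.Agent.P162.Mid.SumTrv
import Vale.Agent.P162.Comb.Split

namespace Vale.Agent.P162.Mid
open Finset

open Classical in
/-- the closed sets `z` of `σ` correspond to the subsets `z ∩ T0` of a fixed transversal -/
theorem sum_clo {S : Type*} [Fintype S] [DecidableEq S] (M : ℕ) (hM : Fintype.card S = 2 * M)
    (σ : Equiv.Perm S) (hσ : IsM σ) (F : ℕ → ℝ) :
    ∑ z : Finset S, (if Clo σ z then F z.card else 0) =
      ∑ a ∈ range (M + 1), (M.choose a : ℝ) * F (2 * a) := by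
  have hμ : Vale.Agent.P162.IsMat σ := hσ
  have hiff : ∀ z : Finset S, Clo σ z ↔ Vale.Agent.P162.IsCl σ z := by
    intro z
    constructor
    · intro h x
      constructor
      · intro hx
        have := h _ hx
        rwa [hσ.1] at this
      · intro hx
        exact h x hx
    · intro h a ha
      exact (h a).2 ha
  rw [← Vale.Agent.P162.sum_cl_card hμ hM F, Finset.sum_filter]
  apply Finset.sum_congr rfl
  intro z _
  by_cases h : Clo σ z
  · rw [if_pos h, if_pos ((hiff z).1 h)]
  · rw [if_neg h, if_neg (fun h' => h ((hiff z).2 h'))]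

end Vale.Agent.P162.Mid
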