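import Vale.Agent.P162.Mid.Defs
import Vale.Agent.P162.KL.SizeLaws
import Vale.Agent.P162.KL.BL
import Vale.Agent.P162.KL.PairLaw
import Vale.Agent.P162.Scalar.Harmonic
import Vale.Agent.P162.Mid.KlwNonneg
import Vale.Agent.P162.Mid.KlwChain
import Vale.Agent.P162.Mid.KlwChainMap
import Vale.Agent.P162.Mid.KlwMapLe
import Vale.Agent.P162.Mid.KlwSmul
import Vale.Agent.P162.Mid.KlwSumLe
import Vale.Agent.P162.Mid.KlwMonoWeight
import Vale.Agent.P162.Mid.KlwSuper
import Vale.Agent.P162.Mid.SdpiBasic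
import Vale.Agent.P162.Mid.ChainIO
import Vale.Agent.P162.Mid.SdpiOne
import Vale.Agent.P162.Mid.ChainPart
import Vale.Agent.P162.Mid.SdpiEmbed
import Vale.Agent.P162.Mid.SdpiTensor
import Vale.Agent.P162.Mid.SdpiLift
import Vale.Agent.P162.Mid.SdpiReweight
import Vale.Agent.P162.Mid.OutSplit
import Vale.Agent.P162.Mid.Bridge
import Vale.Agent.P162.Mid.StepZAbs
import Vale.Agent.P162.Mid.HalfAbs
import Vale.Agent.P162.Mid.StepTAbs
import Vale.Agent.P162.Mid.GlueP
import Vale.Agent.P162.Mid.GlueS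
import Vale.Agent.P162.Mid.GlueC
import Vale.Agent.P162.Mid.Trv0
import Vale.Agent.P162.Mid.SumTrv
import Vale.Agent.P162.Mid.SumClo
import Vale.Agent.P162.Comb.MatCount

namespace Vale.Agent.P162.Mid
open Finset

open Classical in
/-- the matchings with a given transversal `T` correspond to the bijections `T ≃ Tᶜ` -/
theorem count_M_trv {S : Type*} [Fintype S] [DecidableEq S] (T : Finset S)
    (hT : 2 * T.card = Fintype.card S) :
    ∑ σ : Equiv.Perm S, (if IsM σ ∧ Trv σ T then (1 : ℝ) else 0) = (T.card.factorial : ℝ) := by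
  have h := Vale.Agent.P162.card_mat_tr T hT
  rw [Finset.sum_boole, ← h]
  congr 2
  apply Finset.filter_congr
  intro σ _
  have e : Trv σ T ↔ Vale.Agent.P162.IsTr σ T := by
    unfold Trv Vale.Agent.P162.IsTr
    apply forall_congr'
    intro a
    tauto
  exact and_congr Iff.rfl e

end Vale.Agent.P162.Mid
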