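import Vale.Agent.P162.Mid.Defs
import Vale.Agent.P162.KL.SizeLaws
import Vale.Agent.P162.KL.BL
import Vale.Agent.P162.KL.PairLaw
import Vale.Agent.P162.Scalar.Harmonic
import Vale.Agent.P162.Mid.KlwNonneg
import Vale.Agent.P162.Mid.KlwChain
import Vale.Agent.P162.Mid.KlwChainMap
import Vale.Agent.P162.Mid.KlwMapLe
import Vale.Agent.P162.Mid.KlwSmul
import Vale.Agent.P162.Mid.KlwSumLe
import Vale.Agent.P162.Mid.KlwMonoWeight
import Vale.Agent.P162.Mid.KlwSuper
import Vale.Agent.P162.Mid.SdpiBasic
import Vale.Agent.P162.Mid.ChainIO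
import Vale.Agent.P162.Mid.SdpiOne
import Vale.Agent.P162.Mid.ChainPart
import Vale.Agent.P162.Mid.SdpiEmbed
import Vale.Agent.P162.Mid.SdpiTensor
import Vale.Agent.P162.Mid.SdpiLift
import Vale.Agent.P162.Mid.SdpiReweight
import Vale.Agent.P162.Mid.OutSplit
import Vale.Agent.P162.Mid.Bridge
import Vale.Agent.P162.Mid.StepZAbs
import Vale.Agent.P162.Mid.HalfAbs
import Vale.Agent.P162.Mid.StepTAbs
import Vale.Agent.P162.Mid.GlueP
import Vale.Agent.P162.Mid.GlueS
import Vale.Agent.P162.Mid.GlueC
import Vale.Agent.P162.Mid.Trv0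
import Vale.Agent.P162.Mid.SumTrv
import Vale.Agent.P162.Mid.SumClo
import Vale.Agent.P162.Mid.CountMT

namespace Vale.Agent.P162.Mid
open Finset

private lemma isM_permCongr_iff_h18 {S T : Type*} (e : S ≃ T) (σ : Equiv.Perm S) :
    IsM (e.permCongr σ) ↔ IsM σ := by
  unfold IsM
  constructor
  · rintro ⟨h1, h2⟩
    refine ⟨fun a => ?_, fun a ha => ?_⟩
    · have := h1 (e a)
      simp only [Equiv.permCongr_apply, Equiv.symm_apply_apply] at this
      exact e.injective this
    · apply h2 (e a)
      simp only [Equiv.permCongr_apply, Equiv.symm_apply_apply, ha]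
  · rintro ⟨h1, h2⟩
    refine ⟨fun a => ?_, fun a ha => ?_⟩
    · simp only [Equiv.permCongr_apply, Equiv.symm_apply_apply, h1, Equiv.apply_symm_apply]
    · apply h2 (e.symm a)
      simp only [Equiv.permCongr_apply] at ha
      exact (Equiv.eq_symm_apply e).mpr ha

open Classical in
/-- the number of matchings depends only on the cardinality -/
theorem card_isM (S : Type*) [Fintype S] [DecidableEq S] :
    ∑ σ : Equiv.Perm S, (if IsM σ then (1 : ℝ) else 0) = dm (Fintype.card S) := by
  unfold dm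
  rw [← Finset.sum_boole]
  apply Fintype.sum_equiv (Fintype.equivFin S).permCongr
  intro σ
  simp only [isM_permCongr_iff_h18]

end Vale.Agent.P162.Mid
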