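import Vale.Agent.P162.Mid.Defs
import Vale.Agent.P162.KL.SizeLaws
import Vale.Agent.P162.KL.BL
import Vale.Agent.P162.KL.PairLaw
import Vale.Agent.P162.Scalar.Harmonic
import Vale.Agent.P162.Mid.KlwNonneg
import Vale.Agent.P162.Mid.KlwChain
import Vale.Agent.P162.Mid.KlwChainMap
import Vale.Agent.P162.Mid.KlwMapLe
import Vale.Agent.P162.Mid.KlwSmul
import Vale.Agent.P162.Mid.KlwSumLe
import Vale.Agent.P162.Mid.KlwMonoWeight
import Vale.Agent.P162.Mid.KlwSuper
import Vale.Agent.P162.Mid.SdpiBasic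
import Vale.Agent.P162.Mid.ChainIO
import Vale.Agent.P162.Mid.SdpiOne
import Vale.Agent.P162.Mid.ChainPart
import Vale.Agent.P162.Mid.SdpiEmbed
import Vale.Agent.P162.Mid.SdpiTensor
import Vale.Agent.P162.Mid.SdpiLift
import Vale.Agent.P162.Mid.SdpiReweight
import Vale.Agent.P162.Mid.OutSplit
import Vale.Agent.P162.Mid.Bridge
import Vale.Agent.P162.Mid.StepZAbs
import Vale.Agent.P162.Mid.HalfAbs
import Vale.Agent.P162.Mid.StepTAbs
import Vale.Agent.P162.Mid.GlueP
import Vale.Agent.P162.Mid.GlueS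
import Vale.Agent.P162.Mid.GlueC
import Vale.Agent.P162.Mid.Trv0
import Vale.Agent.P162.Mid.SumTrv
import Vale.Agent.P162.Mid.SumClo
import Vale.Agent.P162.Mid.CountMT
import Vale.Agent.P162.Mid.CardIsM
import Vale.Agent.P162.Comb.MatCount

namespace Vale.Agent.P162.Mid
open Finset

private theorem dm_link88 (k : ℕ) : dm k = ((Vale.Agent.P162.dm k : ℕ) : ℝ) := by
  unfold dm Vale.Agent.P162.dm
  congr 1
  apply congrArg Finset.card
  ext σ
  simp only [Finset.mem_filter, Finset.mem_univ, true_and]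
  exact Iff.rfl

theorem dm_even (a : ℕ) : dm (2 * a) * 2 ^ a * (a.factorial : ℝ) = ((2 * a).factorial : ℝ) := by
  rw [dm_link88]
  exact_mod_cast Vale.Agent.P162.dm_formula a

theorem dm_odd (a : ℕ) : dm (2 * a + 1) = 0 := by
  rw [dm_link88, Vale.Agent.P162.dm_odd (2 * a + 1) (by simp [Nat.even_add_one])]
  simp

theorem dm_nonneg (k : ℕ) : 0 ≤ dm k := by
  rw [dm_link88]
  exact Nat.cast_nonneg _

theorem dm_pos (a : ℕ) : 0 < dm (2 * a) := by
  have h := dm_even a
  have h0 := dm_nonneg (2 * a)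
  rcases h0.eq_or_lt with h1 | h1
  · rw [← h1] at h
    have h2 : (0 : ℝ) < ((2 * a).factorial : ℝ) := by exact_mod_cast Nat.factorial_pos _
    rw [zero_mul, zero_mul] at h
    linarith
  · exact h1

theorem dm_zero : dm 0 = 1 := by
  have h := dm_even 0
  simpa using h

end Vale.Agent.P162.Mid
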