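import Vale.Agent.P162.Mid.Defs
import Vale.Agent.P162.KL.SizeLaws
import Vale.Agent.P162.KL.BL
import Vale.Agent.P162.KL.PairLaw
import Vale.Agent.P162.Scalar.Harmonic
import Vale.Agent.P162.Mid.KlwNonneg
import Vale.Agent.P162.Mid.KlwChain
import Vale.Agent.P162.Mid.KlwChainMap
import Vale.Agent.P162.Mid.KlwMapLe
import Vale.Agent.P162.Mid.KlwSmul
import Vale.Agent.P162.Mid.KlwSumLe
import Vale.Agent.P162.Mid.KlwMonoWeight
import Vale.Agent.P162.Mid.KlwSuper
import Vale.Agent.P162.Mid.SdpiBasic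
import Vale.Agent.P162.Mid.ChainIO
import Vale.Agent.P162.Mid.SdpiOne
import Vale.Agent.P162.Mid.ChainPart
import Vale.Agent.P162.Mid.SdpiEmbed
import Vale.Agent.P162.Mid.SdpiTensor
import Vale.Agent.P162.Mid.SdpiLift
import Vale.Agent.P162.Mid.SdpiReweight
import Vale.Agent.P162.Mid.OutSplit
import Vale.Agent.P162.Mid.Bridge
import Vale.Agent.P162.Mid.StepZAbs
import Vale.Agent.P162.Mid.HalfAbs
import Vale.Agent.P162.Mid.StepTAbs
import Vale.Agent.P162.Mid.GlueP
import Vale.Agent.P162.Mid.GlueS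
import Vale.Agent.P162.Mid.GlueC
import Vale.Agent.P162.Mid.Trv0
import Vale.Agent.P162.Mid.SumTrv
import Vale.Agent.P162.Mid.SumClo
import Vale.Agent.P162.Mid.CountMT
import Vale.Agent.P162.Mid.CardIsM
import Vale.Agent.P162.Mid.DmFormula

namespace Vale.Agent.P162.Mid
open Finset

open Classical in
theorem count_M_clo {S : Type*} [Fintype S] [DecidableEq S] (z : Finset S) :
    ∑ σ : Equiv.Perm S, (if IsM σ ∧ Clo σ z then (1 : ℝ) else 0) =
      dm z.card * dm (Fintype.card S - z.card) := by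
  have h1 : ∑ s : Equiv.Perm {a // a ∈ z} × Equiv.Perm {a // ¬ a ∈ z},
      (if IsM s.1 ∧ IsM s.2 then (1 : ℝ) else 0) =
      ∑ σ : Equiv.Perm S, (if IsM σ ∧ Clo σ z then (1 : ℝ) else 0) := by
    refine Fintype.sum_of_injective (glp z) (glp_injective z) _ _ ?_ ?_
    · intro σ hσ
      rw [if_neg]
      rintro ⟨hM, hc⟩
      obtain ⟨s, hs⟩ := exists_glp z σ hM hc
      exact hσ ⟨s, hs⟩
    · intro s
      by_cases h : IsM s.1 ∧ IsM s.2
      · rw [if_pos h, if_pos ⟨(isM_glp z s).2 h, clo_glp_self z s⟩]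
      · rw [if_neg h, if_neg (fun h' => h ((isM_glp z s).1 h'.1))]
  rw [← h1, Fintype.sum_prod_type, ← card_sub_not_mem z, ← card_sub_mem z,
    ← card_isM {a // a ∈ z}, ← card_isM {a // ¬ a ∈ z}, Finset.sum_mul_sum]
  refine Finset.sum_congr rfl (fun a _ => Finset.sum_congr rfl (fun b _ => ?_))
  by_cases ha : IsM a <;> by_cases hb : IsM b <;> simp [ha, hb]

end Vale.Agent.P162.Mid
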