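import Vale.Agent.P162.Mid.Defs
import Vale.Agent.P162.KL.SizeLaws
import Vale.Agent.P162.KL.BL
import Vale.Agent.P162.KL.PairLaw
import Vale.Agent.P162.Scalar.Harmonic
import Vale.Agent.P162.Mid.KlwNonneg
import Vale.Agent.P162.Mid.KlwChain
import Vale.Agent.P162.Mid.KlwChainMap
import Vale.Agent.P162.Mid.KlwMapLe
import Vale.Agent.P162.Mid.KlwSmul
import Vale.Agent.P162.Mid.KlwSumLe
import Vale.Agent.P162.Mid.KlwMonoWeight
import Vale.Agent.P162.Mid.KlwSuper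
import Vale.Agent.P162.Mid.SdpiBasic
import Vale.Agent.P162.Mid.ChainIO
import Vale.Agent.P162.Mid.SdpiOne
import Vale.Agent.P162.Mid.ChainPart
import Vale.Agent.P162.Mid.SdpiEmbed
import Vale.Agent.P162.Mid.SdpiTensor
import Vale.Agent.P162.Mid.SdpiLift
import Vale.Agent.P162.Mid.SdpiReweight
import Vale.Agent.P162.Mid.OutSplit
import Vale.Agent.P162.Mid.Bridge
import Vale.Agent.P162.Mid.StepZAbs
import Vale.Agent.P162.Mid.HalfAbs
import Vale.Agent.P162.Mid.StepTAbs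
import Vale.Agent.P162.Mid.GlueP
import Vale.Agent.P162.Mid.GlueS
import Vale.Agent.P162.Mid.GlueC
import Vale.Agent.P162.Mid.Trv0
import Vale.Agent.P162.Mid.SumTrv
import Vale.Agent.P162.Mid.SumClo
import Vale.Agent.P162.Mid.CountMT
import Vale.Agent.P162.Mid.CardIsM
import Vale.Agent.P162.Mid.DmFormula
import Vale.Agent.P162.Mid.CountClo

namespace Vale.Agent.P162.Mid
open Finset

open Classical in
theorem count_M_clo2 {S : Type*} [Fintype S] [DecidableEq S] (y1 y2 : Finset S) :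
    ∑ σ : Equiv.Perm S, (if IsM σ ∧ Clo σ y1 ∧ Clo σ y2 then (1 : ℝ) else 0) =
      dm (y1 ∩ y2).card * dm (y1 \ y2).card * dm (y2 \ y1).card *
        dm (Fintype.card S - (y1 ∪ y2).card) := by
  obtain ⟨t, rfl⟩ := exists_gl y1 y2
  rw [card_inter_gl, card_sdiff_gl, card_gl_sdiff, card_union_gl]
  have h1 := count_M_clo t.1
  have h2 := count_M_clo t.2
  rw [card_sub_mem] at h1
  rw [card_sub_not_mem] at h2
  have hsum : ∑ s : Equiv.Perm {a // a ∈ y1} × Equiv.Perm {a // ¬ a ∈ y1},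
      ((if IsM s.1 ∧ Clo s.1 t.1 then (1 : ℝ) else 0) * (if IsM s.2 ∧ Clo s.2 t.2 then (1 : ℝ) else 0))
      = ∑ σ : Equiv.Perm S, (if IsM σ ∧ Clo σ y1 ∧ Clo σ (gl y1 t) then (1 : ℝ) else 0) := by
    refine Fintype.sum_of_injective (glp y1) (glp_injective y1) _ _ ?_ ?_
    · intro σ hσ
      rw [if_neg]
      rintro ⟨hM, hc, -⟩
      exact hσ (exists_glp y1 σ hM hc)
    · intro s
      by_cases ha : IsM s.1 ∧ Clo s.1 t.1
      · by_cases hb : IsM s.2 ∧ Clo s.2 t.2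
        · rw [if_pos ha, if_pos hb, if_pos ⟨(isM_glp y1 s).2 ⟨ha.1, hb.1⟩, clo_glp_self y1 s,
            (clo_glp y1 s t).2 ⟨ha.2, hb.2⟩⟩, one_mul]
        · rw [if_neg hb, mul_zero, if_neg]
          rintro ⟨hM, -, hc⟩
          exact hb ⟨((isM_glp y1 s).1 hM).2, ((clo_glp y1 s t).1 hc).2⟩
      · rw [if_neg ha, zero_mul, if_neg]
        rintro ⟨hM, -, hc⟩
        exact ha ⟨((isM_glp y1 s).1 hM).1, ((clo_glp y1 s t).1 hc).1⟩
  rw [← hsum, Fintype.sum_prod_type]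
  have hprod := Finset.sum_mul_sum (Finset.univ : Finset (Equiv.Perm {a // a ∈ y1}))
    (Finset.univ : Finset (Equiv.Perm {a // ¬ a ∈ y1}))
    (fun x => if IsM x ∧ Clo x t.1 then (1 : ℝ) else 0)
    (fun y => if IsM y ∧ Clo y t.2 then (1 : ℝ) else 0)
  rw [h1, h2] at hprod
  rw [← mul_assoc] at hprod
  exact hprod.symm

end Vale.Agent.P162.Mid
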