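import Vale.Agent.P162.Mid.Defs
import Vale.Agent.P162.KL.SizeLaws
import Vale.Agent.P162.KL.BL
import Vale.Agent.P162.KL.PairLaw
import Vale.Agent.P162.Scalar.Harmonic
import Vale.Agent.P162.Mid.KlwNonneg
import Vale.Agent.P162.Mid.KlwChain
import Vale.Agent.P162.Mid.KlwChainMap
import Vale.Agent.P162.Mid.KlwMapLe
import Vale.Agent.P162.Mid.KlwSmul
import Vale.Agent.P162.Mid.KlwSumLe
import Vale.Agent.P162.Mid.KlwMonoWeight
import Vale.Agent.P162.Mid.KlwSuper
import Vale.Agent.P162.Mid.SdpiBasic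
import Vale.Agent.P162.Mid.ChainIO
import Vale.Agent.P162.Mid.SdpiOne
import Vale.Agent.P162.Mid.ChainPart
import Vale.Agent.P162.Mid.SdpiEmbed
import Vale.Agent.P162.Mid.SdpiTensor
import Vale.Agent.P162.Mid.SdpiLift
import Vale.Agent.P162.Mid.SdpiReweight
import Vale.Agent.P162.Mid.OutSplit
import Vale.Agent.P162.Mid.Bridge
import Vale.Agent.P162.Mid.StepZAbs
import Vale.Agent.P162.Mid.HalfAbs
import Vale.Agent.P162.Mid.StepTAbs
import Vale.Agent.P162.Mid.GlueP
import Vale.Agent.P162.Mid.GlueS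
import Vale.Agent.P162.Mid.GlueC
import Vale.Agent.P162.Mid.Trv0
import Vale.Agent.P162.Mid.SumTrv
import Vale.Agent.P162.Mid.SumClo
import Vale.Agent.P162.Mid.CountMT
import Vale.Agent.P162.Mid.CardIsM
import Vale.Agent.P162.Mid.DmFormula
import Vale.Agent.P162.Mid.CountClo
import Vale.Agent.P162.Mid.CountClo2

namespace Vale.Agent.P162.Mid
open Finset

open Classical in
theorem count_M_trv2 {S : Type*} [Fintype S] [DecidableEq S] (T1 T2 : Finset S)
    (h1 : 2 * T1.card = Fintype.card S) (h2 : 2 * T2.card = Fintype.card S) :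
    ∑ σ : Equiv.Perm S, (if IsM σ ∧ Trv σ T1 ∧ Trv σ T2 then (1 : ℝ) else 0) =
      ((T1 ∩ T2).card.factorial : ℝ) * ((T1 \ T2).card.factorial : ℝ) := by
  set x := agr (T1, T2) with hx
  obtain ⟨t, ht⟩ := exists_gl2 x (T1, T2) hx.symm
  have hT1 : T1 = gl x t := by
    have := congrArg Prod.fst ht
    simpa [gl2] using this.symm
  have hT2 : T2 = gl x (t.1, t.2ᶜ) := by
    have := congrArg Prod.snd ht
    simpa [gl2] using this.symm
  have hci : (T1 ∩ T2).card = t.1.card := by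
    have := card_gl2_inter x t
    rwa [ht] at this
  have hcs : (T1 \ T2).card = t.2.card := by
    have := card_gl2_sdiff x t
    rwa [ht] at this
  have hc1 : T1.card = t.1.card + t.2.card := by rw [hT1, card_gl]
  have hc2 : T2.card = t.1.card + (t.2ᶜ).card := by rw [hT2, card_gl]
  have hcc : (t.2ᶜ).card = (Fintype.card S - x.card) - t.2.card := by
    rw [Finset.card_compl, card_sub_not_mem]
  have hle : t.2.card ≤ Fintype.card S - x.card := by
    have := Finset.card_le_univ t.2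
    rwa [card_sub_not_mem] at this
  have hxle : x.card ≤ Fintype.card S := Finset.card_le_univ x
  have hb1 : 2 * t.1.card = Fintype.card {a // a ∈ x} := by
    rw [card_sub_mem]
    omega
  have hb2 : 2 * t.2.card = Fintype.card {a // ¬ a ∈ x} := by
    rw [card_sub_not_mem]
    omega
  have hA := count_M_trv t.1 hb1
  have hB := count_M_trv t.2 hb2
  rw [hci, hcs, ← hA, ← hB, Finset.sum_mul_sum, ← Finset.sum_product']
  symm
  rw [Finset.univ_product_univ]
  apply Fintype.sum_of_injective (glp x) (glp_injective x)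
  · intro σ hσ
    rw [if_neg]
    rintro ⟨hM, ha, hb⟩
    apply hσ
    exact exists_glp x σ hM (clo_agr σ (T1, T2) ha hb)
  · intro s
    have e1 : Trv (glp x s) T1 ↔ Trv s.1 t.1 ∧ Trv s.2 t.2 := by
      rw [hT1]
      exact trv_glp x s t
    have e2 : Trv (glp x s) T2 ↔ Trv s.1 t.1 ∧ Trv s.2 t.2 := by
      rw [hT2, trv_glp x s (t.1, t.2ᶜ)]
      simp only [trv_compl]
    have e3 := isM_glp x s
    by_cases c1 : IsM s.1 ∧ Trv s.1 t.1
    · by_cases c2 : IsM s.2 ∧ Trv s.2 t.2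
      · have hy : IsM (glp x s) ∧ Trv (glp x s) T1 ∧ Trv (glp x s) T2 :=
          ⟨e3.2 ⟨c1.1, c2.1⟩, e1.2 ⟨c1.2, c2.2⟩, e2.2 ⟨c1.2, c2.2⟩⟩
        rw [if_pos c1, if_pos c2, if_pos hy]
        norm_num
      · have hn : ¬ (IsM (glp x s) ∧ Trv (glp x s) T1 ∧ Trv (glp x s) T2) := by
          intro h
          exact c2 ⟨(e3.1 h.1).2, (e1.1 h.2.1).2⟩
        rw [if_neg c2, if_neg hn, mul_zero]
    · have hn : ¬ (IsM (glp x s) ∧ Trv (glp x s) T1 ∧ Trv (glp x s) T2) := by
        intro h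
        exact c1 ⟨(e3.1 h.1).1, (e1.1 h.2.1).1⟩
      rw [if_neg c1, if_neg hn, zero_mul]

end Vale.Agent.P162.Mid
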