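import Vale.Agent.P162.Mid.Defs
import Vale.Agent.P162.KL.SizeLaws
import Vale.Agent.P162.KL.BL
import Vale.Agent.P162.KL.PairLaw
import Vale.Agent.P162.Scalar.Harmonic
import Vale.Agent.P162.Mid.KlwNonneg
import Vale.Agent.P162.Mid.KlwChain
import Vale.Agent.P162.Mid.KlwChainMap
import Vale.Agent.P162.Mid.KlwMapLe
import Vale.Agent.P162.Mid.KlwSmul
import Vale.Agent.P162.Mid.KlwSumLe
import Vale.Agent.P162.Mid.KlwMonoWeight
import Vale.Agent.P162.Mid.KlwSuper
import Vale.Agent.P162.Mid.SdpiBasic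
import Vale.Agent.P162.Mid.ChainIO
import Vale.Agent.P162.Mid.SdpiOne
import Vale.Agent.P162.Mid.ChainPart
import Vale.Agent.P162.Mid.SdpiEmbed
import Vale.Agent.P162.Mid.SdpiTensor
import Vale.Agent.P162.Mid.SdpiLift
import Vale.Agent.P162.Mid.SdpiReweight
import Vale.Agent.P162.Mid.OutSplit
import Vale.Agent.P162.Mid.Bridge
import Vale.Agent.P162.Mid.StepZAbs
import Vale.Agent.P162.Mid.HalfAbs
import Vale.Agent.P162.Mid.StepTAbs
import Vale.Agent.P162.Mid.GlueP
import Vale.Agent.P162.Mid.GlueS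
import Vale.Agent.P162.Mid.GlueC
import Vale.Agent.P162.Mid.Trv0
import Vale.Agent.P162.Mid.SumTrv
import Vale.Agent.P162.Mid.SumClo
import Vale.Agent.P162.Mid.CountMT
import Vale.Agent.P162.Mid.CardIsM
import Vale.Agent.P162.Mid.DmFormula
import Vale.Agent.P162.Mid.CountClo
import Vale.Agent.P162.Mid.CountClo2
import Vale.Agent.P162.Mid.CountTrv2

namespace Vale.Agent.P162.Mid
open Finset

/-- number of even subsets of a `k`-set -/
noncomputable def ee (k : ℕ) : ℝ := if k = 0 then 1 else 2 ^ (k - 1)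

/-- weight of the first closed set in the pair coupling on `N` points -/
noncomputable def wtZ (N k : ℕ) : ℝ := ee k * ee (N - k)

/-- `∑_a C(M,a)/(a!(M-a)!)` -/
noncomputable def cT (M : ℕ) : ℝ :=
  ∑ a ∈ range (M + 1), (M.choose a : ℝ) * (1 / ((a.factorial : ℝ) * ((M - a).factorial : ℝ)))

/-- ratio (agreement-set channel of the two transversals) / (closed-set channel `Wc`) -/
noncomputable def lamT (M k : ℕ) : ℝ :=
  2 ^ M * dm k * dm (2 * M - k) / (((k / 2).factorial : ℝ) * ((M - k / 2).factorial : ℝ))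

private theorem dm_nn83 (k : ℕ) : 0 ≤ dm k := by
  unfold dm
  exact Nat.cast_nonneg _

theorem Wc_nonneg (S : Type*) [Fintype S] [DecidableEq S] (σ : Equiv.Perm S) (z : Finset S) :
    0 ≤ Wc S σ z := by
  unfold Wc
  split_ifs
  · have := dm_nn83 z.card
    have := dm_nn83 (Fintype.card S - z.card)
    positivity
  · exact le_rfl

theorem Wp_nonneg (S : Type*) [Fintype S] [DecidableEq S] (σ : Equiv.Perm S)
    (p : Finset S × Finset S) : 0 ≤ Wp S σ p := by
  unfold Wp
  split_ifs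
  · have := dm_nn83 (p.1 ∩ p.2).card
    have := dm_nn83 (p.1 \ p.2).card
    have := dm_nn83 (p.2 \ p.1).card
    have := dm_nn83 (Fintype.card S - (p.1 ∪ p.2).card)
    positivity
  · exact le_rfl

theorem Wt_nonneg (S : Type*) [Fintype S] [DecidableEq S] (σ : Equiv.Perm S) (T : Finset S) :
    0 ≤ Wt S σ T := by
  unfold Wt
  split_ifs
  · exact zero_le_one
  · exact le_rfl

theorem W3_nonneg (S : Type*) [Fintype S] [DecidableEq S] (σ : Equiv.Perm S)
    (p : Finset S × Finset S) : 0 ≤ W3 S σ p := by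
  unfold W3
  split_ifs
  · positivity
  · exact le_rfl

theorem Wp_symm (S : Type*) [Fintype S] [DecidableEq S] (σ : Equiv.Perm S) (y1 y2 : Finset S) :
    Wp S σ (y1, y2) = Wp S σ (y2, y1) := by
  unfold Wp
  by_cases h : IsM σ ∧ Clo σ y1 ∧ Clo σ y2
  · rw [if_pos h, if_pos ⟨h.1, h.2.2, h.2.1⟩]
    simp only [Finset.inter_comm y1 y2, Finset.union_comm y1 y2]
    congr 1; ring
  · rw [if_neg h, if_neg (fun hh => h ⟨hh.1, hh.2.2, hh.2.1⟩)]

theorem W3_symm (S : Type*) [Fintype S] [DecidableEq S] (σ : Equiv.Perm S) (y1 y2 : Finset S) :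
    W3 S σ (y1, y2) = W3 S σ (y2, y1) := by
  unfold W3
  by_cases h : IsM σ ∧ Trv σ y1 ∧ Trv σ y2
  · rw [if_pos h, if_pos ⟨h.1, h.2.2, h.2.1⟩]
    have c1 := trv_card σ y1 h.2.1
    have c2 := trv_card σ y2 h.2.2
    have e1 := Finset.card_sdiff_add_card_inter y1 y2
    have e2 := Finset.card_sdiff_add_card_inter y2 y1
    rw [Finset.inter_comm y2 y1] at e2
    have e3 : (y1 \ y2).card = (y2 \ y1).card := by omega
    simp only [Finset.inter_comm y2 y1, e3]
  · rw [if_neg h, if_neg (fun hh => h ⟨hh.1, hh.2.2, hh.2.1⟩)]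

end Vale.Agent.P162.Mid
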