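import Vale.Agent.P162.Mid.Defs
import Vale.Agent.P162.KL.SizeLaws
import Vale.Agent.P162.KL.BL
import Vale.Agent.P162.KL.PairLaw
import Vale.Agent.P162.Scalar.Harmonic
import Vale.Agent.P162.Mid.KlwNonneg
import Vale.Agent.P162.Mid.KlwChain
import Vale.Agent.P162.Mid.KlwChainMap
import Vale.Agent.P162.Mid.KlwMapLe
import Vale.Agent.P162.Mid.KlwSmul
import Vale.Agent.P162.Mid.KlwSumLe
import Vale.Agent.P162.Mid.KlwMonoWeight
import Vale.Agent.P162.Mid.KlwSuper
import Vale.Agent.P162.Mid.SdpiBasic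
import Vale.Agent.P162.Mid.ChainIO
import Vale.Agent.P162.Mid.SdpiOne
import Vale.Agent.P162.Mid.ChainPart
import Vale.Agent.P162.Mid.SdpiEmbed
import Vale.Agent.P162.Mid.SdpiTensor
import Vale.Agent.P162.Mid.SdpiLift
import Vale.Agent.P162.Mid.SdpiReweight
import Vale.Agent.P162.Mid.OutSplit
import Vale.Agent.P162.Mid.Bridge
import Vale.Agent.P162.Mid.StepZAbs
import Vale.Agent.P162.Mid.HalfAbs
import Vale.Agent.P162.Mid.StepTAbs
import Vale.Agent.P162.Mid.GlueP
import Vale.Agent.P162.Mid.GlueS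
import Vale.Agent.P162.Mid.GlueC
import Vale.Agent.P162.Mid.Trv0
import Vale.Agent.P162.Mid.SumTrv
import Vale.Agent.P162.Mid.SumClo
import Vale.Agent.P162.Mid.CountMT
import Vale.Agent.P162.Mid.CardIsM
import Vale.Agent.P162.Mid.DmFormula
import Vale.Agent.P162.Mid.CountClo
import Vale.Agent.P162.Mid.CountClo2
import Vale.Agent.P162.Mid.CountTrv2
import Vale.Agent.P162.Mid.Consts

namespace Vale.Agent.P162.Mid
open Finset

/-- (MZ1) the output weight of the pair coupling -/
theorem sum_Wp (S : Type*) [Fintype S] [DecidableEq S] (hN : Even (Fintype.card S))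
    (p : Finset S × Finset S) : ∑ σ, Wp S σ p = RS S p := by
  classical
  obtain ⟨y1, y2⟩ := p
  have hcount := count_M_clo2 y1 y2
  have ca : (y1 ∩ y2).card + (y1 \ y2).card = y1.card := Finset.card_inter_add_card_sdiff y1 y2
  have cb : (y1 ∩ y2).card + (y2 \ y1).card = y2.card := by
    rw [Finset.inter_comm]; exact Finset.card_inter_add_card_sdiff y2 y1
  have cu : (y1 \ y2).card + y2.card = (y1 ∪ y2).card := Finset.card_sdiff_add_card y1 y2
  have cN : (y1 ∪ y2).card ≤ Fintype.card S := Finset.card_le_univ _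
  have dmE : ∀ k, k % 2 = 0 → 0 < dm k := by
    intro k hk
    obtain ⟨r, rfl⟩ : ∃ r, k = 2 * r := ⟨k / 2, by omega⟩
    exact dm_pos r
  have dmO : ∀ k, k % 2 = 1 → dm k = 0 := by
    intro k hk
    obtain ⟨r, rfl⟩ : ∃ r, k = 2 * r + 1 := ⟨k / 2, by omega⟩
    exact dm_odd r
  have h1 : ∑ σ, Wp S σ (y1, y2) =
      (1 / (dm (y1 ∩ y2).card * dm (y1 \ y2).card * dm (y2 \ y1).card *
        dm (Fintype.card S - (y1 ∪ y2).card))) *
      (dm (y1 ∩ y2).card * dm (y1 \ y2).card * dm (y2 \ y1).card *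
        dm (Fintype.card S - (y1 ∪ y2).card)) := by
    have h0 : ∑ σ, Wp S σ (y1, y2) =
        (1 / (dm (y1 ∩ y2).card * dm (y1 \ y2).card * dm (y2 \ y1).card *
          dm (Fintype.card S - (y1 ∪ y2).card))) *
        ∑ σ : Equiv.Perm S, (if IsM σ ∧ Clo σ y1 ∧ Clo σ y2 then (1 : ℝ) else 0) := by
      rw [Finset.mul_sum]
      refine Finset.sum_congr rfl (fun σ _ => ?_)
      unfold Wp
      by_cases h : IsM σ ∧ Clo σ y1 ∧ Clo σ y2
      · rw [if_pos h, if_pos h, mul_one]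
      · rw [if_neg h, if_neg h, mul_zero]
    rw [h0]
    congr 1
  rw [h1]
  unfold RS
  rw [Nat.even_iff] at hN
  simp only [Nat.even_iff]
  by_cases hc : y1.card % 2 = 0 ∧ y2.card % 2 = 0 ∧ (y1 ∩ y2).card % 2 = 0
  · rw [if_pos hc]
    obtain ⟨e1, e2, e3⟩ := hc
    have p1 := dmE (y1 ∩ y2).card e3
    have p2 := dmE (y1 \ y2).card (by omega)
    have p3 := dmE (y2 \ y1).card (by omega)
    have p4 := dmE (Fintype.card S - (y1 ∪ y2).card) (by omega)
    have hpos : 0 < dm (y1 ∩ y2).card * dm (y1 \ y2).card * dm (y2 \ y1).card *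
        dm (Fintype.card S - (y1 ∪ y2).card) := by positivity
    exact one_div_mul_cancel hpos.ne'
  · rw [if_neg hc]
    have hz : dm (y1 ∩ y2).card * dm (y1 \ y2).card * dm (y2 \ y1).card *
        dm (Fintype.card S - (y1 ∪ y2).card) = 0 := by
      by_cases e3 : (y1 ∩ y2).card % 2 = 1
      · rw [dmO _ e3]; ring
      by_cases e4 : (y1 \ y2).card % 2 = 1
      · rw [dmO _ e4]; ring
      by_cases e5 : (y2 \ y1).card % 2 = 1
      · rw [dmO _ e5]; ring
      exfalso
      apply hc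
      refine ⟨by omega, by omega, by omega⟩
    rw [hz, mul_zero]

end Vale.Agent.P162.Mid
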