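import Vale.Agent.P162.Mid.Defs
import Vale.Agent.P162.KL.SizeLaws
import Vale.Agent.P162.KL.BL
import Vale.Agent.P162.KL.PairLaw
import Vale.Agent.P162.Scalar.Harmonic
import Vale.Agent.P162.Mid.KlwNonneg
import Vale.Agent.P162.Mid.KlwChain
import Vale.Agent.P162.Mid.KlwChainMap
import Vale.Agent.P162.Mid.KlwMapLe
import Vale.Agent.P162.Mid.KlwSmul
import Vale.Agent.P162.Mid.KlwSumLe
import Vale.Agent.P162.Mid.KlwMonoWeight
import Vale.Agent.P162.Mid.KlwSuper
import Vale.Agent.P162.Mid.SdpiBasic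
import Vale.Agent.P162.Mid.ChainIO
import Vale.Agent.P162.Mid.SdpiOne
import Vale.Agent.P162.Mid.ChainPart
import Vale.Agent.P162.Mid.SdpiEmbed
import Vale.Agent.P162.Mid.SdpiTensor
import Vale.Agent.P162.Mid.SdpiLift
import Vale.Agent.P162.Mid.SdpiReweight
import Vale.Agent.P162.Mid.OutSplit
import Vale.Agent.P162.Mid.Bridge
import Vale.Agent.P162.Mid.StepZAbs
import Vale.Agent.P162.Mid.HalfAbs
import Vale.Agent.P162.Mid.StepTAbs
import Vale.Agent.P162.Mid.GlueP
import Vale.Agent.P162.Mid.GlueS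
import Vale.Agent.P162.Mid.GlueC
import Vale.Agent.P162.Mid.Trv0
import Vale.Agent.P162.Mid.SumTrv
import Vale.Agent.P162.Mid.SumClo
import Vale.Agent.P162.Mid.CountMT
import Vale.Agent.P162.Mid.CardIsM
import Vale.Agent.P162.Mid.DmFormula
import Vale.Agent.P162.Mid.CountClo
import Vale.Agent.P162.Mid.CountClo2
import Vale.Agent.P162.Mid.CountTrv2
import Vale.Agent.P162.Mid.Consts
import Vale.Agent.P162.Mid.SumWp

namespace Vale.Agent.P162.Mid
open Finset

private theorem wc_size_aux (a b : ℕ) :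
    ((a + b).choose a : ℝ) * (1 / (dm (2 * a) * dm (2 * b))) =
      ((2 * (a + b)).choose (2 * a) : ℝ) / dm (2 * (a + b)) := by
  have h1 := dm_even a
  have h2 := dm_even b
  have h3 := dm_even (a + b)
  have p1 := dm_pos a
  have p2 := dm_pos b
  have p3 := dm_pos (a + b)
  have c1 : ((a + b).choose a : ℝ) * (a.factorial : ℝ) * (b.factorial : ℝ) =
      ((a + b).factorial : ℝ) := by
    have h := Nat.add_choose_mul_factorial_mul_factorial a b
    rw [← Nat.choose_symm_add] at h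
    exact_mod_cast h
  have c2 : ((2 * (a + b)).choose (2 * a) : ℝ) * ((2 * a).factorial : ℝ) *
      ((2 * b).factorial : ℝ) = ((2 * (a + b)).factorial : ℝ) := by
    have h := Nat.add_choose_mul_factorial_mul_factorial (2 * a) (2 * b)
    rw [← Nat.choose_symm_add, ← Nat.mul_add] at h
    exact_mod_cast h
  rw [mul_one_div, div_eq_div_iff (by positivity) (by positivity)]
  have hK : (2 : ℝ) ^ (a + b) * (a.factorial : ℝ) * (b.factorial : ℝ) ≠ 0 := by positivity
  apply mul_right_cancel₀ hK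
  calc ((a + b).choose a : ℝ) * dm (2 * (a + b)) *
        ((2 : ℝ) ^ (a + b) * (a.factorial : ℝ) * (b.factorial : ℝ))
      = (((a + b).choose a : ℝ) * (a.factorial : ℝ) * (b.factorial : ℝ)) *
          (dm (2 * (a + b)) * 2 ^ (a + b)) := by ring
    _ = dm (2 * (a + b)) * 2 ^ (a + b) * ((a + b).factorial : ℝ) := by rw [c1]; ring
    _ = ((2 * (a + b)).factorial : ℝ) := h3
    _ = ((2 * (a + b)).choose (2 * a) : ℝ) * ((2 * a).factorial : ℝ) *
          ((2 * b).factorial : ℝ) := c2.symm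
    _ = ((2 * (a + b)).choose (2 * a) : ℝ) * (dm (2 * a) * 2 ^ a * (a.factorial : ℝ)) *
          (dm (2 * b) * 2 ^ b * (b.factorial : ℝ)) := by rw [h1, h2]
    _ = ((2 * (a + b)).choose (2 * a) : ℝ) * (dm (2 * a) * dm (2 * b)) *
        ((2 : ℝ) ^ (a + b) * (a.factorial : ℝ) * (b.factorial : ℝ)) := by rw [pow_add]; ring

/-- (MZ4) size law of the closed-set channel: input independent -/
theorem sum_Wc_size (S : Type*) [Fintype S] [DecidableEq S] (M : ℕ)
    (hM : Fintype.card S = 2 * M) (σ : Equiv.Perm S) (hσ : IsM σ) (F : ℕ → ℝ) :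
    ∑ z : Finset S, F z.card * Wc S σ z =
      ∑ a ∈ range (M + 1), F (2 * a) * (((2 * M).choose (2 * a) : ℝ) / dm (2 * M)) := by
  have h0 := sum_clo M hM σ hσ (fun k => F k * (1 / (dm k * dm (2 * M - k))))
  refine Eq.trans (Finset.sum_congr rfl (fun z _ => ?_)) (h0.trans ?_)
  · unfold Wc
    by_cases hz : Clo σ z
    · rw [if_pos ⟨hσ, hz⟩, if_pos hz, hM]
    · rw [if_neg (fun h => hz h.2), if_neg hz, mul_zero]
  apply Finset.sum_congr rfl
  intro a ha
  have ha' : a ≤ M := by have := Finset.mem_range.1 ha; omega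
  obtain ⟨b, rfl⟩ := Nat.exists_eq_add_of_le ha'
  have e : 2 * (a + b) - 2 * a = 2 * b := by omega
  simp only [e]
  have h2 := wc_size_aux a b
  calc ((a + b).choose a : ℝ) * (F (2 * a) * (1 / (dm (2 * a) * dm (2 * b))))
      = F (2 * a) * (((a + b).choose a : ℝ) * (1 / (dm (2 * a) * dm (2 * b)))) := by ring
    _ = _ := by rw [h2]

theorem Wc_not_isM (S : Type*) [Fintype S] [DecidableEq S] (σ : Equiv.Perm S) (hσ : ¬ IsM σ)
    (z : Finset S) : Wc S σ z = 0 := by
  unfold Wc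
  rw [if_neg (fun h => hσ h.1)]

end Vale.Agent.P162.Mid
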