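import Vale.Agent.P162.Mid.Defs
import Vale.Agent.P162.KL.SizeLaws
import Vale.Agent.P162.KL.BL
import Vale.Agent.P162.KL.PairLaw
import Vale.Agent.P162.Scalar.Harmonic
import Vale.Agent.P162.Mid.KlwNonneg
import Vale.Agent.P162.Mid.KlwChain
import Vale.Agent.P162.Mid.KlwChainMap
import Vale.Agent.P162.Mid.KlwMapLe
import Vale.Agent.P162.Mid.KlwSmul
import Vale.Agent.P162.Mid.KlwSumLe
import Vale.Agent.P162.Mid.KlwMonoWeight
import Vale.Agent.P162.Mid.KlwSuper
import Vale.Agent.P162.Mid.SdpiBasic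
import Vale.Agent.P162.Mid.ChainIO
import Vale.Agent.P162.Mid.SdpiOne
import Vale.Agent.P162.Mid.ChainPart
import Vale.Agent.P162.Mid.SdpiEmbed
import Vale.Agent.P162.Mid.SdpiTensor
import Vale.Agent.P162.Mid.SdpiLift
import Vale.Agent.P162.Mid.SdpiReweight
import Vale.Agent.P162.Mid.OutSplit
import Vale.Agent.P162.Mid.Bridge
import Vale.Agent.P162.Mid.StepZAbs
import Vale.Agent.P162.Mid.HalfAbs
import Vale.Agent.P162.Mid.StepTAbs
import Vale.Agent.P162.Mid.GlueP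
import Vale.Agent.P162.Mid.GlueS
import Vale.Agent.P162.Mid.GlueC
import Vale.Agent.P162.Mid.Trv0
import Vale.Agent.P162.Mid.SumTrv
import Vale.Agent.P162.Mid.SumClo
import Vale.Agent.P162.Mid.CountMT
import Vale.Agent.P162.Mid.CardIsM
import Vale.Agent.P162.Mid.DmFormula
import Vale.Agent.P162.Mid.CountClo
import Vale.Agent.P162.Mid.CountClo2
import Vale.Agent.P162.Mid.CountTrv2
import Vale.Agent.P162.Mid.Consts
import Vale.Agent.P162.Mid.SumWp
import Vale.Agent.P162.Mid.SumWcSize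
import Vale.Agent.P162.Mid.SumWc

namespace Vale.Agent.P162.Mid
open Finset

/-- (Z3a) the pair coupling given its first set `x` is a product -/
theorem Wp_glp {S : Type*} [Fintype S] [DecidableEq S] (x : Finset S)
    (s : Equiv.Perm {a // a ∈ x} × Equiv.Perm {a // ¬ a ∈ x})
    (t : Finset {a // a ∈ x} × Finset {a // ¬ a ∈ x}) :
    Wp S (glp x s) (x, gl x t) = Wc {a // a ∈ x} s.1 t.1 * Wc {a // ¬ a ∈ x} s.2 t.2 := by
  unfold Wp Wc
  simp only [card_inter_gl, card_sdiff_gl, card_gl_sdiff, card_union_gl, card_sub_mem,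
    card_sub_not_mem]
  by_cases h1 : IsM s.1 ∧ Clo s.1 t.1
  · by_cases h2 : IsM s.2 ∧ Clo s.2 t.2
    · have h3 : IsM (glp x s) ∧ Clo (glp x s) x ∧ Clo (glp x s) (gl x t) :=
        ⟨(isM_glp x s).2 ⟨h1.1, h2.1⟩, clo_glp_self x s, (clo_glp x s t).2 ⟨h1.2, h2.2⟩⟩
      rw [if_pos h1, if_pos h2, if_pos h3]
      rw [one_div_mul_one_div]
      congr 1
      ring
    · have h3 : ¬ (IsM (glp x s) ∧ Clo (glp x s) x ∧ Clo (glp x s) (gl x t)) := by
        rintro ⟨a, _, c⟩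
        exact h2 ⟨((isM_glp x s).1 a).2, ((clo_glp x s t).1 c).2⟩
      rw [if_neg h2, if_neg h3, mul_zero]
  · have h3 : ¬ (IsM (glp x s) ∧ Clo (glp x s) x ∧ Clo (glp x s) (gl x t)) := by
      rintro ⟨a, _, c⟩
      exact h1 ⟨((isM_glp x s).1 a).1, ((clo_glp x s t).1 c).1⟩
    rw [if_neg h1, if_neg h3, zero_mul]

/-- (Z3b) -/
theorem Wp_supp {S : Type*} [Fintype S] [DecidableEq S] (x : Finset S) (σ : Equiv.Perm S)
    (y : Finset S) (h : Wp S σ (x, y) ≠ 0) : (∃ s, glp x s = σ) ∧ ∃ t, gl x t = y := by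
  refine ⟨?_, exists_gl x y⟩
  have hcond : IsM σ ∧ Clo σ x ∧ Clo σ y := by
    by_contra hcon
    apply h
    unfold Wp
    rw [if_neg hcon]
  exact exists_glp x σ hcond.1 hcond.2.1

end Vale.Agent.P162.Mid
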