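import Vale.Agent.P162.Mid.Defs
import Vale.Agent.P162.KL.SizeLaws
import Vale.Agent.P162.KL.BL
import Vale.Agent.P162.KL.PairLaw
import Vale.Agent.P162.Scalar.Harmonic
import Vale.Agent.P162.Mid.KlwNonneg
import Vale.Agent.P162.Mid.KlwChain
import Vale.Agent.P162.Mid.KlwChainMap
import Vale.Agent.P162.Mid.KlwMapLe
import Vale.Agent.P162.Mid.KlwSmul
import Vale.Agent.P162.Mid.KlwSumLe
import Vale.Agent.P162.Mid.KlwMonoWeight
import Vale.Agent.P162.Mid.KlwSuper
import Vale.Agent.P162.Mid.SdpiBasic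
import Vale.Agent.P162.Mid.ChainIO
import Vale.Agent.P162.Mid.SdpiOne
import Vale.Agent.P162.Mid.ChainPart
import Vale.Agent.P162.Mid.SdpiEmbed
import Vale.Agent.P162.Mid.SdpiTensor
import Vale.Agent.P162.Mid.SdpiLift
import Vale.Agent.P162.Mid.SdpiReweight
import Vale.Agent.P162.Mid.OutSplit
import Vale.Agent.P162.Mid.Bridge
import Vale.Agent.P162.Mid.StepZAbs
import Vale.Agent.P162.Mid.HalfAbs
import Vale.Agent.P162.Mid.StepTAbs
import Vale.Agent.P162.Mid.GlueP
import Vale.Agent.P162.Mid.GlueS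
import Vale.Agent.P162.Mid.GlueC
import Vale.Agent.P162.Mid.Trv0
import Vale.Agent.P162.Mid.SumTrv
import Vale.Agent.P162.Mid.SumClo
import Vale.Agent.P162.Mid.CountMT
import Vale.Agent.P162.Mid.CardIsM
import Vale.Agent.P162.Mid.DmFormula
import Vale.Agent.P162.Mid.CountClo
import Vale.Agent.P162.Mid.CountClo2
import Vale.Agent.P162.Mid.CountTrv2
import Vale.Agent.P162.Mid.Consts
import Vale.Agent.P162.Mid.SumWp
import Vale.Agent.P162.Mid.SumWcSize
import Vale.Agent.P162.Mid.SumWc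
import Vale.Agent.P162.Mid.WpGlue

namespace Vale.Agent.P162.Mid
open Finset

/-- (MZ5) SDPI of the slice channel of the pair coupling -/
theorem slice_Z {S : Type*} [Fintype S] [DecidableEq S] (x : Finset S) (g : ℝ) (hg : 0 ≤ g)
    (h1 : SDPIw (Wc {a // a ∈ x}) g) (h2 : SDPIw (Wc {a // ¬ a ∈ x}) g) :
    SDPIw (fun σ y => Wp S σ (x, y)) g := by
  have ht := SDPIw_tensor (Wc {a // a ∈ x}) (Wc {a // ¬ a ∈ x}) (Wc_nonneg _) (Wc_nonneg _)
    hg h1 h2
  exact SDPIw_embed (glp x) (gl x) (glp_injective x) (gl_injective x)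
    (fun σ y => Wp S σ (x, y)) _ (fun s t => Wp_glp x s t)
    (fun σ y hne => Wp_supp x σ y hne) ht

end Vale.Agent.P162.Mid
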