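import Vale.Agent.P162.Mid.Defs
import Vale.Agent.P162.KL.SizeLaws
import Vale.Agent.P162.KL.BL
import Vale.Agent.P162.KL.PairLaw
import Vale.Agent.P162.Scalar.Harmonic
import Vale.Agent.P162.Mid.KlwNonneg
import Vale.Agent.P162.Mid.KlwChain
import Vale.Agent.P162.Mid.KlwChainMap
import Vale.Agent.P162.Mid.KlwMapLe
import Vale.Agent.P162.Mid.KlwSmul
import Vale.Agent.P162.Mid.KlwSumLe
import Vale.Agent.P162.Mid.KlwMonoWeight
import Vale.Agent.P162.Mid.KlwSuper
import Vale.Agent.P162.Mid.SdpiBasic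
import Vale.Agent.P162.Mid.ChainIO
import Vale.Agent.P162.Mid.SdpiOne
import Vale.Agent.P162.Mid.ChainPart
import Vale.Agent.P162.Mid.SdpiEmbed
import Vale.Agent.P162.Mid.SdpiTensor
import Vale.Agent.P162.Mid.SdpiLift
import Vale.Agent.P162.Mid.SdpiReweight
import Vale.Agent.P162.Mid.OutSplit
import Vale.Agent.P162.Mid.Bridge
import Vale.Agent.P162.Mid.StepZAbs
import Vale.Agent.P162.Mid.HalfAbs
import Vale.Agent.P162.Mid.StepTAbs
import Vale.Agent.P162.Mid.GlueP
import Vale.Agent.P162.Mid.GlueS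
import Vale.Agent.P162.Mid.GlueC
import Vale.Agent.P162.Mid.Trv0
import Vale.Agent.P162.Mid.SumTrv
import Vale.Agent.P162.Mid.SumClo
import Vale.Agent.P162.Mid.CountMT
import Vale.Agent.P162.Mid.CardIsM
import Vale.Agent.P162.Mid.DmFormula
import Vale.Agent.P162.Mid.CountClo
import Vale.Agent.P162.Mid.CountClo2
import Vale.Agent.P162.Mid.CountTrv2
import Vale.Agent.P162.Mid.Consts
import Vale.Agent.P162.Mid.SumWp
import Vale.Agent.P162.Mid.SumWcSize
import Vale.Agent.P162.Mid.SumWc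
import Vale.Agent.P162.Mid.WpGlue
import Vale.Agent.P162.Mid.SliceZ

namespace Vale.Agent.P162.Mid
open Finset

/-- (MZ3) first marginal of the pair coupling -/
theorem sum_Wp_right (S : Type*) [Fintype S] [DecidableEq S] (σ : Equiv.Perm S)
    (y1 : Finset S) :
    ∑ y2, Wp S σ (y1, y2) = wtZ (Fintype.card S) y1.card * Wc S σ y1 := by
  classical
  by_cases h : IsM σ ∧ Clo σ y1
  · obtain ⟨hM, hc⟩ := h
    obtain ⟨s, rfl⟩ := exists_glp y1 σ hM hc
    have hs := (isM_glp y1 s).1 hM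
    have hbij : Function.Bijective (gl y1) := ⟨gl_injective y1, fun y => exists_gl y1 y⟩
    rw [← Function.Bijective.sum_comp hbij (fun y2 => Wp S (glp y1 s) (y1, y2))]
    simp only [Wp_glp]
    rw [Fintype.sum_prod_type]
    simp only [← Finset.mul_sum]
    rw [← Finset.sum_mul, sum_Wc _ s.1 hs.1, sum_Wc _ s.2 hs.2, card_sub_mem, card_sub_not_mem]
    unfold wtZ Wc
    rw [if_pos ⟨hM, hc⟩]
    ring
  · have e : Wc S σ y1 = 0 := by
      unfold Wc
      rw [if_neg h]
    rw [e, mul_zero]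
    refine Finset.sum_eq_zero fun y2 _ => ?_
    unfold Wp
    rw [if_neg]
    rintro ⟨a, b, _⟩
    exact h ⟨a, b⟩

end Vale.Agent.P162.Mid
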