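import Vale.Agent.P162.Mid.Defs
import Vale.Agent.P162.KL.SizeLaws
import Vale.Agent.P162.KL.BL
import Vale.Agent.P162.KL.PairLaw
import Vale.Agent.P162.KL.BLPair
import Vale.Agent.P162.Scalar.Harmonic
import Vale.Agent.P162.Mid.KlwNonneg
import Vale.Agent.P162.Mid.KlwChain
import Vale.Agent.P162.Mid.KlwChainMap
import Vale.Agent.P162.Mid.KlwMapLe
import Vale.Agent.P162.Mid.KlwSmul
import Vale.Agent.P162.Mid.KlwSumLe
import Vale.Agent.P162.Mid.KlwMonoWeight
import Vale.Agent.P162.Mid.KlwSuper
import Vale.Agent.P162.Mid.SdpiBasic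
import Vale.Agent.P162.Mid.ChainIO
import Vale.Agent.P162.Mid.SdpiOne
import Vale.Agent.P162.Mid.ChainPart
import Vale.Agent.P162.Mid.SdpiEmbed
import Vale.Agent.P162.Mid.SdpiTensor
import Vale.Agent.P162.Mid.SdpiLift
import Vale.Agent.P162.Mid.SdpiReweight
import Vale.Agent.P162.Mid.OutSplit
import Vale.Agent.P162.Mid.Bridge
import Vale.Agent.P162.Mid.StepZAbs
import Vale.Agent.P162.Mid.HalfAbs
import Vale.Agent.P162.Mid.StepTAbs
import Vale.Agent.P162.Mid.GlueP
import Vale.Agent.P162.Mid.GlueS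
import Vale.Agent.P162.Mid.GlueC
import Vale.Agent.P162.Mid.Trv0
import Vale.Agent.P162.Mid.SumTrv
import Vale.Agent.P162.Mid.SumClo
import Vale.Agent.P162.Mid.CountMT
import Vale.Agent.P162.Mid.CardIsM
import Vale.Agent.P162.Mid.DmFormula
import Vale.Agent.P162.Mid.CountClo
import Vale.Agent.P162.Mid.CountClo2
import Vale.Agent.P162.Mid.CountTrv2
import Vale.Agent.P162.Mid.Consts
import Vale.Agent.P162.Mid.SumWp
import Vale.Agent.P162.Mid.SumWcSize
import Vale.Agent.P162.Mid.SumWc
import Vale.Agent.P162.Mid.WpGlue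
import Vale.Agent.P162.Mid.SliceZ
import Vale.Agent.P162.Mid.SumWpRight

namespace Vale.Agent.P162.Mid
open Finset

private theorem blev_sum_sub {A : Type*} [Fintype A] (P : A → Prop) [DecidablePred P] (f : A → ℝ)
    (h : ∀ a, ¬ P a → f a = 0) : ∑ a, f a = ∑ a : {a // P a}, f a.1 := by
  rw [← Finset.sum_subtype (Finset.univ.filter P) (by simp) f, Finset.sum_filter]
  apply Finset.sum_congr rfl
  intro a _
  split_ifs with hp
  · rfl
  · exact h a hp

/-- `klw` in terms of the normalised `kl` -/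
private theorem blev_klw_eq {A : Type*} [Fintype A] (p q : A → ℝ) (m c : ℝ)
    (hm : ∑ a, p a = m) (hc : ∑ a, q a = c) (hm0 : 0 < m) (hc0 : 0 < c)
    (hac : ∀ a, q a = 0 → p a = 0) :
    klw p q = m * KL.kl (fun a => p a / m) (fun a => q a / c) := by
  unfold klw KL.kl
  rw [hm, hc, Finset.mul_sum]
  have h1 : ∀ a, m * (p a / m * Real.log (p a / m / (q a / c))) =
      p a * Real.log (p a / q a) - p a * Real.log (m / c) := by
    intro a
    by_cases hp : p a = 0
    · simp [hp]
    · have hq : q a ≠ 0 := fun h => hp (hac a h)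
      have e : p a / m / (q a / c) = (p a / q a) / (m / c) := by
        field_simp
      rw [e, Real.log_div (div_ne_zero hp hq) (div_ne_zero hm0.ne' hc0.ne')]
      field_simp
  simp_rw [h1]
  rw [Finset.sum_sub_distrib, ← Finset.sum_mul, hm]

section
variable {S : Type} [Fintype S] [DecidableEq S]

omit [Fintype S] in
private theorem blev_RS_nonneg (p : Finset S × Finset S) : 0 ≤ RS S p := by
  unfold RS; split_ifs <;> norm_num

omit [Fintype S] in
private theorem blev_RS_left (p : Finset S × Finset S) (h : ¬ Even p.1.card) : RS S p = 0 := by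
  unfold RS; rw [if_neg]; tauto

omit [Fintype S] in
private theorem blev_RS_right (p : Finset S × Finset S) (h : ¬ Even p.2.card) : RS S p = 0 := by
  unfold RS; rw [if_neg]; tauto

private theorem blev_RS_Rw (x y : Ev S) : RS S (x.1, y.1) / cntE S = Rw (x, y) := by
  unfold RS Rw
  have hx := x.2
  have hy := y.2
  by_cases h : Even (x.1 ∩ y.1).card
  · simp [h, hx, hy]
  · simp [h]

private theorem blev_sum_right (f : Finset S × Finset S → ℝ)
    (hf : ∀ p, RS S p = 0 → f p = 0) (x : Finset S) :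
    ∑ y, f (x, y) = ∑ y : Ev S, f (x, y.1) :=
  blev_sum_sub (fun y : Finset S => Even y.card) (fun y => f (x, y))
    (fun y hy => hf _ (blev_RS_right (x, y) hy))

private theorem blev_sum_left (f : Finset S × Finset S → ℝ)
    (hf : ∀ p, RS S p = 0 → f p = 0) (y : Finset S) :
    ∑ x, f (x, y) = ∑ x : Ev S, f (x.1, y) :=
  blev_sum_sub (fun x : Finset S => Even x.card) (fun x => f (x, y))
    (fun x hx => hf _ (blev_RS_left (x, y) hx))

private theorem blev_sum_pair (f : Finset S × Finset S → ℝ)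
    (hf : ∀ p, RS S p = 0 → f p = 0) :
    ∑ p, f p = ∑ x : Ev S, ∑ y : Ev S, f (x.1, y.1) := by
  rw [Fintype.sum_prod_type]
  rw [blev_sum_sub (fun x : Finset S => Even x.card) (fun x => ∑ y, f (x, y))
    (fun x hx => Finset.sum_eq_zero (fun y _ => hf _ (blev_RS_left (x, y) hx)))]
  apply Finset.sum_congr rfl
  intro x _
  exact blev_sum_right f hf x.1

private theorem blev_R1 [Nonempty S] (x : Ev S) :
    (∑ y, RS S (x.1, y)) / cntE S = nuw x := by
  rw [blev_sum_right (RS S) (fun _ h => h), Finset.sum_div, ← sum_Rw_right]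
  exact Finset.sum_congr rfl (fun y _ => blev_RS_Rw x y)

private theorem blev_R2 [Nonempty S] (y : Ev S) :
    (∑ x, RS S (x, y.1)) / cntE S = nuw y := by
  rw [blev_sum_left (RS S) (fun _ h => h), Finset.sum_div, ← sum_Rw_left]
  exact Finset.sum_congr rfl (fun x _ => blev_RS_Rw x y)

private theorem blev_sum_RS [Nonempty S] (hN : Even (Fintype.card S)) :
    ∑ p, RS S p = cntE S := by
  have hc := cntE_pos (S := S)
  have h1 : (∑ p, RS S p) / cntE S = 1 := by
    rw [blev_sum_pair (RS S) (fun _ h => h), Finset.sum_div, ← sum_Rw hN,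
      Fintype.sum_prod_type]
    apply Finset.sum_congr rfl
    intro x _
    rw [Finset.sum_div]
    exact Finset.sum_congr rfl (fun y _ => blev_RS_Rw x y)
  field_simp at h1
  linarith

end

/-- (MZ6) Brascamp-Lieb inequality for the pair of even sets with even intersection
(`KL/BL.lean` `lemma_BL` + `KL/PairLaw.lean`, `L = 2^(N/4)`), in `klw` form on `Finset S`. -/
theorem BL_even : ∃ K0 : ℝ, 0 ≤ K0 ∧ ∃ N0 : ℕ, ∀ (S : Type) [Fintype S] [DecidableEq S],
    Even (Fintype.card S) → N0 ≤ Fintype.card S →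
    ∀ Q : Finset S × Finset S → ℝ, (∀ p, 0 ≤ Q p) → (∀ p, RS S p = 0 → Q p = 0) →
      (1 - K0 / (Fintype.card S : ℝ)) *
        (klw (fun y1 => ∑ y2, Q (y1, y2)) (fun y1 => ∑ y2, RS S (y1, y2)) +
          klw (fun y2 => ∑ y1, Q (y1, y2)) (fun y2 => ∑ y1, RS S (y1, y2))) ≤ klw Q (RS S) := by
  refine ⟨32, by norm_num, 64, ?_⟩
  intro S _ _ hN h64 Q hQ0 hac
  have hne : Nonempty S := by
    apply Fintype.card_pos_iff.1
    omega
  have hc := cntE_pos (S := S)
  set c := cntE S with hcdef
  set m := ∑ p, Q p with hmdef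
  have hm0 : 0 ≤ m := Finset.sum_nonneg (fun p _ => hQ0 p)
  rcases hm0.eq_or_lt with hm | hm
  · -- zero mass
    have hz : ∀ p, Q p = 0 := by
      intro p
      have := (Finset.sum_eq_zero_iff_of_nonneg (fun p _ => hQ0 p)).1 hm.symm
      exact this p (Finset.mem_univ p)
    have hQ : Q = fun _ => 0 := funext hz
    subst hQ
    simp [klw]
  · -- masses
    have hm1 : ∑ y1, ∑ y2, Q (y1, y2) = m := by
      rw [hmdef, Fintype.sum_prod_type]
    have hm2 : ∑ y2, ∑ y1, Q (y1, y2) = m := by
      rw [hmdef, Fintype.sum_prod_type_right]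
    have hcs : ∑ p, RS S p = c := blev_sum_RS hN
    have hc1 : ∑ y1, ∑ y2, RS S (y1, y2) = c := by
      rw [← hcs, Fintype.sum_prod_type]
    have hc2 : ∑ y2, ∑ y1, RS S (y1, y2) = c := by
      rw [← hcs, Fintype.sum_prod_type_right]
    have hac1 : ∀ y1, ∑ y2, RS S (y1, y2) = 0 → ∑ y2, Q (y1, y2) = 0 := by
      intro y1 h
      have := (Finset.sum_eq_zero_iff_of_nonneg (fun y2 _ => blev_RS_nonneg (y1, y2))).1 h
      exact Finset.sum_eq_zero (fun y2 hy => hac _ (this y2 hy))
    have hac2 : ∀ y2, ∑ y1, RS S (y1, y2) = 0 → ∑ y1, Q (y1, y2) = 0 := by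
      intro y2 h
      have := (Finset.sum_eq_zero_iff_of_nonneg (fun y1 _ => blev_RS_nonneg (y1, y2))).1 h
      exact Finset.sum_eq_zero (fun y1 hy => hac _ (this y1 hy))
    rw [blev_klw_eq Q (RS S) m c rfl hcs hm hc hac,
      blev_klw_eq _ _ m c hm1 hc1 hm hc hac1, blev_klw_eq _ _ m c hm2 hc2 hm hc hac2]
    -- the normalised law on even sets
    have main := KL.BL_pair hN h64 (fun x y => Q (x.1, y.1) / m)
      (fun x => (∑ y2, Q (x.1, y2)) / m) (fun y => (∑ y1, Q (y1, y.1)) / m)
      (fun x y => div_nonneg (hQ0 _) hm.le)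
      (fun x y h => by
        have : RS S (x.1, y.1) = 0 := by
          have h2 := blev_RS_Rw x y
          rw [h] at h2
          rcases div_eq_zero_iff.1 h2 with h3 | h3
          · exact h3
          · exact absurd h3 hc.ne'
        rw [hac _ this, zero_div])
      (fun x => by rw [blev_sum_right Q hac, Finset.sum_div])
      (fun y => by rw [blev_sum_left Q hac, Finset.sum_div])
      (by
        have : ∑ x : Ev S, ∑ y : Ev S, Q (x.1, y.1) / m = m / m := by
          rw [hmdef, blev_sum_pair Q hac, Finset.sum_div]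
          exact Finset.sum_congr rfl (fun x _ => by rw [Finset.sum_div])
        rw [this, div_self hm.ne'])
    -- identify the three divergences
    have e0 : KL.kl (fun a => Q a / m) (fun a => RS S a / c) =
        ∑ x : Ev S, ∑ y : Ev S,
          Q (x.1, y.1) / m * Real.log (Q (x.1, y.1) / m / Rw (x, y)) := by
      unfold KL.kl
      rw [blev_sum_pair (fun a => Q a / m * Real.log (Q a / m / (RS S a / c)))
        (fun p h => by simp [hac p h])]
      apply Finset.sum_congr rfl
      intro x _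
      apply Finset.sum_congr rfl
      intro y _
      rw [← blev_RS_Rw x y]
    have e1 : KL.kl (fun a => (∑ y2, Q (a, y2)) / m) (fun a => (∑ y2, RS S (a, y2)) / c) =
        KL.kl (fun x : Ev S => (∑ y2, Q (x.1, y2)) / m) nuw := by
      unfold KL.kl
      rw [blev_sum_sub (fun x : Finset S => Even x.card)
        (fun a => (∑ y2, Q (a, y2)) / m *
          Real.log ((∑ y2, Q (a, y2)) / m / ((∑ y2, RS S (a, y2)) / c)))
        (fun a ha => by
          have : ∑ y2, Q (a, y2) = 0 :=
            Finset.sum_eq_zero (fun y _ => hac _ (blev_RS_left (a, y) ha))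
          simp [this])]
      apply Finset.sum_congr rfl
      intro x _
      rw [← blev_R1 x]
    have e2 : KL.kl (fun a => (∑ y1, Q (y1, a)) / m) (fun a => (∑ y1, RS S (y1, a)) / c) =
        KL.kl (fun y : Ev S => (∑ y1, Q (y1, y.1)) / m) nuw := by
      unfold KL.kl
      rw [blev_sum_sub (fun x : Finset S => Even x.card)
        (fun a => (∑ y1, Q (y1, a)) / m *
          Real.log ((∑ y1, Q (y1, a)) / m / ((∑ y1, RS S (y1, a)) / c)))
        (fun a ha => by
          have : ∑ y1, Q (y1, a) = 0 :=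
            Finset.sum_eq_zero (fun y _ => hac _ (blev_RS_right (y, a) ha))
          simp [this])]
      apply Finset.sum_congr rfl
      intro y _
      rw [← blev_R2 y]
    rw [e0, e1, e2]
    calc (1 - 32 / (Fintype.card S : ℝ)) *
          (m * KL.kl (fun x : Ev S => (∑ y2, Q (x.1, y2)) / m) nuw +
            m * KL.kl (fun y : Ev S => (∑ y1, Q (y1, y.1)) / m) nuw)
        = m * ((1 - 32 / (Fintype.card S : ℝ)) *
          (KL.kl (fun x : Ev S => (∑ y2, Q (x.1, y2)) / m) nuw +
            KL.kl (fun y : Ev S => (∑ y1, Q (y1, y.1)) / m) nuw)) := by ring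
      _ ≤ _ := mul_le_mul_of_nonneg_left main hm.le

end Vale.Agent.P162.Mid
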