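import Vale.Agent.P162.Mid.GlueBasic
import Vale.Agent.P162.Mid.SdpiBasic
import Vale.Agent.P162.Mid.SdpiEmbed
import Vale.Agent.P162.Mid.SdpiTensor

/-!
# P162 Mid : the slices of the two pair couplings are products of smaller channels
-/

namespace Vale.Agent.P162.Mid.G38
open Finset

variable {S : Type*} [Fintype S] [DecidableEq S]

theorem Wc_nonneg (σ : Equiv.Perm S) (z : Finset S) : 0 ≤ Wc S σ z := by
  unfold Wc
  split_ifs
  · unfold dm
    positivity
  · exact le_refl _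

/-- product structure of the slice of the pair coupling -/
theorem Wp_glue (x : Finset S) (s : Equiv.Perm {a // a ∈ x} × Equiv.Perm {a // ¬ a ∈ x})
    (t : Finset {a // a ∈ x} × Finset {a // ¬ a ∈ x}) :
    Wp S (glp x s) (x, gl x t) = Wc {a // a ∈ x} s.1 t.1 * Wc {a // ¬ a ∈ x} s.2 t.2 := by
  unfold Wp Wc
  simp only [card_inter_gl, card_sdiff_gl, card_gl_sdiff, card_union_gl, card_sub_in, card_sub_out]
  by_cases h1 : IsM s.1 ∧ Clo s.1 t.1
  · by_cases h2 : IsM s.2 ∧ Clo s.2 t.2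
    · have h3 : IsM (glp x s) ∧ Clo (glp x s) x ∧ Clo (glp x s) (gl x t) :=
        ⟨(isM_glp x s).2 ⟨h1.1, h2.1⟩, clo_glp_self x s, (clo_glp_gl x s t).2 ⟨h1.2, h2.2⟩⟩
      rw [if_pos h1, if_pos h2, if_pos h3, Nat.sub_sub]
      rw [one_div_mul_one_div]
      congr 1
      ring
    · have h3 : ¬ (IsM (glp x s) ∧ Clo (glp x s) x ∧ Clo (glp x s) (gl x t)) := by
        rintro ⟨a, _, c⟩
        exact h2 ⟨((isM_glp x s).1 a).2, ((clo_glp_gl x s t).1 c).2⟩
      rw [if_neg h2, if_neg h3, mul_zero]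
  · have h3 : ¬ (IsM (glp x s) ∧ Clo (glp x s) x ∧ Clo (glp x s) (gl x t)) := by
      rintro ⟨a, _, c⟩
      exact h1 ⟨((isM_glp x s).1 a).1, ((clo_glp_gl x s t).1 c).1⟩
    rw [if_neg h1, if_neg h3, zero_mul]

/-- the slice channel of the pair coupling contracts as well as the two smaller `Zc` channels -/
theorem slice_good (x : Finset S) (g : ℝ) (hg : 0 ≤ g)
    (h1 : SDPIw (Wc {a // a ∈ x}) g) (h2 : SDPIw (Wc {a // ¬ a ∈ x}) g) :
    SDPIw (fun σ y2 => Wp S σ (x, y2)) g := by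
  have ht := SDPIw_tensor (Wc {a // a ∈ x}) (Wc {a // ¬ a ∈ x}) Wc_nonneg Wc_nonneg hg h1 h2
  refine SDPIw_embed (glp x) (gl x) (glp_injective x) (gl_injective x)
    (fun σ y2 => Wp S σ (x, y2)) _ (fun s t => Wp_glue x s t) ?_ ht
  intro σ y hne
  refine ⟨?_, gl_surjective x y⟩
  have hcond : IsM σ ∧ Clo σ x ∧ Clo σ y := by
    by_contra hcon
    apply hne
    show Wp S σ (x, y) = 0
    unfold Wp
    rw [if_neg hcon]
  exact glp_surjective x σ hcond.1 hcond.2.1


theorem Wt_nonneg (σ : Equiv.Perm S) (T : Finset S) : 0 ≤ Wt S σ T := by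
  unfold Wt
  split_ifs
  · exact zero_le_one
  · exact le_refl _

theorem trv_compl (σ : Equiv.Perm S) (T : Finset S) : Trv σ Tᶜ ↔ Trv σ T := by
  unfold Trv
  constructor
  · intro h a
    have := h a
    rw [Finset.mem_compl, Finset.mem_compl] at this
    tauto
  · intro h a
    have := h a
    rw [Finset.mem_compl, Finset.mem_compl]
    tauto

theorem trv_glp_gl (x : Finset S) (s : Equiv.Perm {a // a ∈ x} × Equiv.Perm {a // ¬ a ∈ x})
    (t : Finset {a // a ∈ x} × Finset {a // ¬ a ∈ x}) :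
    Trv (glp x s) (gl x t) ↔ Trv s.1 t.1 ∧ Trv s.2 t.2 := by
  constructor
  · intro h
    refine ⟨fun a => ?_, fun a => ?_⟩
    · have := h a.1
      rw [glp_apply_mem x s a.1 a.2, mem_gl_of_mem x t a.1 a.2,
        mem_gl_of_mem x t _ (s.1 ⟨a.1, a.2⟩).2] at this
      exact this
    · have := h a.1
      rw [glp_apply_not_mem x s a.1 a.2, mem_gl_of_not_mem x t a.1 a.2,
        mem_gl_of_not_mem x t _ (s.2 ⟨a.1, a.2⟩).2] at this
      exact this
  · rintro ⟨h1, h2⟩ a
    by_cases h : a ∈ x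
    · rw [glp_apply_mem x s a h, mem_gl_of_mem x t a h, mem_gl_of_mem x t _ (s.1 ⟨a, h⟩).2]
      exact h1 ⟨a, h⟩
    · rw [glp_apply_not_mem x s a h, mem_gl_of_not_mem x t a h,
        mem_gl_of_not_mem x t _ (s.2 ⟨a, h⟩).2]
      exact h2 ⟨a, h⟩

theorem mem_agr (p : Finset S × Finset S) (a : S) : a ∈ agr p ↔ (a ∈ p.1 ↔ a ∈ p.2) := by
  unfold agr
  rw [Finset.mem_union, Finset.mem_inter, Finset.mem_compl, Finset.mem_union]
  tauto

theorem agr_gl2 (x : Finset S) (t : Finset {a // a ∈ x} × Finset {a // ¬ a ∈ x}) :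
    agr (gl2 x t) = x := by
  ext a
  rw [mem_agr]
  unfold gl2
  by_cases h : a ∈ x
  · simp only [mem_gl_of_mem x _ a h, h]
  · simp only [mem_gl_of_not_mem x _ a h, h, Finset.mem_compl]
    tauto

theorem gl2_injective (x : Finset S) : Function.Injective (gl2 x) := by
  intro t t' h
  exact gl_injective x (congrArg Prod.fst h)

theorem gl2_surjective (x : Finset S) (p : Finset S × Finset S) (hp : agr p = x) :
    ∃ t, gl2 x t = p := by
  obtain ⟨t, ht⟩ := gl_surjective x p.1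
  refine ⟨t, ?_⟩
  unfold gl2
  apply Prod.ext
  · exact ht
  · ext a
    have hm := mem_agr p a
    rw [hp, ← ht] at hm
    by_cases h : a ∈ x
    · rw [mem_gl_of_mem x _ a h]
      rw [mem_gl_of_mem x t a h] at hm
      exact hm.1 h
    · rw [mem_gl_of_not_mem x _ a h, Finset.mem_compl]
      rw [mem_gl_of_not_mem x t a h] at hm
      tauto

theorem gl2_inter (x : Finset S) (t : Finset {a // a ∈ x} × Finset {a // ¬ a ∈ x}) :
    ((gl2 x t).1 ∩ (gl2 x t).2).card = t.1.card := by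
  have : (gl2 x t).1 ∩ (gl2 x t).2 = t.1.map (Function.Embedding.subtype _) := by
    ext a
    unfold gl2
    rw [Finset.mem_inter, Finset.mem_map]
    constructor
    · rintro ⟨h1, h2⟩
      by_cases h : a ∈ x
      · exact ⟨⟨a, h⟩, (mem_gl_of_mem x t a h).1 h1, rfl⟩
      · rw [mem_gl_of_not_mem x _ a h] at h1 h2
        rw [Finset.mem_compl] at h2
        exact absurd h1 h2
    · rintro ⟨b, hb, rfl⟩
      exact ⟨(mem_gl_of_mem x t b.1 b.2).2 hb, (mem_gl_of_mem x _ b.1 b.2).2 hb⟩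
  rw [this, Finset.card_map]

theorem gl2_sdiff (x : Finset S) (t : Finset {a // a ∈ x} × Finset {a // ¬ a ∈ x}) :
    ((gl2 x t).1 \ (gl2 x t).2).card = t.2.card := by
  have : (gl2 x t).1 \ (gl2 x t).2 = t.2.map (Function.Embedding.subtype _) := by
    ext a
    unfold gl2
    rw [Finset.mem_sdiff, Finset.mem_map]
    constructor
    · rintro ⟨h1, h2⟩
      by_cases h : a ∈ x
      · rw [mem_gl_of_mem x _ a h] at h1 h2
        exact absurd h1 h2
      · exact ⟨⟨a, h⟩, (mem_gl_of_not_mem x t a h).1 h1, rfl⟩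
    · rintro ⟨b, hb, rfl⟩
      refine ⟨(mem_gl_of_not_mem x t b.1 b.2).2 hb, ?_⟩
      show ¬ (b.1 ∈ gl x (t.1, t.2ᶜ))
      rw [mem_gl_of_not_mem x _ b.1 b.2, Finset.mem_compl]
      exact fun h => h hb
  rw [this, Finset.card_map]

/-- a transversal has half of the points -/
theorem card_trv (σ : Equiv.Perm S) (T : Finset S) (hM : IsM σ) (hT : Trv σ T) :
    T.card = Fintype.card S / 2 := by
  have h1 : T.map σ.toEmbedding = Tᶜ := by
    ext b
    rw [Finset.mem_map, Finset.mem_compl]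
    constructor
    · rintro ⟨a, ha, rfl⟩
      exact (hT a).1 ha
    · intro hb
      refine ⟨σ b, ?_, hM.1 b⟩
      rw [hT (σ b), hM.1 b]
      exact hb
  have h2 : Tᶜ.card = T.card := by rw [← h1, Finset.card_map]
  rw [Finset.card_compl] at h2
  have h3 := Finset.card_le_univ T
  omega

theorem clo_agr (σ : Equiv.Perm S) (p : Finset S × Finset S) (h1 : Trv σ p.1) (h2 : Trv σ p.2) :
    Clo σ (agr p) := by
  intro a ha
  rw [mem_agr] at ha ⊢
  have e1 := h1 a
  have e2 := h2 a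
  tauto

/-- product structure of the slice of the coupling of two transversals -/
theorem W3_glue (x : Finset S) (s : Equiv.Perm {a // a ∈ x} × Equiv.Perm {a // ¬ a ∈ x})
    (t : Finset {a // a ∈ x} × Finset {a // ¬ a ∈ x}) :
    (if agr (gl2 x t) = x then W3 S (glp x s) (gl2 x t) else 0)
      = 1 / (((x.card / 2).factorial : ℝ) * (((Fintype.card S - x.card) / 2).factorial : ℝ))
        * (Wt {a // a ∈ x} s.1 t.1 * Wt {a // ¬ a ∈ x} s.2 t.2) := by
  rw [if_pos (agr_gl2 x t)]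
  unfold W3 Wt
  rw [gl2_inter, gl2_sdiff]
  by_cases h1 : IsM s.1 ∧ Trv s.1 t.1
  · by_cases h2 : IsM s.2 ∧ Trv s.2 t.2
    · have h3 : IsM (glp x s) ∧ Trv (glp x s) (gl2 x t).1 ∧ Trv (glp x s) (gl2 x t).2 :=
        ⟨(isM_glp x s).2 ⟨h1.1, h2.1⟩, (trv_glp_gl x s t).2 ⟨h1.2, h2.2⟩,
          (trv_glp_gl x s (t.1, t.2ᶜ)).2 ⟨h1.2, (trv_compl s.2 t.2).2 h2.2⟩⟩
      rw [if_pos h1, if_pos h2, if_pos h3, card_trv s.1 t.1 h1.1 h1.2, card_trv s.2 t.2 h2.1 h2.2,
        card_sub_in, card_sub_out]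
      ring
    · have h3 : ¬ (IsM (glp x s) ∧ Trv (glp x s) (gl2 x t).1 ∧ Trv (glp x s) (gl2 x t).2) := by
        rintro ⟨a, b, _⟩
        exact h2 ⟨((isM_glp x s).1 a).2, ((trv_glp_gl x s t).1 b).2⟩
      rw [if_neg h2, if_neg h3]
      ring
  · have h3 : ¬ (IsM (glp x s) ∧ Trv (glp x s) (gl2 x t).1 ∧ Trv (glp x s) (gl2 x t).2) := by
      rintro ⟨a, b, _⟩
      exact h1 ⟨((isM_glp x s).1 a).1, ((trv_glp_gl x s t).1 b).1⟩
    rw [if_neg h1, if_neg h3]
    ring

/-- the slice channel of the coupling of two transversals contracts as well as the two smaller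
transversal channels -/
theorem sliceT_good (x : Finset S) (sg : ℝ) (hsg : 0 ≤ sg)
    (h1 : SDPIw (Wt {a // a ∈ x}) sg) (h2 : SDPIw (Wt {a // ¬ a ∈ x}) sg) :
    SDPIw (fun σ p => if agr p = x then W3 S σ p else 0) sg := by
  have ht := SDPIw_tensor (Wt {a // a ∈ x}) (Wt {a // ¬ a ∈ x}) Wt_nonneg Wt_nonneg hsg h1 h2
  have hs := SDPIw_smul _ (fun (s : Equiv.Perm {a // a ∈ x} × Equiv.Perm {a // ¬ a ∈ x})
      (t : Finset {a // a ∈ x} × Finset {a // ¬ a ∈ x}) =>
      mul_nonneg (Wt_nonneg s.1 t.1) (Wt_nonneg s.2 t.2))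
    (1 / (((x.card / 2).factorial : ℝ) * (((Fintype.card S - x.card) / 2).factorial : ℝ)))
    (by positivity) ht
  refine SDPIw_embed (glp x) (gl2 x) (glp_injective x) (gl2_injective x)
    (fun σ p => if agr p = x then W3 S σ p else 0) _ (fun s t => W3_glue x s t) ?_ hs
  intro σ p hne
  have hagr : agr p = x := by
    by_contra hcon
    apply hne
    show (if agr p = x then W3 S σ p else 0) = 0
    rw [if_neg hcon]
  have hcond : IsM σ ∧ Trv σ p.1 ∧ Trv σ p.2 := by
    by_contra hcon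
    apply hne
    show (if agr p = x then W3 S σ p else 0) = 0
    rw [if_pos hagr]
    unfold W3
    rw [if_neg hcon]
  refine ⟨glp_surjective x σ hcond.1 ?_, gl2_surjective x p hagr⟩
  rw [← hagr]
  exact clo_agr σ p hcond.2.1 hcond.2.2

end Vale.Agent.P162.Mid.G38
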