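import Vale.Agent.P162.Mid.Defs
import Vale.Agent.P162.KL.SizeLaws
import Vale.Agent.P162.KL.BL
import Vale.Agent.P162.KL.PairLaw
import Vale.Agent.P162.Scalar.Harmonic
import Vale.Agent.P162.Mid.KlwNonneg
import Vale.Agent.P162.Mid.KlwChain
import Vale.Agent.P162.Mid.KlwChainMap
import Vale.Agent.P162.Mid.KlwMapLe
import Vale.Agent.P162.Mid.KlwSmul
import Vale.Agent.P162.Mid.KlwSumLe
import Vale.Agent.P162.Mid.KlwMonoWeight
import Vale.Agent.P162.Mid.KlwSuper
import Vale.Agent.P162.Mid.SdpiBasic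
import Vale.Agent.P162.Mid.ChainIO
import Vale.Agent.P162.Mid.SdpiOne
import Vale.Agent.P162.Mid.ChainPart
import Vale.Agent.P162.Mid.SdpiEmbed
import Vale.Agent.P162.Mid.SdpiTensor
import Vale.Agent.P162.Mid.SdpiLift
import Vale.Agent.P162.Mid.SdpiReweight
import Vale.Agent.P162.Mid.OutSplit
import Vale.Agent.P162.Mid.Bridge
import Vale.Agent.P162.Mid.StepZAbs
import Vale.Agent.P162.Mid.HalfAbs
import Vale.Agent.P162.Mid.StepTAbs
import Vale.Agent.P162.Mid.GlueP
import Vale.Agent.P162.Mid.GlueS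
import Vale.Agent.P162.Mid.GlueC
import Vale.Agent.P162.Mid.Trv0
import Vale.Agent.P162.Mid.SumTrv
import Vale.Agent.P162.Mid.SumClo
import Vale.Agent.P162.Mid.CountMT
import Vale.Agent.P162.Mid.CardIsM
import Vale.Agent.P162.Mid.DmFormula
import Vale.Agent.P162.Mid.CountClo
import Vale.Agent.P162.Mid.CountClo2
import Vale.Agent.P162.Mid.CountTrv2
import Vale.Agent.P162.Mid.Consts
import Vale.Agent.P162.Mid.SumWp
import Vale.Agent.P162.Mid.SumWcSize
import Vale.Agent.P162.Mid.SumWc
import Vale.Agent.P162.Mid.WpGlue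
import Vale.Agent.P162.Mid.SliceZ
import Vale.Agent.P162.Mid.SumWpRight
import Vale.Agent.P162.Mid.BLEven

namespace Vale.Agent.P162.Mid
open Finset

open Classical in
/-- (MT1) the two transversals are independent under the uniform matching -/
theorem sum_W3 (S : Type*) [Fintype S] [DecidableEq S] (T1 T2 : Finset S) :
    ∑ σ, W3 S σ (T1, T2) =
      (if 2 * T1.card = Fintype.card S then (1 : ℝ) else 0) *
        (if 2 * T2.card = Fintype.card S then (1 : ℝ) else 0) := by
  by_cases h1 : 2 * T1.card = Fintype.card S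
  · by_cases h2 : 2 * T2.card = Fintype.card S
    · rw [if_pos h1, if_pos h2, mul_one]
      have hc := count_M_trv2 T1 T2 h1 h2
      have hpos : (0 : ℝ) < ((T1 ∩ T2).card.factorial : ℝ) * ((T1 \ T2).card.factorial : ℝ) := by
        positivity
      have he : ∀ σ : Equiv.Perm S, W3 S σ (T1, T2) =
          1 / (((T1 ∩ T2).card.factorial : ℝ) * ((T1 \ T2).card.factorial : ℝ)) *
            (if IsM σ ∧ Trv σ T1 ∧ Trv σ T2 then (1 : ℝ) else 0) := by
        intro σ
        unfold W3
        by_cases hc : IsM σ ∧ Trv σ T1 ∧ Trv σ T2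
        · rw [if_pos hc, if_pos hc, mul_one]
        · rw [if_neg hc, if_neg hc, mul_zero]
      rw [Finset.sum_congr rfl (fun σ _ => he σ), ← Finset.mul_sum, hc]
      field_simp
    · rw [if_neg h2, mul_zero]
      refine Finset.sum_eq_zero (fun σ _ => ?_)
      unfold W3
      rw [if_neg]
      rintro ⟨_, _, h⟩
      exact h2 (trv_card σ T2 h)
  · rw [if_neg h1, zero_mul]
    refine Finset.sum_eq_zero (fun σ _ => ?_)
    unfold W3
    rw [if_neg]
    rintro ⟨_, h, _⟩
    exact h1 (trv_card σ T1 h)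

end Vale.Agent.P162.Mid
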