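import Vale.Agent.P162.Mid.Defs
import Vale.Agent.P162.KL.SizeLaws
import Vale.Agent.P162.KL.BL
import Vale.Agent.P162.KL.PairLaw
import Vale.Agent.P162.Scalar.Harmonic
import Vale.Agent.P162.Mid.KlwNonneg
import Vale.Agent.P162.Mid.KlwChain
import Vale.Agent.P162.Mid.KlwChainMap
import Vale.Agent.P162.Mid.KlwMapLe
import Vale.Agent.P162.Mid.KlwSmul
import Vale.Agent.P162.Mid.KlwSumLe
import Vale.Agent.P162.Mid.KlwMonoWeight
import Vale.Agent.P162.Mid.KlwSuper
import Vale.Agent.P162.Mid.SdpiBasic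
import Vale.Agent.P162.Mid.ChainIO
import Vale.Agent.P162.Mid.SdpiOne
import Vale.Agent.P162.Mid.ChainPart
import Vale.Agent.P162.Mid.SdpiEmbed
import Vale.Agent.P162.Mid.SdpiTensor
import Vale.Agent.P162.Mid.SdpiLift
import Vale.Agent.P162.Mid.SdpiReweight
import Vale.Agent.P162.Mid.OutSplit
import Vale.Agent.P162.Mid.Bridge
import Vale.Agent.P162.Mid.StepZAbs
import Vale.Agent.P162.Mid.HalfAbs
import Vale.Agent.P162.Mid.StepTAbs
import Vale.Agent.P162.Mid.GlueP
import Vale.Agent.P162.Mid.GlueS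
import Vale.Agent.P162.Mid.GlueC
import Vale.Agent.P162.Mid.Trv0
import Vale.Agent.P162.Mid.SumTrv
import Vale.Agent.P162.Mid.SumClo
import Vale.Agent.P162.Mid.CountMT
import Vale.Agent.P162.Mid.CardIsM
import Vale.Agent.P162.Mid.DmFormula
import Vale.Agent.P162.Mid.CountClo
import Vale.Agent.P162.Mid.CountClo2
import Vale.Agent.P162.Mid.CountTrv2
import Vale.Agent.P162.Mid.Consts
import Vale.Agent.P162.Mid.SumWp
import Vale.Agent.P162.Mid.SumWcSize
import Vale.Agent.P162.Mid.SumWc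
import Vale.Agent.P162.Mid.WpGlue
import Vale.Agent.P162.Mid.SliceZ
import Vale.Agent.P162.Mid.SumWpRight
import Vale.Agent.P162.Mid.BLEven
import Vale.Agent.P162.Mid.SumW3

namespace Vale.Agent.P162.Mid
open Finset

/-- (MT2) both marginals of the pair of transversals are the transversal channel -/
theorem sum_W3_right (S : Type*) [Fintype S] [DecidableEq S] (M : ℕ)
    (hM : Fintype.card S = 2 * M) (σ : Equiv.Perm S) (T1 : Finset S) :
    ∑ T2, W3 S σ (T1, T2) = cT M * Wt S σ T1 := by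
  classical
  by_cases h : IsM σ ∧ Trv σ T1
  · obtain ⟨hσ, h1⟩ := h
    have hc1 : T1.card = M := by
      have := trv_card σ T1 h1
      omega
    have hWt : Wt S σ T1 = 1 := by
      unfold Wt
      rw [if_pos ⟨hσ, h1⟩]
    rw [hWt, mul_one]
    unfold cT
    rw [← sum_trv M hM σ hσ T1 h1
      (fun a => 1 / ((a.factorial : ℝ) * ((M - a).factorial : ℝ)))]
    refine Finset.sum_congr rfl fun T2 _ => ?_
    unfold W3
    by_cases h2 : Trv σ T2
    · rw [if_pos ⟨hσ, h1, h2⟩, if_pos h2]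
      have hsd : (T1 \ T2).card = M - (T1 ∩ T2).card := by
        have := Finset.card_sdiff_add_card_inter T1 T2
        omega
      simp only [hsd]
    · rw [if_neg (fun hh => h2 hh.2.2), if_neg h2]
  · have hWt : Wt S σ T1 = 0 := by
      unfold Wt
      rw [if_neg h]
    rw [hWt, mul_zero]
    refine Finset.sum_eq_zero fun T2 _ => ?_
    unfold W3
    rw [if_neg (fun hh => h ⟨hh.1, hh.2.1⟩)]

theorem sum_W3_left (S : Type*) [Fintype S] [DecidableEq S] (M : ℕ)
    (hM : Fintype.card S = 2 * M) (σ : Equiv.Perm S) (T2 : Finset S) :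
    ∑ T1, W3 S σ (T1, T2) = cT M * Wt S σ T2 := by
  rw [← sum_W3_right S M hM σ T2]
  exact Finset.sum_congr rfl fun T1 _ => W3_symm S σ T1 T2

theorem cT_pos (M : ℕ) : 0 < cT M := by
  unfold cT
  refine Finset.sum_pos (fun a ha => ?_) ⟨0, by simp⟩
  have hle : a ≤ M := by
    have := Finset.mem_range.mp ha
    omega
  have h1 : (0 : ℝ) < (M.choose a : ℝ) := by exact_mod_cast Nat.choose_pos hle
  have h2 : (0 : ℝ) < (a.factorial : ℝ) := by exact_mod_cast Nat.factorial_pos a
  have h3 : (0 : ℝ) < ((M - a).factorial : ℝ) := by exact_mod_cast Nat.factorial_pos (M - a)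
  positivity

end Vale.Agent.P162.Mid
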