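import Vale.Agent.P162.Mid.Defs
import Vale.Agent.P162.KL.SizeLaws
import Vale.Agent.P162.KL.BL
import Vale.Agent.P162.KL.PairLaw
import Vale.Agent.P162.Scalar.Harmonic
import Vale.Agent.P162.Mid.KlwNonneg
import Vale.Agent.P162.Mid.KlwChain
import Vale.Agent.P162.Mid.KlwChainMap
import Vale.Agent.P162.Mid.KlwMapLe
import Vale.Agent.P162.Mid.KlwSmul
import Vale.Agent.P162.Mid.KlwSumLe
import Vale.Agent.P162.Mid.KlwMonoWeight
import Vale.Agent.P162.Mid.KlwSuper
import Vale.Agent.P162.Mid.SdpiBasic
import Vale.Agent.P162.Mid.ChainIO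
import Vale.Agent.P162.Mid.SdpiOne
import Vale.Agent.P162.Mid.ChainPart
import Vale.Agent.P162.Mid.SdpiEmbed
import Vale.Agent.P162.Mid.SdpiTensor
import Vale.Agent.P162.Mid.SdpiLift
import Vale.Agent.P162.Mid.SdpiReweight
import Vale.Agent.P162.Mid.OutSplit
import Vale.Agent.P162.Mid.Bridge
import Vale.Agent.P162.Mid.StepZAbs
import Vale.Agent.P162.Mid.HalfAbs
import Vale.Agent.P162.Mid.StepTAbs
import Vale.Agent.P162.Mid.GlueP
import Vale.Agent.P162.Mid.GlueS
import Vale.Agent.P162.Mid.GlueC
import Vale.Agent.P162.Mid.Trv0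
import Vale.Agent.P162.Mid.SumTrv
import Vale.Agent.P162.Mid.SumClo
import Vale.Agent.P162.Mid.CountMT
import Vale.Agent.P162.Mid.CardIsM
import Vale.Agent.P162.Mid.DmFormula
import Vale.Agent.P162.Mid.CountClo
import Vale.Agent.P162.Mid.CountClo2
import Vale.Agent.P162.Mid.CountTrv2
import Vale.Agent.P162.Mid.Consts
import Vale.Agent.P162.Mid.SumWp
import Vale.Agent.P162.Mid.SumWcSize
import Vale.Agent.P162.Mid.SumWc
import Vale.Agent.P162.Mid.WpGlue
import Vale.Agent.P162.Mid.SliceZ
import Vale.Agent.P162.Mid.SumWpRight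
import Vale.Agent.P162.Mid.BLEven
import Vale.Agent.P162.Mid.SumW3
import Vale.Agent.P162.Mid.SumW3Right

namespace Vale.Agent.P162.Mid
open Finset

section
variable {S : Type*} [Fintype S] [DecidableEq S]

/-- the partner of `T1` with agreement set `z` -/
private def phiAgr (z T1 : Finset S) : Finset S := Finset.univ.filter (fun a => (a ∈ z ↔ a ∈ T1))

private theorem mem_phiAgr (z T1 : Finset S) (a : S) : a ∈ phiAgr z T1 ↔ (a ∈ z ↔ a ∈ T1) := by
  unfold phiAgr
  simp

private theorem mem_agr81 (p : Finset S × Finset S) (a : S) :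
    a ∈ agr p ↔ (a ∈ p.1 ↔ a ∈ p.2) := by
  unfold agr
  simp only [Finset.mem_union, Finset.mem_inter, Finset.mem_compl]
  tauto

private theorem agr_eq_iff (z T1 T2 : Finset S) : agr (T1, T2) = z ↔ T2 = phiAgr z T1 := by
  constructor
  · intro h
    ext a
    rw [mem_phiAgr, ← h, mem_agr81]
    tauto
  · intro h
    ext a
    rw [mem_agr81, h]
    simp only [mem_phiAgr]
    tauto

private theorem clo_iff (σ : Equiv.Perm S) (hσ : IsM σ) (z : Finset S) (hz : Clo σ z) (a : S) :
    σ a ∈ z ↔ a ∈ z := by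
  constructor
  · intro h
    have := hz _ h
    rwa [hσ.1 a] at this
  · exact hz a

private theorem trv_phiAgr (σ : Equiv.Perm S) (hσ : IsM σ) (z : Finset S) (hz : Clo σ z)
    (T1 : Finset S) (h1 : Trv σ T1) : Trv σ (phiAgr z T1) := by
  intro a
  rw [mem_phiAgr, mem_phiAgr, clo_iff σ hσ z hz a]
  have := h1 a
  tauto

private theorem inter_phiAgr (z T1 : Finset S) : T1 ∩ phiAgr z T1 = z ∩ T1 := by
  ext a
  simp only [Finset.mem_inter, mem_phiAgr]
  tauto

private theorem sdiff_phiAgr (z T1 : Finset S) : T1 \ phiAgr z T1 = T1 \ z := by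
  ext a
  simp only [Finset.mem_sdiff, mem_phiAgr]
  tauto

private theorem card_clo_inter_trv (σ : Equiv.Perm S) (hσ : IsM σ) (z : Finset S) (hz : Clo σ z)
    (T : Finset S) (hT : Trv σ T) : 2 * (z ∩ T).card = z.card := by
  have hmap : (z ∩ T).map σ.toEmbedding = z \ T := by
    ext b
    rw [Finset.mem_sdiff]
    constructor
    · intro hb
      obtain ⟨a, ha, rfl⟩ := Finset.mem_map.1 hb
      rw [Finset.mem_inter] at ha
      exact ⟨hz a ha.1, (hT a).1 ha.2⟩
    · intro hb
      refine Finset.mem_map.2 ⟨σ b, ?_, hσ.1 b⟩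
      rw [Finset.mem_inter]
      refine ⟨hz b hb.1, ?_⟩
      rw [hT, hσ.1 b]
      exact hb.2
  have h1 : ((z ∩ T).map σ.toEmbedding).card = (z ∩ T).card := Finset.card_map _
  have h2 := Finset.card_inter_add_card_sdiff z T
  rw [hmap] at h1
  omega

end

/-- (MT3) the agreement set of the two transversals is a reweighted closed-set channel -/
theorem sum_W3_agr (S : Type*) [Fintype S] [DecidableEq S] (M : ℕ)
    (hM : Fintype.card S = 2 * M) (σ : Equiv.Perm S) (z : Finset S) :
    ∑ p, (if agr p = z then W3 S σ p else 0) = lamT M z.card * Wc S σ z := by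
  classical
  by_cases hc : IsM σ ∧ Clo σ z
  · obtain ⟨hσ, hz⟩ := hc
    obtain ⟨k, hk⟩ := clo_even σ hσ z hz
    have hk2 : z.card = 2 * k := by omega
    have hzle : z.card ≤ Fintype.card S := Finset.card_le_univ z
    have hkM : k ≤ M := by omega
    -- the left side
    have hL : ∑ p, (if agr p = z then W3 S σ p else 0) =
        2 ^ M * (1 / ((k.factorial : ℝ) * ((M - k).factorial : ℝ))) := by
      rw [Fintype.sum_prod_type]
      have hin : ∀ T1 : Finset S, ∑ T2, (if agr (T1, T2) = z then W3 S σ (T1, T2) else 0) =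
          if Trv σ T1 then (fun _ : ℕ => 1 / ((k.factorial : ℝ) * ((M - k).factorial : ℝ)))
            (T1 ∩ T1).card else 0 := by
        intro T1
        have e1 : ∀ T2, (if agr (T1, T2) = z then W3 S σ (T1, T2) else 0) =
            if T2 = phiAgr z T1 then W3 S σ (T1, phiAgr z T1) else 0 := by
          intro T2
          by_cases h : T2 = phiAgr z T1
          · rw [if_pos h, if_pos ((agr_eq_iff z T1 T2).2 h), h]
          · rw [if_neg h, if_neg (fun h' => h ((agr_eq_iff z T1 T2).1 h'))]
        rw [Finset.sum_congr rfl (fun T2 _ => e1 T2), Finset.sum_ite_eq']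
        simp only [Finset.mem_univ, if_true]
        by_cases h1 : Trv σ T1
        · rw [if_pos h1]
          unfold W3
          rw [if_pos ⟨hσ, h1, trv_phiAgr σ hσ z hz T1 h1⟩]
          simp only
          rw [inter_phiAgr, sdiff_phiAgr]
          have c1 := card_clo_inter_trv σ hσ z hz T1 h1
          have c2 := trv_card σ T1 h1
          have c3 := Finset.card_sdiff_add_card_inter T1 z
          rw [Finset.inter_comm] at c3
          have c4 : (z ∩ T1).card = k := by omega
          have c5 : (T1 \ z).card = M - k := by omega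
          rw [c4, c5]
        · rw [if_neg h1]
          unfold W3
          rw [if_neg (fun h => h1 h.2.1)]
      rw [Finset.sum_congr rfl (fun T1 _ => hin T1)]
      obtain ⟨T0, hT0⟩ := exists_trv σ hσ
      have hs := sum_trv M hM σ hσ T0 hT0
        (fun _ : ℕ => 1 / ((k.factorial : ℝ) * ((M - k).factorial : ℝ)))
      simp only at hs ⊢
      rw [hs, ← Finset.sum_mul]
      congr 1
      have := Nat.sum_range_choose M
      exact_mod_cast this
    rw [hL]
    unfold lamT Wc
    rw [if_pos ⟨hσ, hz⟩, hM, hk2]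
    have e2 : 2 * k / 2 = k := by omega
    have e3 : 2 * M - 2 * k = 2 * (M - k) := by omega
    rw [e2, e3]
    have d1 := dm_pos k
    have d2 := dm_pos (M - k)
    have f1 : (0 : ℝ) < (k.factorial : ℝ) := by exact_mod_cast Nat.factorial_pos k
    have f2 : (0 : ℝ) < ((M - k).factorial : ℝ) := by exact_mod_cast Nat.factorial_pos (M - k)
    field_simp
  · have hR : Wc S σ z = 0 := by
      unfold Wc
      rw [if_neg hc]
    rw [hR, mul_zero]
    apply Finset.sum_eq_zero
    intro p _
    by_cases h : agr p = z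
    · rw [if_pos h]
      unfold W3
      rw [if_neg]
      rintro ⟨hσ, h1, h2⟩
      exact hc ⟨hσ, h ▸ clo_agr σ p h1 h2⟩
    · rw [if_neg h]

end Vale.Agent.P162.Mid
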