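import Vale.Agent.P162.Mid.Defs
import Vale.Agent.P162.KL.SizeLaws
import Vale.Agent.P162.KL.BL
import Vale.Agent.P162.KL.PairLaw
import Vale.Agent.P162.Scalar.Harmonic
import Vale.Agent.P162.Mid.KlwNonneg
import Vale.Agent.P162.Mid.KlwChain
import Vale.Agent.P162.Mid.KlwChainMap
import Vale.Agent.P162.Mid.KlwMapLe
import Vale.Agent.P162.Mid.KlwSmul
import Vale.Agent.P162.Mid.KlwSumLe
import Vale.Agent.P162.Mid.KlwMonoWeight
import Vale.Agent.P162.Mid.KlwSuper
import Vale.Agent.P162.Mid.SdpiBasic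
import Vale.Agent.P162.Mid.ChainIO
import Vale.Agent.P162.Mid.SdpiOne
import Vale.Agent.P162.Mid.ChainPart
import Vale.Agent.P162.Mid.SdpiEmbed
import Vale.Agent.P162.Mid.SdpiTensor
import Vale.Agent.P162.Mid.SdpiLift
import Vale.Agent.P162.Mid.SdpiReweight
import Vale.Agent.P162.Mid.OutSplit
import Vale.Agent.P162.Mid.Bridge
import Vale.Agent.P162.Mid.StepZAbs
import Vale.Agent.P162.Mid.HalfAbs
import Vale.Agent.P162.Mid.StepTAbs
import Vale.Agent.P162.Mid.GlueP
import Vale.Agent.P162.Mid.GlueS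
import Vale.Agent.P162.Mid.GlueC
import Vale.Agent.P162.Mid.Trv0
import Vale.Agent.P162.Mid.SumTrv
import Vale.Agent.P162.Mid.SumClo
import Vale.Agent.P162.Mid.CountMT
import Vale.Agent.P162.Mid.CardIsM
import Vale.Agent.P162.Mid.DmFormula
import Vale.Agent.P162.Mid.CountClo
import Vale.Agent.P162.Mid.CountClo2
import Vale.Agent.P162.Mid.CountTrv2
import Vale.Agent.P162.Mid.Consts
import Vale.Agent.P162.Mid.SumWp
import Vale.Agent.P162.Mid.SumWcSize
import Vale.Agent.P162.Mid.SumWc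
import Vale.Agent.P162.Mid.WpGlue
import Vale.Agent.P162.Mid.SliceZ
import Vale.Agent.P162.Mid.SumWpRight
import Vale.Agent.P162.Mid.BLEven
import Vale.Agent.P162.Mid.SumW3
import Vale.Agent.P162.Mid.SumW3Right
import Vale.Agent.P162.Mid.SumW3Agr
import Vale.Agent.P162.Mid.Slice38

namespace Vale.Agent.P162.Mid
open Finset

/-- the pair of transversals given its agreement set `x` is a product -/
theorem W3_glp {S : Type*} [Fintype S] [DecidableEq S] (x : Finset S)
    (s : Equiv.Perm {a // a ∈ x} × Equiv.Perm {a // ¬ a ∈ x})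
    (t : Finset {a // a ∈ x} × Finset {a // ¬ a ∈ x}) :
    (if agr (gl2 x t) = x then W3 S (glp x s) (gl2 x t) else 0) =
      1 / (((x.card / 2).factorial : ℝ) * (((Fintype.card S - x.card) / 2).factorial : ℝ)) *
        (Wt {a // a ∈ x} s.1 t.1 * Wt {a // ¬ a ∈ x} s.2 t.2) :=
  G38.W3_glue x s t

theorem W3_supp {S : Type*} [Fintype S] [DecidableEq S] (x : Finset S) (σ : Equiv.Perm S)
    (p : Finset S × Finset S) (h : (if agr p = x then W3 S σ p else 0) ≠ 0) :
    (∃ s, glp x s = σ) ∧ ∃ t, gl2 x t = p := by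
  have hagr : agr p = x := by
    by_contra hcon
    apply h
    rw [if_neg hcon]
  have hcond : IsM σ ∧ Trv σ p.1 ∧ Trv σ p.2 := by
    by_contra hcon
    apply h
    rw [if_pos hagr]
    unfold W3
    rw [if_neg hcon]
  refine ⟨G38.glp_surjective x σ hcond.1 ?_, G38.gl2_surjective x p hagr⟩
  rw [← hagr]
  exact G38.clo_agr σ p hcond.2.1 hcond.2.2

end Vale.Agent.P162.Mid
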