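import Vale.Agent.P162.Mid.Defs
import Vale.Agent.P162.KL.SizeLaws
import Vale.Agent.P162.KL.BL
import Vale.Agent.P162.KL.PairLaw
import Vale.Agent.P162.Scalar.Harmonic
import Vale.Agent.P162.Mid.KlwNonneg
import Vale.Agent.P162.Mid.KlwChain
import Vale.Agent.P162.Mid.KlwChainMap
import Vale.Agent.P162.Mid.KlwMapLe
import Vale.Agent.P162.Mid.KlwSmul
import Vale.Agent.P162.Mid.KlwSumLe
import Vale.Agent.P162.Mid.KlwMonoWeight
import Vale.Agent.P162.Mid.KlwSuper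
import Vale.Agent.P162.Mid.SdpiBasic
import Vale.Agent.P162.Mid.ChainIO
import Vale.Agent.P162.Mid.SdpiOne
import Vale.Agent.P162.Mid.ChainPart
import Vale.Agent.P162.Mid.SdpiEmbed
import Vale.Agent.P162.Mid.SdpiTensor
import Vale.Agent.P162.Mid.SdpiLift
import Vale.Agent.P162.Mid.SdpiReweight
import Vale.Agent.P162.Mid.OutSplit
import Vale.Agent.P162.Mid.Bridge
import Vale.Agent.P162.Mid.StepZAbs
import Vale.Agent.P162.Mid.HalfAbs
import Vale.Agent.P162.Mid.StepTAbs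
import Vale.Agent.P162.Mid.GlueP
import Vale.Agent.P162.Mid.GlueS
import Vale.Agent.P162.Mid.GlueC
import Vale.Agent.P162.Mid.Trv0
import Vale.Agent.P162.Mid.SumTrv
import Vale.Agent.P162.Mid.SumClo
import Vale.Agent.P162.Mid.CountMT
import Vale.Agent.P162.Mid.CardIsM
import Vale.Agent.P162.Mid.DmFormula
import Vale.Agent.P162.Mid.CountClo
import Vale.Agent.P162.Mid.CountClo2
import Vale.Agent.P162.Mid.CountTrv2
import Vale.Agent.P162.Mid.Consts
import Vale.Agent.P162.Mid.SumWp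
import Vale.Agent.P162.Mid.SumWcSize
import Vale.Agent.P162.Mid.SumWc
import Vale.Agent.P162.Mid.WpGlue
import Vale.Agent.P162.Mid.SliceZ
import Vale.Agent.P162.Mid.SumWpRight
import Vale.Agent.P162.Mid.BLEven
import Vale.Agent.P162.Mid.SumW3
import Vale.Agent.P162.Mid.SumW3Right
import Vale.Agent.P162.Mid.SumW3Agr
import Vale.Agent.P162.Mid.W3Glue
import Vale.Agent.P162.Mid.SliceT

namespace Vale.Agent.P162.Mid
open Finset

theorem ZOK_one (M : ℕ) : ZOK M 1 := by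
  exact ⟨zero_le_one, fun S _ _ _ => SDPIw_one (Wc S) (Wc_nonneg S)⟩

theorem zc_nonneg (M : ℕ) : 0 ≤ zc M := by
  exact Real.sInf_nonneg (fun η h => h.1)

theorem zc_le (M : ℕ) (η : ℝ) (h : ZOK M η) : zc M ≤ η := by
  exact csInf_le ⟨0, fun η h => h.1⟩ h

theorem zc_le_one (M : ℕ) : zc M ≤ 1 := by
  exact zc_le M 1 (ZOK_one M)

theorem ZOK_zc (M : ℕ) : ZOK M (zc M) := by
  exact ⟨zc_nonneg M, fun S _ _ hS => SDPIw_sInf (Wc S) (Wc_nonneg S) {η | ZOK M η}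
    ⟨1, ZOK_one M⟩ (fun η h => ⟨h.1, h.2 S hS⟩)⟩

theorem ZOK_mono (M : ℕ) {η η' : ℝ} (h : η ≤ η') (hs : ZOK M η) : ZOK M η' := by
  exact ⟨le_trans hs.1 h, fun S _ _ hS => SDPIw_mono (Wc S) (Wc_nonneg S) h (hs.2 S hS)⟩

end Vale.Agent.P162.Mid
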