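import Vale.Agent.P162.Mid.Defs
import Vale.Agent.P162.KL.SizeLaws
import Vale.Agent.P162.KL.BL
import Vale.Agent.P162.KL.PairLaw
import Vale.Agent.P162.Scalar.Harmonic
import Vale.Agent.P162.Mid.KlwNonneg
import Vale.Agent.P162.Mid.KlwChain
import Vale.Agent.P162.Mid.KlwChainMap
import Vale.Agent.P162.Mid.KlwMapLe
import Vale.Agent.P162.Mid.KlwSmul
import Vale.Agent.P162.Mid.KlwSumLe
import Vale.Agent.P162.Mid.KlwMonoWeight
import Vale.Agent.P162.Mid.KlwSuper
import Vale.Agent.P162.Mid.SdpiBasic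
import Vale.Agent.P162.Mid.ChainIO
import Vale.Agent.P162.Mid.SdpiOne
import Vale.Agent.P162.Mid.ChainPart
import Vale.Agent.P162.Mid.SdpiEmbed
import Vale.Agent.P162.Mid.SdpiTensor
import Vale.Agent.P162.Mid.SdpiLift
import Vale.Agent.P162.Mid.SdpiReweight
import Vale.Agent.P162.Mid.OutSplit
import Vale.Agent.P162.Mid.Bridge
import Vale.Agent.P162.Mid.StepZAbs
import Vale.Agent.P162.Mid.HalfAbs
import Vale.Agent.P162.Mid.StepTAbs
import Vale.Agent.P162.Mid.GlueP
import Vale.Agent.P162.Mid.GlueS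
import Vale.Agent.P162.Mid.GlueC
import Vale.Agent.P162.Mid.Trv0
import Vale.Agent.P162.Mid.SumTrv
import Vale.Agent.P162.Mid.SumClo
import Vale.Agent.P162.Mid.CountMT
import Vale.Agent.P162.Mid.CardIsM
import Vale.Agent.P162.Mid.DmFormula
import Vale.Agent.P162.Mid.CountClo
import Vale.Agent.P162.Mid.CountClo2
import Vale.Agent.P162.Mid.CountTrv2
import Vale.Agent.P162.Mid.Consts
import Vale.Agent.P162.Mid.SumWp
import Vale.Agent.P162.Mid.SumWcSize
import Vale.Agent.P162.Mid.SumWc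
import Vale.Agent.P162.Mid.WpGlue
import Vale.Agent.P162.Mid.SliceZ
import Vale.Agent.P162.Mid.SumWpRight
import Vale.Agent.P162.Mid.BLEven
import Vale.Agent.P162.Mid.SumW3
import Vale.Agent.P162.Mid.SumW3Right
import Vale.Agent.P162.Mid.SumW3Agr
import Vale.Agent.P162.Mid.W3Glue
import Vale.Agent.P162.Mid.SliceT
import Vale.Agent.P162.Mid.ZcBasic

namespace Vale.Agent.P162.Mid
open Finset

/-- two exactly independent copies: the constant `1/2` for every size (`half_abs`) -/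
theorem TOK_half (M : ℕ) : TOK M (1 / 2) := by
  refine ⟨by norm_num, fun S _ _ hS => ?_⟩
  exact half_abs (W3 S) (Wt S) (W3_nonneg S) (Wt_nonneg S)
    (fun T => if 2 * T.card = Fintype.card S then (1 : ℝ) else 0)
    (fun T => if 2 * T.card = Fintype.card S then (1 : ℝ) else 0)
    (fun T => by split_ifs <;> norm_num) (fun T => by split_ifs <;> norm_num)
    (fun T1 T2 => sum_W3 S T1 T2) (cT M) (cT_pos M)
    (fun σ T1 => sum_W3_right S M hS σ T1) (fun σ T2 => sum_W3_left S M hS σ T2)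

theorem sc_nonneg (M : ℕ) : 0 ≤ sc M := by
  exact Real.sInf_nonneg (fun η h => h.1)

theorem sc_le (M : ℕ) (η : ℝ) (h : TOK M η) : sc M ≤ η := by
  exact csInf_le ⟨0, fun η h => h.1⟩ h

theorem sc_le_half (M : ℕ) : sc M ≤ 1 / 2 := by
  exact sc_le M (1 / 2) (TOK_half M)

theorem TOK_sc (M : ℕ) : TOK M (sc M) := by
  exact ⟨sc_nonneg M, fun S _ _ hS => SDPIw_sInf (Wt S) (Wt_nonneg S) {η | TOK M η}
    ⟨1 / 2, TOK_half M⟩ (fun η h => ⟨h.1, h.2 S hS⟩)⟩

theorem TOK_mono (M : ℕ) {η η' : ℝ} (h : η ≤ η') (hs : TOK M η) : TOK M η' := by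
  exact ⟨le_trans hs.1 h, fun S _ _ hS => SDPIw_mono (Wt S) (Wt_nonneg S) h (hs.2 S hS)⟩

end Vale.Agent.P162.Mid
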