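import Vale.Agent.P162.Mid.Defs
import Vale.Agent.P162.KL.SizeLaws
import Vale.Agent.P162.KL.BL
import Vale.Agent.P162.KL.PairLaw
import Vale.Agent.P162.Scalar.Harmonic
import Vale.Agent.P162.Mid.KlwNonneg
import Vale.Agent.P162.Mid.KlwChain
import Vale.Agent.P162.Mid.KlwChainMap
import Vale.Agent.P162.Mid.KlwMapLe
import Vale.Agent.P162.Mid.KlwSmul
import Vale.Agent.P162.Mid.KlwSumLe
import Vale.Agent.P162.Mid.KlwMonoWeight
import Vale.Agent.P162.Mid.KlwSuper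
import Vale.Agent.P162.Mid.SdpiBasic
import Vale.Agent.P162.Mid.ChainIO
import Vale.Agent.P162.Mid.SdpiOne
import Vale.Agent.P162.Mid.ChainPart
import Vale.Agent.P162.Mid.SdpiEmbed
import Vale.Agent.P162.Mid.SdpiTensor
import Vale.Agent.P162.Mid.SdpiLift
import Vale.Agent.P162.Mid.SdpiReweight
import Vale.Agent.P162.Mid.OutSplit
import Vale.Agent.P162.Mid.Bridge
import Vale.Agent.P162.Mid.StepZAbs
import Vale.Agent.P162.Mid.HalfAbs
import Vale.Agent.P162.Mid.StepTAbs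
import Vale.Agent.P162.Mid.GlueP
import Vale.Agent.P162.Mid.GlueS
import Vale.Agent.P162.Mid.GlueC
import Vale.Agent.P162.Mid.Trv0
import Vale.Agent.P162.Mid.SumTrv
import Vale.Agent.P162.Mid.SumClo
import Vale.Agent.P162.Mid.CountMT
import Vale.Agent.P162.Mid.CardIsM
import Vale.Agent.P162.Mid.DmFormula
import Vale.Agent.P162.Mid.CountClo
import Vale.Agent.P162.Mid.CountClo2
import Vale.Agent.P162.Mid.CountTrv2
import Vale.Agent.P162.Mid.Consts
import Vale.Agent.P162.Mid.SumWp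
import Vale.Agent.P162.Mid.SumWcSize
import Vale.Agent.P162.Mid.SumWc
import Vale.Agent.P162.Mid.WpGlue
import Vale.Agent.P162.Mid.SliceZ
import Vale.Agent.P162.Mid.SumWpRight
import Vale.Agent.P162.Mid.BLEven
import Vale.Agent.P162.Mid.SumW3
import Vale.Agent.P162.Mid.SumW3Right
import Vale.Agent.P162.Mid.SumW3Agr
import Vale.Agent.P162.Mid.W3Glue
import Vale.Agent.P162.Mid.SliceT
import Vale.Agent.P162.Mid.ZcBasic
import Vale.Agent.P162.Mid.ScBasic

namespace Vale.Agent.P162.Mid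
open Finset

open Classical in
/-- subsets whose half size is outside the window `[2M/5, 3M/5]` -/
noncomputable def badS (S : Type*) [Fintype S] [DecidableEq S] (M : ℕ) : Finset (Finset S) :=
  Finset.univ.filter (fun y : Finset S =>
    ¬ ((2 / 5 : ℝ) * M ≤ (y.card : ℝ) / 2 ∧ (y.card : ℝ) / 2 ≤ (3 / 5 : ℝ) * M))

open Classical in
/-- half sizes outside the window -/
noncomputable def badA (M : ℕ) : Finset ℕ :=
  (range (M + 1)).filter (fun a : ℕ => ¬ ((2 / 5 : ℝ) * M ≤ (a : ℝ) ∧ (a : ℝ) ≤ (3 / 5 : ℝ) * M))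

theorem badA_eq_tail (M : ℕ) : badA M =
    (range (M + 1)).filter (fun a : ℕ => (1 / 10 : ℝ) * (M : ℝ) < |(a : ℝ) - (M : ℝ) / 2|) := by
  ext a
  simp only [badA, mem_filter, mem_range]
  refine and_congr_right fun _ => ?_
  rw [lt_abs, not_and_or, not_le, not_le]
  constructor
  · rintro (h | h)
    · right
      linarith
    · left
      linarith
  · rintro (h | h)
    · right
      linarith
    · left
      linarith

theorem sum_pu_bad (M : ℕ) (hM : 2 ≤ M) : ∑ a ∈ badA M, pu M a ≤ (25 / 2) / (M : ℝ) := by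
  rw [badA_eq_tail]
  have hM0 : (0 : ℝ) < M := by exact_mod_cast (by omega : 0 < M)
  refine (pu_tail hM (dl := 1 / 10) (by norm_num)).trans (le_of_eq ?_)
  field_simp
  norm_num

theorem sum_pH_bad (M : ℕ) (hM : 2 ≤ M) : ∑ a ∈ badA M, pH M a ≤ 25 / (M : ℝ) := by
  rw [badA_eq_tail]
  have hM0 : (0 : ℝ) < M := by exact_mod_cast (by omega : 0 < M)
  refine (pH_tail hM (dl := 1 / 10) (by norm_num)).trans (le_of_eq ?_)
  field_simp
  norm_num

theorem sum_pH_bad_le_one (M : ℕ) : ∑ a ∈ badA M, pH M a ≤ 1 := by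
  rw [← sum_pH M]
  exact Finset.sum_le_sum_of_subset_of_nonneg (Finset.filter_subset _ _)
    (fun a _ _ => pH_nonneg M a)

/-- sums over `badS` of functions of the cardinality, through `sum_Wc_size` -/
theorem sum_bad_Wc (S : Type*) [Fintype S] [DecidableEq S] (M : ℕ)
    (hM : Fintype.card S = 2 * M) (σ : Equiv.Perm S) (hσ : IsM σ) (F : ℕ → ℝ) :
    ∑ z ∈ badS S M, F z.card * Wc S σ z =
      ∑ a ∈ badA M, F (2 * a) * (((2 * M).choose (2 * a) : ℝ) / dm (2 * M)) := by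
  classical
  have h := sum_Wc_size S M hM σ hσ (fun k : ℕ =>
    if ¬ ((2 / 5 : ℝ) * M ≤ (k : ℝ) / 2 ∧ (k : ℝ) / 2 ≤ (3 / 5 : ℝ) * M) then F k else 0)
  have e1 : ∑ z ∈ badS S M, F z.card * Wc S σ z = ∑ z : Finset S,
      (if ¬ ((2 / 5 : ℝ) * M ≤ (z.card : ℝ) / 2 ∧ (z.card : ℝ) / 2 ≤ (3 / 5 : ℝ) * M) then F z.card
        else 0) * Wc S σ z := by
    unfold badS
    rw [Finset.sum_filter]
    refine Finset.sum_congr rfl fun z _ => ?_
    by_cases hz : ¬ ((2 / 5 : ℝ) * M ≤ (z.card : ℝ) / 2 ∧ (z.card : ℝ) / 2 ≤ (3 / 5 : ℝ) * M)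
    · rw [if_pos hz, if_pos hz]
    · rw [if_neg hz, if_neg hz, zero_mul]
  have e2 : ∑ a ∈ badA M, F (2 * a) * (((2 * M).choose (2 * a) : ℝ) / dm (2 * M)) =
      ∑ a ∈ range (M + 1),
        (if ¬ ((2 / 5 : ℝ) * M ≤ ((2 * a : ℕ) : ℝ) / 2 ∧ ((2 * a : ℕ) : ℝ) / 2 ≤ (3 / 5 : ℝ) * M) then
          F (2 * a) else 0) * (((2 * M).choose (2 * a) : ℝ) / dm (2 * M)) := by
    unfold badA
    rw [Finset.sum_filter]
    refine Finset.sum_congr rfl fun a _ => ?_
    have ea : ((2 * a : ℕ) : ℝ) / 2 = (a : ℝ) := by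
      push_cast
      ring
    rw [ea]
    by_cases hz : ¬ ((2 / 5 : ℝ) * M ≤ (a : ℝ) ∧ (a : ℝ) ≤ (3 / 5 : ℝ) * M)
    · rw [if_pos hz, if_pos hz]
    · rw [if_neg hz, if_neg hz, zero_mul]
  rw [e1, e2]
  exact h

end Vale.Agent.P162.Mid
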