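import Vale.Agent.P162.Mid.Defs
import Vale.Agent.P162.KL.SizeLaws
import Vale.Agent.P162.KL.BL
import Vale.Agent.P162.KL.PairLaw
import Vale.Agent.P162.Scalar.Harmonic
import Vale.Agent.P162.Mid.KlwNonneg
import Vale.Agent.P162.Mid.KlwChain
import Vale.Agent.P162.Mid.KlwChainMap
import Vale.Agent.P162.Mid.KlwMapLe
import Vale.Agent.P162.Mid.KlwSmul
import Vale.Agent.P162.Mid.KlwSumLe
import Vale.Agent.P162.Mid.KlwMonoWeight
import Vale.Agent.P162.Mid.KlwSuper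
import Vale.Agent.P162.Mid.SdpiBasic
import Vale.Agent.P162.Mid.ChainIO
import Vale.Agent.P162.Mid.SdpiOne
import Vale.Agent.P162.Mid.ChainPart
import Vale.Agent.P162.Mid.SdpiEmbed
import Vale.Agent.P162.Mid.SdpiTensor
import Vale.Agent.P162.Mid.SdpiLift
import Vale.Agent.P162.Mid.SdpiReweight
import Vale.Agent.P162.Mid.OutSplit
import Vale.Agent.P162.Mid.Bridge
import Vale.Agent.P162.Mid.StepZAbs
import Vale.Agent.P162.Mid.HalfAbs
import Vale.Agent.P162.Mid.StepTAbs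
import Vale.Agent.P162.Mid.GlueP
import Vale.Agent.P162.Mid.GlueS
import Vale.Agent.P162.Mid.GlueC
import Vale.Agent.P162.Mid.Trv0
import Vale.Agent.P162.Mid.SumTrv
import Vale.Agent.P162.Mid.SumClo
import Vale.Agent.P162.Mid.CountMT
import Vale.Agent.P162.Mid.CardIsM
import Vale.Agent.P162.Mid.DmFormula
import Vale.Agent.P162.Mid.CountClo
import Vale.Agent.P162.Mid.CountClo2
import Vale.Agent.P162.Mid.CountTrv2
import Vale.Agent.P162.Mid.Consts
import Vale.Agent.P162.Mid.SumWp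
import Vale.Agent.P162.Mid.SumWcSize
import Vale.Agent.P162.Mid.SumWc
import Vale.Agent.P162.Mid.WpGlue
import Vale.Agent.P162.Mid.SliceZ
import Vale.Agent.P162.Mid.SumWpRight
import Vale.Agent.P162.Mid.BLEven
import Vale.Agent.P162.Mid.SumW3
import Vale.Agent.P162.Mid.SumW3Right
import Vale.Agent.P162.Mid.SumW3Agr
import Vale.Agent.P162.Mid.W3Glue
import Vale.Agent.P162.Mid.SliceT
import Vale.Agent.P162.Mid.ZcBasic
import Vale.Agent.P162.Mid.ScBasic
import Vale.Agent.P162.Mid.Bad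

namespace Vale.Agent.P162.Mid
open Finset

private theorem zw6_wtZ_eq (N k : ℕ) (hN : 2 ≤ N) (hk : k ≤ N) :
    wtZ N k = (2 : ℝ) ^ (N - 2) + (if k = 0 ∨ k = N then (2 : ℝ) ^ (N - 2) else 0) := by
  obtain ⟨n, rfl⟩ : ∃ n, N = n + 2 := ⟨N - 2, by omega⟩
  have e0 : n + 2 - 2 = n := by omega
  rw [e0]
  unfold wtZ ee
  by_cases h0 : k = 0
  · subst h0
    have e1 : n + 2 - 0 - 1 = n + 1 := by omega
    have e2 : ¬ (n + 2 - 0 = 0) := by omega
    rw [if_pos rfl, if_neg e2, e1, if_pos (Or.inl rfl), pow_succ]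
    ring
  · by_cases hN' : k = n + 2
    · subst hN'
      have e1 : n + 2 - 1 = n + 1 := by omega
      have e2 : n + 2 - (n + 2) = 0 := by omega
      rw [if_neg h0, if_pos e2, e1, if_pos (Or.inr rfl), pow_succ]
      ring
    · have e2 : ¬ (n + 2 - k = 0) := by omega
      have e3 : ¬ (k = 0 ∨ k = n + 2) := by omega
      have e4 : (k - 1) + (n + 2 - k - 1) = n := by omega
      rw [if_neg h0, if_neg e2, if_neg e3, ← pow_add, e4, add_zero]

theorem wtZ_ge (N k : ℕ) (hN : 2 ≤ N) (hk : k ≤ N) : (2 : ℝ) ^ (N - 2) ≤ wtZ N k := by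
  rw [zw6_wtZ_eq N k hN hk]
  have h : (0 : ℝ) ≤ (if k = 0 ∨ k = N then (2 : ℝ) ^ (N - 2) else 0) := by
    split_ifs
    · positivity
    · exact le_rfl
  linarith

theorem wtZ_le (N k : ℕ) (hN : 2 ≤ N) (hk : k ≤ N) : wtZ N k ≤ (2 : ℝ) ^ (N - 1) := by
  rw [zw6_wtZ_eq N k hN hk]
  have e : N - 1 = (N - 2) + 1 := by omega
  have hp : (0 : ℝ) ≤ (2 : ℝ) ^ (N - 2) := by positivity
  have h : (if k = 0 ∨ k = N then (2 : ℝ) ^ (N - 2) else 0) ≤ (2 : ℝ) ^ (N - 2) := by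
    split_ifs
    · exact le_rfl
    · exact hp
  rw [e, pow_succ]
  linarith

private theorem zw6_sum_ends (m : ℕ) (g : ℕ → ℝ) :
    ∑ a ∈ range (m + 1 + 1), (if 2 * a = 0 ∨ 2 * a = 2 * (m + 1) then g a else 0) =
      g 0 + g (m + 1) := by
  rw [Finset.sum_range_succ, Finset.sum_range_succ']
  have h : ∑ a ∈ range m, (if 2 * (a + 1) = 0 ∨ 2 * (a + 1) = 2 * (m + 1) then g (a + 1) else 0)
      = 0 := by
    apply Finset.sum_eq_zero
    intro a ha
    rw [Finset.mem_range] at ha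
    rw [if_neg (by omega)]
  rw [h, if_pos (Or.inl rfl), if_pos (Or.inr rfl), zero_add]

/-- (AZ-b) -/
theorem wtZ_kappa (S : Type*) [Fintype S] [DecidableEq S] (M : ℕ) (hM1 : 1 ≤ M)
    (hM : Fintype.card S = 2 * M) (σ : Equiv.Perm S) :
    ∑ y, wtZ (Fintype.card S) y.card * Wc S σ y ≤
      ((2 : ℝ) ^ (2 * M - 2) + 1) * ∑ y, Wc S σ y := by
  by_cases hσ : IsM σ
  swap
  · simp [Wc_not_isM S σ hσ]
  rw [hM]
  obtain ⟨m, rfl⟩ : ∃ m, M = m + 1 := ⟨M - 1, by omega⟩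
  have h1 := sum_Wc_size S (m + 1) hM σ hσ (fun k => wtZ (2 * (m + 1)) k)
  have h2 := sum_Wc_size S (m + 1) hM σ hσ (fun _ => 1)
  simp only [one_mul] at h2
  rw [h1, h2]
  have hd : 0 < dm (2 * (m + 1)) := dm_pos (m + 1)
  have hc := Vale.Agent.P162.sum_choose_even (M := m + 1) (by omega)
  have e1 : ∑ a ∈ range (m + 1 + 1), wtZ (2 * (m + 1)) (2 * a) *
        (((2 * (m + 1)).choose (2 * a) : ℝ) / dm (2 * (m + 1))) =
      (∑ a ∈ range (m + 1 + 1), wtZ (2 * (m + 1)) (2 * a) *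
        ((2 * (m + 1)).choose (2 * a) : ℝ)) / dm (2 * (m + 1)) := by
    rw [Finset.sum_div]
    exact Finset.sum_congr rfl fun a _ => by ring
  rw [e1, ← Finset.sum_div, hc, ← mul_div_assoc]
  apply div_le_div_of_nonneg_right _ hd.le
  have e3 : ∀ a ∈ range (m + 1 + 1), wtZ (2 * (m + 1)) (2 * a) *
        ((2 * (m + 1)).choose (2 * a) : ℝ) =
      (2 : ℝ) ^ (2 * (m + 1) - 2) * ((2 * (m + 1)).choose (2 * a) : ℝ) +
        (if 2 * a = 0 ∨ 2 * a = 2 * (m + 1) then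
          (2 : ℝ) ^ (2 * (m + 1) - 2) * ((2 * (m + 1)).choose (2 * a) : ℝ) else 0) := by
    intro a ha
    rw [Finset.mem_range] at ha
    rw [zw6_wtZ_eq _ _ (by omega) (by omega)]
    split_ifs <;> ring
  rw [Finset.sum_congr rfl e3, Finset.sum_add_distrib, ← Finset.mul_sum, hc,
    zw6_sum_ends m (fun a => (2 : ℝ) ^ (2 * (m + 1) - 2) * ((2 * (m + 1)).choose (2 * a) : ℝ))]
  have e4 : 2 * (m + 1) - 1 = (2 * (m + 1) - 2) + 1 := by omega
  simp only [mul_zero, Nat.choose_zero_right, Nat.choose_self, Nat.cast_one, mul_one]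
  rw [e4, pow_succ]
  apply le_of_eq
  ring

end Vale.Agent.P162.Mid
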