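import Vale.Agent.P162.Mid.Defs
import Vale.Agent.P162.KL.SizeLaws
import Vale.Agent.P162.KL.BL
import Vale.Agent.P162.KL.PairLaw
import Vale.Agent.P162.Scalar.Harmonic
import Vale.Agent.P162.Mid.KlwNonneg
import Vale.Agent.P162.Mid.KlwChain
import Vale.Agent.P162.Mid.KlwChainMap
import Vale.Agent.P162.Mid.KlwMapLe
import Vale.Agent.P162.Mid.KlwSmul
import Vale.Agent.P162.Mid.KlwSumLe
import Vale.Agent.P162.Mid.KlwMonoWeight
import Vale.Agent.P162.Mid.KlwSuper
import Vale.Agent.P162.Mid.SdpiBasic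
import Vale.Agent.P162.Mid.ChainIO
import Vale.Agent.P162.Mid.SdpiOne
import Vale.Agent.P162.Mid.ChainPart
import Vale.Agent.P162.Mid.SdpiEmbed
import Vale.Agent.P162.Mid.SdpiTensor
import Vale.Agent.P162.Mid.SdpiLift
import Vale.Agent.P162.Mid.SdpiReweight
import Vale.Agent.P162.Mid.OutSplit
import Vale.Agent.P162.Mid.Bridge
import Vale.Agent.P162.Mid.StepZAbs
import Vale.Agent.P162.Mid.HalfAbs
import Vale.Agent.P162.Mid.StepTAbs
import Vale.Agent.P162.Mid.GlueP
import Vale.Agent.P162.Mid.GlueS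
import Vale.Agent.P162.Mid.GlueC
import Vale.Agent.P162.Mid.Trv0
import Vale.Agent.P162.Mid.SumTrv
import Vale.Agent.P162.Mid.SumClo
import Vale.Agent.P162.Mid.CountMT
import Vale.Agent.P162.Mid.CardIsM
import Vale.Agent.P162.Mid.DmFormula
import Vale.Agent.P162.Mid.CountClo
import Vale.Agent.P162.Mid.CountClo2
import Vale.Agent.P162.Mid.CountTrv2
import Vale.Agent.P162.Mid.Consts
import Vale.Agent.P162.Mid.SumWp
import Vale.Agent.P162.Mid.SumWcSize
import Vale.Agent.P162.Mid.SumWc
import Vale.Agent.P162.Mid.WpGlue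
import Vale.Agent.P162.Mid.SliceZ
import Vale.Agent.P162.Mid.SumWpRight
import Vale.Agent.P162.Mid.BLEven
import Vale.Agent.P162.Mid.SumW3
import Vale.Agent.P162.Mid.SumW3Right
import Vale.Agent.P162.Mid.SumW3Agr
import Vale.Agent.P162.Mid.W3Glue
import Vale.Agent.P162.Mid.SliceT
import Vale.Agent.P162.Mid.ZcBasic
import Vale.Agent.P162.Mid.ScBasic
import Vale.Agent.P162.Mid.Bad
import Vale.Agent.P162.Mid.ZWeights

namespace Vale.Agent.P162.Mid
open Finset

/-- (AZ-c) -/
theorem wtZ_bad (S : Type*) [Fintype S] [DecidableEq S] (M : ℕ) (hM1 : 2 ≤ M)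
    (hM : Fintype.card S = 2 * M) (σ : Equiv.Perm S) :
    ∑ y ∈ badS S M, wtZ (Fintype.card S) y.card * Wc S σ y ≤
      (25 / (M : ℝ)) * ∑ y, wtZ (Fintype.card S) y.card * Wc S σ y := by
  by_cases hσ : IsM σ
  · have hMpos : (0 : ℝ) < M := by
      have : 0 < M := by omega
      exact_mod_cast this
    have hN : 2 ≤ Fintype.card S := by omega
    have hdm : 0 < dm (2 * M) := dm_pos M
    obtain ⟨P, hP⟩ : ∃ P : ℝ, P = (2 : ℝ) ^ (2 * M - 2) := ⟨_, rfl⟩
    have hPpos : 0 < P := by rw [hP]; positivity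
    have h21 : (2 : ℝ) ^ (2 * M - 1) = 2 * P := by
      rw [hP, ← pow_succ']
      congr 1
      omega
    -- upper bound of the left side
    have hL : ∑ y ∈ badS S M, wtZ (Fintype.card S) y.card * Wc S σ y ≤
        2 * P * ∑ y ∈ badS S M, Wc S σ y := by
      rw [Finset.mul_sum]
      refine Finset.sum_le_sum (fun y _ => ?_)
      refine mul_le_mul_of_nonneg_right ?_ (Wc_nonneg S σ y)
      have := wtZ_le (Fintype.card S) y.card hN (Finset.card_le_univ y)
      rw [hM, h21] at this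
      rw [hM]
      exact this
    have hB := sum_bad_Wc S M hM σ hσ (fun _ => 1)
    simp only [one_mul] at hB
    have hB2 : ∑ a ∈ badA M, (((2 * M).choose (2 * a) : ℝ) / dm (2 * M)) =
        (∑ a ∈ badA M, pu M a) * (2 * P / dm (2 * M)) := by
      rw [Finset.sum_mul]
      refine Finset.sum_congr rfl (fun a _ => ?_)
      unfold pu
      rw [h21]
      field_simp
    have hpu := sum_pu_bad M hM1
    -- lower bound of the right side
    have hR : P * ∑ y, Wc S σ y ≤ ∑ y, wtZ (Fintype.card S) y.card * Wc S σ y := by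
      rw [Finset.mul_sum]
      refine Finset.sum_le_sum (fun y _ => ?_)
      refine mul_le_mul_of_nonneg_right ?_ (Wc_nonneg S σ y)
      have := wtZ_ge (Fintype.card S) y.card hN (Finset.card_le_univ y)
      rw [hM, ← hP] at this
      rw [hM]
      exact this
    have hW := sum_Wc S σ hσ
    have hee : ee (Fintype.card S) = 2 * P := by
      unfold ee
      rw [if_neg (by omega), hM, h21]
    rw [hee, hM] at hW
    have hq : 0 ≤ 2 * P / dm (2 * M) := by positivity
    calc ∑ y ∈ badS S M, wtZ (Fintype.card S) y.card * Wc S σ y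
        ≤ 2 * P * ∑ y ∈ badS S M, Wc S σ y := hL
      _ = 2 * P * ((∑ a ∈ badA M, pu M a) * (2 * P / dm (2 * M))) := by rw [hB, hB2]
      _ ≤ 2 * P * ((25 / 2) / (M : ℝ) * (2 * P / dm (2 * M))) := by
          refine mul_le_mul_of_nonneg_left ?_ (by positivity)
          exact mul_le_mul_of_nonneg_right hpu hq
      _ = (25 / (M : ℝ)) * (P * ∑ y, Wc S σ y) := by
          rw [hW]
          ring
      _ ≤ (25 / (M : ℝ)) * ∑ y, wtZ (Fintype.card S) y.card * Wc S σ y :=
          mul_le_mul_of_nonneg_left hR (by positivity)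
  · simp only [Wc_not_isM S σ hσ, mul_zero, Finset.sum_const_zero]
    exact le_rfl

end Vale.Agent.P162.Mid
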