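import Vale.Agent.P162.Mid.Defs
import Vale.Agent.P162.KL.SizeLaws
import Vale.Agent.P162.KL.BL
import Vale.Agent.P162.KL.PairLaw
import Vale.Agent.P162.Scalar.Harmonic
import Vale.Agent.P162.Mid.KlwNonneg
import Vale.Agent.P162.Mid.KlwChain
import Vale.Agent.P162.Mid.KlwChainMap
import Vale.Agent.P162.Mid.KlwMapLe
import Vale.Agent.P162.Mid.KlwSmul
import Vale.Agent.P162.Mid.KlwSumLe
import Vale.Agent.P162.Mid.KlwMonoWeight
import Vale.Agent.P162.Mid.KlwSuper
import Vale.Agent.P162.Mid.SdpiBasic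
import Vale.Agent.P162.Mid.ChainIO
import Vale.Agent.P162.Mid.SdpiOne
import Vale.Agent.P162.Mid.ChainPart
import Vale.Agent.P162.Mid.SdpiEmbed
import Vale.Agent.P162.Mid.SdpiTensor
import Vale.Agent.P162.Mid.SdpiLift
import Vale.Agent.P162.Mid.SdpiReweight
import Vale.Agent.P162.Mid.OutSplit
import Vale.Agent.P162.Mid.Bridge
import Vale.Agent.P162.Mid.StepZAbs
import Vale.Agent.P162.Mid.HalfAbs
import Vale.Agent.P162.Mid.StepTAbs
import Vale.Agent.P162.Mid.GlueP
import Vale.Agent.P162.Mid.GlueS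
import Vale.Agent.P162.Mid.GlueC
import Vale.Agent.P162.Mid.Trv0
import Vale.Agent.P162.Mid.SumTrv
import Vale.Agent.P162.Mid.SumClo
import Vale.Agent.P162.Mid.CountMT
import Vale.Agent.P162.Mid.CardIsM
import Vale.Agent.P162.Mid.DmFormula
import Vale.Agent.P162.Mid.CountClo
import Vale.Agent.P162.Mid.CountClo2
import Vale.Agent.P162.Mid.CountTrv2
import Vale.Agent.P162.Mid.Consts
import Vale.Agent.P162.Mid.SumWp
import Vale.Agent.P162.Mid.SumWcSize
import Vale.Agent.P162.Mid.SumWc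
import Vale.Agent.P162.Mid.WpGlue
import Vale.Agent.P162.Mid.SliceZ
import Vale.Agent.P162.Mid.SumWpRight
import Vale.Agent.P162.Mid.BLEven
import Vale.Agent.P162.Mid.SumW3
import Vale.Agent.P162.Mid.SumW3Right
import Vale.Agent.P162.Mid.SumW3Agr
import Vale.Agent.P162.Mid.W3Glue
import Vale.Agent.P162.Mid.SliceT
import Vale.Agent.P162.Mid.ZcBasic
import Vale.Agent.P162.Mid.ScBasic
import Vale.Agent.P162.Mid.Bad
import Vale.Agent.P162.Mid.ZWeights
import Vale.Agent.P162.Mid.ZBad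

namespace Vale.Agent.P162.Mid
open Finset

/-- (AZ-d) -/
theorem slice_Z_good (S : Type) [Fintype S] [DecidableEq S] (M : ℕ)
    (hM : Fintype.card S = 2 * M) (g : ℝ) (hg : 0 ≤ g)
    (hwin : ∀ n : ℕ, (2 / 5 : ℝ) * M ≤ n → (n : ℝ) ≤ (1 - 2 / 5) * M → zc n ≤ g)
    (y1 : Finset S) (hy : y1 ∉ badS S M) : SDPIw (fun σ y2 => Wp S σ (y1, y2)) g := by
  classical
  by_cases hev : Even y1.card
  · obtain ⟨n, hn⟩ := hev
    have hn2 : y1.card = 2 * n := by omega
    -- the window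
    have hw : (2 / 5 : ℝ) * M ≤ (y1.card : ℝ) / 2 ∧ (y1.card : ℝ) / 2 ≤ (3 / 5 : ℝ) * M := by
      by_contra hcon
      apply hy
      unfold badS
      rw [Finset.mem_filter]
      exact ⟨Finset.mem_univ _, hcon⟩
    have hcast : (y1.card : ℝ) / 2 = (n : ℝ) := by
      rw [hn2]
      push_cast
      ring
    rw [hcast] at hw
    obtain ⟨hw1, hw2⟩ := hw
    have hMn : n ≤ M := by
      have hle : y1.card ≤ Fintype.card S := Finset.card_le_univ y1
      omega
    have hcastM : ((M - n : ℕ) : ℝ) = (M : ℝ) - (n : ℝ) := by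
      rw [Nat.cast_sub hMn]
    have hz1 : zc n ≤ g := by
      apply hwin n hw1
      linarith
    have hz2 : zc (M - n) ≤ g := by
      apply hwin (M - n)
      · rw [hcastM]
        linarith
      · rw [hcastM]
        linarith
    have hc1 : Fintype.card {a // a ∈ y1} = 2 * n := by
      rw [card_sub_mem, hn2]
    have hc2 : Fintype.card {a // ¬ a ∈ y1} = 2 * (M - n) := by
      rw [card_sub_not_mem, hn2, hM]
      omega
    have h1 : SDPIw (Wc {a // a ∈ y1}) g :=
      SDPIw_mono _ (Wc_nonneg _) hz1 ((ZOK_zc n).2 {a // a ∈ y1} hc1)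
    have h2 : SDPIw (Wc {a // ¬ a ∈ y1}) g :=
      SDPIw_mono _ (Wc_nonneg _) hz2 ((ZOK_zc (M - n)).2 {a // ¬ a ∈ y1} hc2)
    exact slice_Z y1 g hg h1 h2
  · apply SDPIw_zero
    intro σ y2
    unfold Wp
    rw [if_neg]
    rintro ⟨hσ, hc, _⟩
    exact hev (clo_even σ hσ y1 hc)

end Vale.Agent.P162.Mid
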