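import Vale.Agent.P162.Mid.Defs
import Vale.Agent.P162.KL.SizeLaws
import Vale.Agent.P162.KL.BL
import Vale.Agent.P162.KL.PairLaw
import Vale.Agent.P162.Scalar.Harmonic
import Vale.Agent.P162.Mid.KlwNonneg
import Vale.Agent.P162.Mid.KlwChain
import Vale.Agent.P162.Mid.KlwChainMap
import Vale.Agent.P162.Mid.KlwMapLe
import Vale.Agent.P162.Mid.KlwSmul
import Vale.Agent.P162.Mid.KlwSumLe
import Vale.Agent.P162.Mid.KlwMonoWeight
import Vale.Agent.P162.Mid.KlwSuper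
import Vale.Agent.P162.Mid.SdpiBasic
import Vale.Agent.P162.Mid.ChainIO
import Vale.Agent.P162.Mid.SdpiOne
import Vale.Agent.P162.Mid.ChainPart
import Vale.Agent.P162.Mid.SdpiEmbed
import Vale.Agent.P162.Mid.SdpiTensor
import Vale.Agent.P162.Mid.SdpiLift
import Vale.Agent.P162.Mid.SdpiReweight
import Vale.Agent.P162.Mid.OutSplit
import Vale.Agent.P162.Mid.Bridge
import Vale.Agent.P162.Mid.StepZAbs
import Vale.Agent.P162.Mid.HalfAbs
import Vale.Agent.P162.Mid.StepTAbs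
import Vale.Agent.P162.Mid.GlueP
import Vale.Agent.P162.Mid.GlueS
import Vale.Agent.P162.Mid.GlueC
import Vale.Agent.P162.Mid.Trv0
import Vale.Agent.P162.Mid.SumTrv
import Vale.Agent.P162.Mid.SumClo
import Vale.Agent.P162.Mid.CountMT
import Vale.Agent.P162.Mid.CardIsM
import Vale.Agent.P162.Mid.DmFormula
import Vale.Agent.P162.Mid.CountClo
import Vale.Agent.P162.Mid.CountClo2
import Vale.Agent.P162.Mid.CountTrv2
import Vale.Agent.P162.Mid.Consts
import Vale.Agent.P162.Mid.SumWp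
import Vale.Agent.P162.Mid.SumWcSize
import Vale.Agent.P162.Mid.SumWc
import Vale.Agent.P162.Mid.WpGlue
import Vale.Agent.P162.Mid.SliceZ
import Vale.Agent.P162.Mid.SumWpRight
import Vale.Agent.P162.Mid.BLEven
import Vale.Agent.P162.Mid.SumW3
import Vale.Agent.P162.Mid.SumW3Right
import Vale.Agent.P162.Mid.SumW3Agr
import Vale.Agent.P162.Mid.W3Glue
import Vale.Agent.P162.Mid.SliceT
import Vale.Agent.P162.Mid.ZcBasic
import Vale.Agent.P162.Mid.ScBasic
import Vale.Agent.P162.Mid.Bad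
import Vale.Agent.P162.Mid.ZWeights
import Vale.Agent.P162.Mid.ZBad
import Vale.Agent.P162.Mid.ZGood

namespace Vale.Agent.P162.Mid
open Finset

/-- (AZ1) STEP Z on a concrete type -/
theorem stepZ_sdpi (K0 : ℝ) (S : Type) [Fintype S] [DecidableEq S] (M : ℕ) (hM2 : 2 ≤ M)
    (hM : Fintype.card S = 2 * M)
    (hBL : ∀ Q : Finset S × Finset S → ℝ, (∀ p, 0 ≤ Q p) → (∀ p, RS S p = 0 → Q p = 0) →
      (1 - K0 / (Fintype.card S : ℝ)) *
        (klw (fun y1 => ∑ y2, Q (y1, y2)) (fun y1 => ∑ y2, RS S (y1, y2)) +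
          klw (fun y2 => ∑ y1, Q (y1, y2)) (fun y2 => ∑ y1, RS S (y1, y2))) ≤ klw Q (RS S))
    (g : ℝ) (hg : 0 ≤ g)
    (hwin : ∀ n : ℕ, (2 / 5 : ℝ) * M ≤ n → (n : ℝ) ≤ (1 - 2 / 5) * M → zc n ≤ g)
    (hpos : 0 < 1 - 2 * (K0 / (Fintype.card S : ℝ)) + g) :
    SDPIw (Wc S) (((2 : ℝ) ^ (2 * M - 2) + 1) / (2 : ℝ) ^ (2 * M - 2) *
      ((g + 25 / (M : ℝ)) / (1 - 2 * (K0 / (Fintype.card S : ℝ)) + g))) := by
  have hN : Even (Fintype.card S) := by rw [hM]; exact even_two_mul M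
  have hwt : ∀ y : Finset S, (2 : ℝ) ^ (2 * M - 2) ≤ wtZ (Fintype.card S) y.card := by
    intro y
    have h := wtZ_ge (Fintype.card S) y.card (by omega) (Finset.card_le_univ y)
    rw [hM] at h ⊢
    exact h
  exact stepZ_abs (Wp S) (Wc S) (Wp_nonneg S) (Wc_nonneg S) (Wp_symm S) (RS S) (sum_Wp S hN)
    (K0 / (Fintype.card S : ℝ)) hBL (fun y => wtZ (Fintype.card S) y.card) (sum_Wp_right S)
    ((2 : ℝ) ^ (2 * M - 2)) ((2 : ℝ) ^ (2 * M - 2) + 1) (by positivity) hwt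
    (wtZ_kappa S M (by omega) hM) (badS S M) (25 / (M : ℝ)) (by positivity)
    (wtZ_bad S M hM2 hM) g hg (slice_Z_good S M hM g hg hwin) hpos

end Vale.Agent.P162.Mid
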