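import Vale.Agent.P162.Mid.Defs
import Vale.Agent.P162.KL.SizeLaws
import Vale.Agent.P162.KL.BL
import Vale.Agent.P162.KL.PairLaw
import Vale.Agent.P162.Scalar.Harmonic
import Vale.Agent.P162.Mid.KlwNonneg
import Vale.Agent.P162.Mid.KlwChain
import Vale.Agent.P162.Mid.KlwChainMap
import Vale.Agent.P162.Mid.KlwMapLe
import Vale.Agent.P162.Mid.KlwSmul
import Vale.Agent.P162.Mid.KlwSumLe
import Vale.Agent.P162.Mid.KlwMonoWeight
import Vale.Agent.P162.Mid.KlwSuper
import Vale.Agent.P162.Mid.SdpiBasic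
import Vale.Agent.P162.Mid.ChainIO
import Vale.Agent.P162.Mid.SdpiOne
import Vale.Agent.P162.Mid.ChainPart
import Vale.Agent.P162.Mid.SdpiEmbed
import Vale.Agent.P162.Mid.SdpiTensor
import Vale.Agent.P162.Mid.SdpiLift
import Vale.Agent.P162.Mid.SdpiReweight
import Vale.Agent.P162.Mid.OutSplit
import Vale.Agent.P162.Mid.Bridge
import Vale.Agent.P162.Mid.StepZAbs
import Vale.Agent.P162.Mid.HalfAbs
import Vale.Agent.P162.Mid.StepTAbs
import Vale.Agent.P162.Mid.GlueP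
import Vale.Agent.P162.Mid.GlueS
import Vale.Agent.P162.Mid.GlueC
import Vale.Agent.P162.Mid.Trv0
import Vale.Agent.P162.Mid.SumTrv
import Vale.Agent.P162.Mid.SumClo
import Vale.Agent.P162.Mid.CountMT
import Vale.Agent.P162.Mid.CardIsM
import Vale.Agent.P162.Mid.DmFormula
import Vale.Agent.P162.Mid.CountClo
import Vale.Agent.P162.Mid.CountClo2
import Vale.Agent.P162.Mid.CountTrv2
import Vale.Agent.P162.Mid.Consts
import Vale.Agent.P162.Mid.SumWp
import Vale.Agent.P162.Mid.SumWcSize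
import Vale.Agent.P162.Mid.SumWc
import Vale.Agent.P162.Mid.WpGlue
import Vale.Agent.P162.Mid.SliceZ
import Vale.Agent.P162.Mid.SumWpRight
import Vale.Agent.P162.Mid.BLEven
import Vale.Agent.P162.Mid.SumW3
import Vale.Agent.P162.Mid.SumW3Right
import Vale.Agent.P162.Mid.SumW3Agr
import Vale.Agent.P162.Mid.W3Glue
import Vale.Agent.P162.Mid.SliceT
import Vale.Agent.P162.Mid.ZcBasic
import Vale.Agent.P162.Mid.ScBasic
import Vale.Agent.P162.Mid.Bad
import Vale.Agent.P162.Mid.ZWeights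
import Vale.Agent.P162.Mid.ZBad
import Vale.Agent.P162.Mid.ZGood
import Vale.Agent.P162.Mid.StepZSdpi

namespace Vale.Agent.P162.Mid
open Finset

/-- STEP Z in the shape of the hypothesis `hZ` of `zeta_bound` (`Scalar/Harmonic.lean`), `r = 2/5` -/
theorem stepZ_model : ∃ K : ℝ, 0 ≤ K ∧ ∃ M1 : ℕ, ∀ M : ℕ, M1 ≤ M → ∀ g : ℝ, 0 ≤ g →
    (∀ n : ℕ, (2 / 5 : ℝ) * M ≤ n → (n : ℝ) ≤ (1 - 2 / 5) * M → zc n ≤ g) →
    zc M * (1 - K / M + g) ≤ (1 + K / M) * (g + K / M) := by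
  obtain ⟨K0, hK0, N0, hBL⟩ := BL_even
  refine ⟨max K0 25, le_trans hK0 (le_max_left _ _), max (max 2 N0) (⌈max K0 25⌉₊ + 1), ?_⟩
  intro M hM1 g hg hwin
  have hM2 : 2 ≤ M := le_trans (le_trans (le_max_left _ _) (le_max_left _ _)) hM1
  have hMN : N0 ≤ M := le_trans (le_trans (le_max_right _ _) (le_max_left _ _)) hM1
  have hMK : ⌈max K0 25⌉₊ + 1 ≤ M := le_trans (le_max_right _ _) hM1
  have hMpos : (0 : ℝ) < M := by
    have : 0 < M := by omega
    exact_mod_cast this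
  have hKM : max K0 25 < (M : ℝ) := by
    have h1 : max K0 25 ≤ (⌈max K0 25⌉₊ : ℝ) := Nat.le_ceil _
    have h2 : ((⌈max K0 25⌉₊ + 1 : ℕ) : ℝ) ≤ (M : ℝ) := by exact_mod_cast hMK
    push_cast at h2
    linarith
  have hK0K : K0 ≤ max K0 25 := le_max_left _ _
  have h25K : (25 : ℝ) ≤ max K0 25 := le_max_right _ _
  set K : ℝ := max K0 25 with hKdef
  have hKdiv : K / M < 1 := by
    rw [div_lt_one hMpos]
    exact hKM
  have hK0div : K0 / M ≤ K / M := div_le_div_of_nonneg_right hK0K hMpos.le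
  have h25div : 25 / (M : ℝ) ≤ K / M := div_le_div_of_nonneg_right h25K hMpos.le
  have hden : 0 < 1 - K0 / M + g := by linarith
  have hcast : (((2 * M : ℕ)) : ℝ) = 2 * (M : ℝ) := by push_cast; ring
  have htwo : 2 * (K0 / (((2 * M : ℕ)) : ℝ)) = K0 / M := by
    rw [hcast]
    field_simp
  -- the constant delivered by STEP Z
  have hp2 : (0 : ℝ) < (2 : ℝ) ^ (2 * M - 2) := by positivity
  have hZ : ZOK M (((2 : ℝ) ^ (2 * M - 2) + 1) / (2 : ℝ) ^ (2 * M - 2) *
      ((g + 25 / (M : ℝ)) / (1 - K0 / M + g))) := by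
    refine ⟨?_, ?_⟩
    · have : 0 ≤ 25 / (M : ℝ) := by positivity
      have h3 : 0 ≤ g + 25 / (M : ℝ) := by linarith
      exact mul_nonneg (div_nonneg (by positivity) hp2.le) (div_nonneg h3 hden.le)
    · intro S _ _ hS
      have hev : Even (Fintype.card S) := by
        rw [hS]
        exact even_two_mul M
      have hN : N0 ≤ Fintype.card S := by
        rw [hS]
        omega
      have hpos : 0 < 1 - 2 * (K0 / (Fintype.card S : ℝ)) + g := by
        rw [hS, htwo]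
        exact hden
      have h := stepZ_sdpi K0 S M hM2 hS (hBL S hev hN) g hg hwin hpos
      rw [hS, htwo] at h
      exact h
  have hz := zc_le M _ hZ
  have hz0 := zc_nonneg M
  -- arithmetic
  have hpow : (M : ℝ) ≤ (2 : ℝ) ^ (2 * M - 2) := by
    have h1 : M < 2 ^ M := Nat.lt_two_pow_self
    have h2 : 2 ^ M ≤ 2 ^ (2 * M - 2) := Nat.pow_le_pow_right (by norm_num) (by omega)
    have h3 : M ≤ 2 ^ (2 * M - 2) := le_trans h1.le h2
    exact_mod_cast h3
  have hfac : ((2 : ℝ) ^ (2 * M - 2) + 1) / (2 : ℝ) ^ (2 * M - 2) ≤ 1 + K / M := by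
    have e : ((2 : ℝ) ^ (2 * M - 2) + 1) / (2 : ℝ) ^ (2 * M - 2) = 1 + 1 / (2 : ℝ) ^ (2 * M - 2) := by
      field_simp
    rw [e]
    have h1 : 1 / (2 : ℝ) ^ (2 * M - 2) ≤ 1 / (M : ℝ) := one_div_le_one_div_of_le hMpos hpow
    have h2 : 1 / (M : ℝ) ≤ K / M := div_le_div_of_nonneg_right (by linarith) hMpos.le
    linarith
  have hg25 : 0 ≤ g + 25 / (M : ℝ) := by
    have : 0 ≤ 25 / (M : ℝ) := by positivity
    linarith
  calc zc M * (1 - K / M + g) ≤ zc M * (1 - K0 / M + g) :=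
        mul_le_mul_of_nonneg_left (by linarith) hz0
    _ ≤ (((2 : ℝ) ^ (2 * M - 2) + 1) / (2 : ℝ) ^ (2 * M - 2) *
        ((g + 25 / (M : ℝ)) / (1 - K0 / M + g))) * (1 - K0 / M + g) :=
        mul_le_mul_of_nonneg_right hz hden.le
    _ = ((2 : ℝ) ^ (2 * M - 2) + 1) / (2 : ℝ) ^ (2 * M - 2) * (g + 25 / (M : ℝ)) := by
        rw [mul_assoc, div_mul_cancel₀ _ hden.ne']
    _ ≤ (1 + K / M) * (g + K / M) := by
        apply mul_le_mul hfac (by linarith) hg25
        have : 0 ≤ K / M := div_nonneg (by linarith) hMpos.le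
        linarith

end Vale.Agent.P162.Mid
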