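import Vale.Agent.P162.Mid.Defs
import Vale.Agent.P162.KL.SizeLaws
import Vale.Agent.P162.KL.BL
import Vale.Agent.P162.KL.PairLaw
import Vale.Agent.P162.Scalar.Harmonic
import Vale.Agent.P162.Mid.KlwNonneg
import Vale.Agent.P162.Mid.KlwChain
import Vale.Agent.P162.Mid.KlwChainMap
import Vale.Agent.P162.Mid.KlwMapLe
import Vale.Agent.P162.Mid.KlwSmul
import Vale.Agent.P162.Mid.KlwSumLe
import Vale.Agent.P162.Mid.KlwMonoWeight
import Vale.Agent.P162.Mid.KlwSuper
import Vale.Agent.P162.Mid.SdpiBasic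
import Vale.Agent.P162.Mid.ChainIO
import Vale.Agent.P162.Mid.SdpiOne
import Vale.Agent.P162.Mid.ChainPart
import Vale.Agent.P162.Mid.SdpiEmbed
import Vale.Agent.P162.Mid.SdpiTensor
import Vale.Agent.P162.Mid.SdpiLift
import Vale.Agent.P162.Mid.SdpiReweight
import Vale.Agent.P162.Mid.OutSplit
import Vale.Agent.P162.Mid.Bridge
import Vale.Agent.P162.Mid.StepZAbs
import Vale.Agent.P162.Mid.HalfAbs
import Vale.Agent.P162.Mid.StepTAbs
import Vale.Agent.P162.Mid.GlueP
import Vale.Agent.P162.Mid.GlueS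
import Vale.Agent.P162.Mid.GlueC
import Vale.Agent.P162.Mid.Trv0
import Vale.Agent.P162.Mid.SumTrv
import Vale.Agent.P162.Mid.SumClo
import Vale.Agent.P162.Mid.CountMT
import Vale.Agent.P162.Mid.CardIsM
import Vale.Agent.P162.Mid.DmFormula
import Vale.Agent.P162.Mid.CountClo
import Vale.Agent.P162.Mid.CountClo2
import Vale.Agent.P162.Mid.CountTrv2
import Vale.Agent.P162.Mid.Consts
import Vale.Agent.P162.Mid.SumWp
import Vale.Agent.P162.Mid.SumWcSize
import Vale.Agent.P162.Mid.SumWc
import Vale.Agent.P162.Mid.WpGlue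
import Vale.Agent.P162.Mid.SliceZ
import Vale.Agent.P162.Mid.SumWpRight
import Vale.Agent.P162.Mid.BLEven
import Vale.Agent.P162.Mid.SumW3
import Vale.Agent.P162.Mid.SumW3Right
import Vale.Agent.P162.Mid.SumW3Agr
import Vale.Agent.P162.Mid.W3Glue
import Vale.Agent.P162.Mid.SliceT
import Vale.Agent.P162.Mid.ZcBasic
import Vale.Agent.P162.Mid.ScBasic
import Vale.Agent.P162.Mid.Bad
import Vale.Agent.P162.Mid.ZWeights
import Vale.Agent.P162.Mid.ZBad
import Vale.Agent.P162.Mid.ZGood
import Vale.Agent.P162.Mid.StepZSdpi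
import Vale.Agent.P162.Mid.StepZModel

namespace Vale.Agent.P162.Mid
open Finset

/-- total weight of an input in the coupling of two transversals, divided by that of `Wc` -/
noncomputable def kapU (M : ℕ) : ℝ :=
  (2 ^ M * ((2 * M).choose M : ℝ) / (M.factorial : ℝ)) / (ee (2 * M) / dm (2 * M))

theorem lamT_nonneg (M k : ℕ) : 0 ≤ lamT M k := by
  unfold lamT
  have h1 := dm_nonneg k
  have h2 := dm_nonneg (2 * M - k)
  positivity

theorem ee_pos (k : ℕ) : 0 < ee k := by
  unfold ee
  split_ifs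
  · exact one_pos
  · positivity

theorem kapU_pos (M : ℕ) : 0 < kapU M := by
  unfold kapU
  have h1 := dm_pos M
  have h2 := ee_pos (2 * M)
  have h3 : (0 : ℝ) < ((2 * M).choose M : ℝ) := by
    exact_mod_cast Nat.choose_pos (by omega)
  positivity

/-- key identity -/
theorem lamT_pH (M a : ℕ) (ha : a ≤ M) :
    lamT M (2 * a) * (((2 * M).choose (2 * a) : ℝ) / dm (2 * M)) =
      pH M a * (2 ^ M * ((2 * M).choose M : ℝ) / (M.factorial : ℝ)) := by
  obtain ⟨b, rfl⟩ : ∃ b, M = a + b := ⟨M - a, by omega⟩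
  unfold lamT pH
  have e1 : 2 * (a + b) - 2 * a = 2 * b := by omega
  have e2 : 2 * a / 2 = a := by omega
  have e3 : a + b - a = b := by omega
  rw [e1, e2, e3]
  have hA := dm_even a
  have hB := dm_even b
  have hM := dm_even (a + b)
  have hC1 : (((a + b).choose a : ℕ) : ℝ) * (a.factorial : ℝ) * (b.factorial : ℝ) =
      ((a + b).factorial : ℝ) := by
    have := Nat.add_choose_mul_factorial_mul_factorial a b
    rw [← Nat.choose_symm_add] at this
    exact_mod_cast this
  have hC2 : (((2 * (a + b)).choose (2 * a) : ℕ) : ℝ) * ((2 * a).factorial : ℝ) *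
      ((2 * b).factorial : ℝ) = ((2 * (a + b)).factorial : ℝ) := by
    have := Nat.add_choose_mul_factorial_mul_factorial (2 * a) (2 * b)
    rw [← Nat.choose_symm_add, show 2 * a + 2 * b = 2 * (a + b) by ring] at this
    exact_mod_cast this
  have hCM : (0 : ℝ) < ((2 * (a + b)).choose (a + b) : ℝ) := by
    exact_mod_cast Nat.choose_pos (by omega)
  have pA : (0 : ℝ) < (a.factorial : ℝ) := by positivity
  have pB : (0 : ℝ) < (b.factorial : ℝ) := by positivity
  have p2A : (0 : ℝ) < ((2 * a).factorial : ℝ) := by positivity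
  have p2B : (0 : ℝ) < ((2 * b).factorial : ℝ) := by positivity
  have pC1 : (0 : ℝ) < ((a + b).choose a : ℝ) := by
    exact_mod_cast Nat.choose_pos (by omega)
  have pC2 : (0 : ℝ) < ((2 * (a + b)).choose (2 * a) : ℝ) := by
    exact_mod_cast Nat.choose_pos (by omega)
  generalize (a.factorial : ℝ) = A at *
  generalize (b.factorial : ℝ) = B at *
  generalize ((2 * a).factorial : ℝ) = A2 at *
  generalize ((2 * b).factorial : ℝ) = B2 at *
  generalize ((a + b).factorial : ℝ) = Mf at *
  generalize ((2 * (a + b)).factorial : ℝ) = M2 at *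
  generalize (((a + b).choose a : ℕ) : ℝ) = C1 at *
  generalize (((2 * (a + b)).choose (2 * a) : ℕ) : ℝ) = C2 at *
  generalize (((2 * (a + b)).choose (a + b) : ℕ) : ℝ) = CM at *
  have hdA : dm (2 * a) = A2 / (2 ^ a * A) := by
    rw [eq_div_iff (by positivity)]
    linarith
  have hdB : dm (2 * b) = B2 / (2 ^ b * B) := by
    rw [eq_div_iff (by positivity)]
    linarith
  have hMf : Mf = C1 * A * B := hC1.symm
  have hdM : dm (2 * (a + b)) = C2 * A2 * B2 / (2 ^ (a + b) * (C1 * A * B)) := by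
    rw [eq_div_iff (by positivity), hC2, ← hMf]
    linarith
  rw [hdA, hdB, hdM, hMf, pow_add]
  field_simp

theorem lamT_ratio (M a : ℕ) (hM : 1 ≤ M) (ha : a ≤ M) :
    lamT M (2 * a) * pu M a = pH M a * kapU M := by
  have h := lamT_pH M a ha
  have hd := dm_pos M
  have hee : ee (2 * M) = 2 ^ (2 * M - 1) := by
    unfold ee
    rw [if_neg (by omega)]
  unfold kapU pu
  rw [hee]
  have hp : (0 : ℝ) < 2 ^ (2 * M - 1) := by positivity
  generalize (2 ^ M * ((2 * M).choose M : ℝ) / (M.factorial : ℝ)) = X at *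
  generalize (2 : ℝ) ^ (2 * M - 1) = E at *
  have h2 : lamT M (2 * a) * ((2 * M).choose (2 * a) : ℝ) = pH M a * X * dm (2 * M) := by
    rw [← h]
    field_simp
  calc lamT M (2 * a) * (((2 * M).choose (2 * a) : ℝ) / E)
      = (lamT M (2 * a) * ((2 * M).choose (2 * a) : ℝ)) / E := by ring
    _ = pH M a * X * dm (2 * M) / E := by rw [h2]
    _ = pH M a * (X / (E / dm (2 * M))) := by
        field_simp

theorem lamT_odd (M a : ℕ) : lamT M (2 * a + 1) = 0 := by
  unfold lamT
  rw [dm_odd]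
  simp

end Vale.Agent.P162.Mid
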