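import Vale.Agent.P162.Mid.Defs
import Vale.Agent.P162.KL.SizeLaws
import Vale.Agent.P162.KL.BL
import Vale.Agent.P162.KL.PairLaw
import Vale.Agent.P162.Scalar.Harmonic
import Vale.Agent.P162.Mid.KlwNonneg
import Vale.Agent.P162.Mid.KlwChain
import Vale.Agent.P162.Mid.KlwChainMap
import Vale.Agent.P162.Mid.KlwMapLe
import Vale.Agent.P162.Mid.KlwSmul
import Vale.Agent.P162.Mid.KlwSumLe
import Vale.Agent.P162.Mid.KlwMonoWeight
import Vale.Agent.P162.Mid.KlwSuper
import Vale.Agent.P162.Mid.SdpiBasic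
import Vale.Agent.P162.Mid.ChainIO
import Vale.Agent.P162.Mid.SdpiOne
import Vale.Agent.P162.Mid.ChainPart
import Vale.Agent.P162.Mid.SdpiEmbed
import Vale.Agent.P162.Mid.SdpiTensor
import Vale.Agent.P162.Mid.SdpiLift
import Vale.Agent.P162.Mid.SdpiReweight
import Vale.Agent.P162.Mid.OutSplit
import Vale.Agent.P162.Mid.Bridge
import Vale.Agent.P162.Mid.StepZAbs
import Vale.Agent.P162.Mid.HalfAbs
import Vale.Agent.P162.Mid.StepTAbs
import Vale.Agent.P162.Mid.GlueP
import Vale.Agent.P162.Mid.GlueS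
import Vale.Agent.P162.Mid.GlueC
import Vale.Agent.P162.Mid.Trv0
import Vale.Agent.P162.Mid.SumTrv
import Vale.Agent.P162.Mid.SumClo
import Vale.Agent.P162.Mid.CountMT
import Vale.Agent.P162.Mid.CardIsM
import Vale.Agent.P162.Mid.DmFormula
import Vale.Agent.P162.Mid.CountClo
import Vale.Agent.P162.Mid.CountClo2
import Vale.Agent.P162.Mid.CountTrv2
import Vale.Agent.P162.Mid.Consts
import Vale.Agent.P162.Mid.SumWp
import Vale.Agent.P162.Mid.SumWcSize
import Vale.Agent.P162.Mid.SumWc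
import Vale.Agent.P162.Mid.WpGlue
import Vale.Agent.P162.Mid.SliceZ
import Vale.Agent.P162.Mid.SumWpRight
import Vale.Agent.P162.Mid.BLEven
import Vale.Agent.P162.Mid.SumW3
import Vale.Agent.P162.Mid.SumW3Right
import Vale.Agent.P162.Mid.SumW3Agr
import Vale.Agent.P162.Mid.W3Glue
import Vale.Agent.P162.Mid.SliceT
import Vale.Agent.P162.Mid.ZcBasic
import Vale.Agent.P162.Mid.ScBasic
import Vale.Agent.P162.Mid.Bad
import Vale.Agent.P162.Mid.ZWeights
import Vale.Agent.P162.Mid.ZBad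
import Vale.Agent.P162.Mid.ZGood
import Vale.Agent.P162.Mid.StepZSdpi
import Vale.Agent.P162.Mid.StepZModel
import Vale.Agent.P162.Mid.TWeights

namespace Vale.Agent.P162.Mid
open Finset

private theorem tsums_c0_pos (M : ℕ) :
    0 < (2 : ℝ) ^ M * ((2 * M).choose M : ℝ) / (M.factorial : ℝ) := by
  have h1 : 0 < ((2 * M).choose M : ℝ) := by
    exact_mod_cast Nat.choose_pos (by omega)
  positivity

private theorem tsums_dm_ne (M : ℕ) : dm (2 * M) ≠ 0 := by
  intro h
  have h0 := lamT_pH M 0 (Nat.zero_le _)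
  rw [h] at h0
  have h1 : 0 < pH M 0 * ((2 : ℝ) ^ M * ((2 * M).choose M : ℝ) / (M.factorial : ℝ)) :=
    mul_pos (pH_pos (Nat.zero_le _)) (tsums_c0_pos M)
  rw [← h0] at h1
  simp at h1

private theorem tsums_ee_pos (k : ℕ) : 0 < ee k := by
  unfold ee
  split_ifs <;> positivity

private theorem tsums_total (S : Type*) [Fintype S] [DecidableEq S] (M : ℕ)
    (hM : Fintype.card S = 2 * M) (σ : Equiv.Perm S) (hσ : IsM σ) :
    ∑ z, lamT M z.card * Wc S σ z =
      (2 : ℝ) ^ M * ((2 * M).choose M : ℝ) / (M.factorial : ℝ) := by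
  rw [sum_Wc_size S M hM σ hσ (lamT M)]
  have h1 : ∀ a ∈ range (M + 1),
      lamT M (2 * a) * (((2 * M).choose (2 * a) : ℝ) / dm (2 * M)) =
        pH M a * ((2 : ℝ) ^ M * ((2 * M).choose M : ℝ) / (M.factorial : ℝ)) := by
    intro a ha
    exact lamT_pH M a (by have := mem_range.mp ha; omega)
  rw [sum_congr rfl h1, ← sum_mul, sum_pH, one_mul]

/-- (AT-b) -/
theorem lamT_total (S : Type*) [Fintype S] [DecidableEq S] (M : ℕ)
    (hM : Fintype.card S = 2 * M) (σ : Equiv.Perm S) :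
    ∑ z, lamT M z.card * Wc S σ z = kapU M * ∑ z, Wc S σ z := by
  by_cases hσ : IsM σ
  · rw [tsums_total S M hM σ hσ, sum_Wc S σ hσ, hM]
    unfold kapU
    have h1 : ee (2 * M) / dm (2 * M) ≠ 0 :=
      div_ne_zero (tsums_ee_pos _).ne' (tsums_dm_ne M)
    rw [div_mul_cancel₀ _ h1]
  · simp [Wc_not_isM S σ hσ]

/-- (AT-c) -/
theorem lamT_bad (S : Type*) [Fintype S] [DecidableEq S] (M : ℕ)
    (hM : Fintype.card S = 2 * M) (σ : Equiv.Perm S) :
    ∑ z ∈ badS S M, lamT M z.card * Wc S σ z =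
      (∑ a ∈ badA M, pH M a) * ∑ z, lamT M z.card * Wc S σ z := by
  by_cases hσ : IsM σ
  · rw [tsums_total S M hM σ hσ, sum_bad_Wc S M hM σ hσ (lamT M)]
    have h1 : ∀ a ∈ badA M,
        lamT M (2 * a) * (((2 * M).choose (2 * a) : ℝ) / dm (2 * M)) =
          pH M a * ((2 : ℝ) ^ M * ((2 * M).choose M : ℝ) / (M.factorial : ℝ)) := by
      intro a ha
      have h2 : a ∈ range (M + 1) := by
        unfold badA at ha
        exact (mem_filter.mp ha).1
      exact lamT_pH M a (by have := mem_range.mp h2; omega)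
    rw [sum_congr rfl h1, ← sum_mul]
  · simp [Wc_not_isM S σ hσ]

end Vale.Agent.P162.Mid
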