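import Vale.Agent.P162.Mid.Defs
import Vale.Agent.P162.KL.SizeLaws
import Vale.Agent.P162.KL.BL
import Vale.Agent.P162.KL.PairLaw
import Vale.Agent.P162.Scalar.Harmonic
import Vale.Agent.P162.Mid.KlwNonneg
import Vale.Agent.P162.Mid.KlwChain
import Vale.Agent.P162.Mid.KlwChainMap
import Vale.Agent.P162.Mid.KlwMapLe
import Vale.Agent.P162.Mid.KlwSmul
import Vale.Agent.P162.Mid.KlwSumLe
import Vale.Agent.P162.Mid.KlwMonoWeight
import Vale.Agent.P162.Mid.KlwSuper
import Vale.Agent.P162.Mid.SdpiBasic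
import Vale.Agent.P162.Mid.ChainIO
import Vale.Agent.P162.Mid.SdpiOne
import Vale.Agent.P162.Mid.ChainPart
import Vale.Agent.P162.Mid.SdpiEmbed
import Vale.Agent.P162.Mid.SdpiTensor
import Vale.Agent.P162.Mid.SdpiLift
import Vale.Agent.P162.Mid.SdpiReweight
import Vale.Agent.P162.Mid.OutSplit
import Vale.Agent.P162.Mid.Bridge
import Vale.Agent.P162.Mid.StepZAbs
import Vale.Agent.P162.Mid.HalfAbs
import Vale.Agent.P162.Mid.StepTAbs
import Vale.Agent.P162.Mid.GlueP
import Vale.Agent.P162.Mid.GlueS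
import Vale.Agent.P162.Mid.GlueC
import Vale.Agent.P162.Mid.Trv0
import Vale.Agent.P162.Mid.SumTrv
import Vale.Agent.P162.Mid.SumClo
import Vale.Agent.P162.Mid.CountMT
import Vale.Agent.P162.Mid.CardIsM
import Vale.Agent.P162.Mid.DmFormula
import Vale.Agent.P162.Mid.CountClo
import Vale.Agent.P162.Mid.CountClo2
import Vale.Agent.P162.Mid.CountTrv2
import Vale.Agent.P162.Mid.Consts
import Vale.Agent.P162.Mid.SumWp
import Vale.Agent.P162.Mid.SumWcSize
import Vale.Agent.P162.Mid.SumWc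
import Vale.Agent.P162.Mid.WpGlue
import Vale.Agent.P162.Mid.SliceZ
import Vale.Agent.P162.Mid.SumWpRight
import Vale.Agent.P162.Mid.BLEven
import Vale.Agent.P162.Mid.SumW3
import Vale.Agent.P162.Mid.SumW3Right
import Vale.Agent.P162.Mid.SumW3Agr
import Vale.Agent.P162.Mid.W3Glue
import Vale.Agent.P162.Mid.SliceT
import Vale.Agent.P162.Mid.ZcBasic
import Vale.Agent.P162.Mid.ScBasic
import Vale.Agent.P162.Mid.Bad
import Vale.Agent.P162.Mid.ZWeights
import Vale.Agent.P162.Mid.ZBad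
import Vale.Agent.P162.Mid.ZGood
import Vale.Agent.P162.Mid.StepZSdpi
import Vale.Agent.P162.Mid.StepZModel
import Vale.Agent.P162.Mid.TWeights
import Vale.Agent.P162.Mid.TSums
import Vale.Agent.P162.Mid.Ratio

namespace Vale.Agent.P162.Mid
open Finset

private theorem not_bad_iff (S : Type*) [Fintype S] [DecidableEq S] (M : ℕ) (z : Finset S)
    (hz : z ∉ badS S M) :
    (2 / 5 : ℝ) * M ≤ (z.card : ℝ) / 2 ∧ (z.card : ℝ) / 2 ≤ (3 / 5 : ℝ) * M := by
  classical
  unfold badS at hz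
  rw [Finset.mem_filter] at hz
  by_contra hcon
  exact hz ⟨Finset.mem_univ _, hcon⟩

/-- (AT-d) -/
theorem lamT_good (M0 : ℕ) (hM0 : ∀ M : ℕ, M0 ≤ M → ∀ a : ℕ, (2 / 5 : ℝ) * M ≤ a →
      (a : ℝ) ≤ (3 / 5 : ℝ) * M → pH M a ≤ (11 / 10 : ℝ) * pu M a)
    (S : Type*) [Fintype S] [DecidableEq S] (M : ℕ) (hM1 : 1 ≤ M) (hMM : M0 ≤ M)
    (hM : Fintype.card S = 2 * M) (z : Finset S) (hz : z ∉ badS S M) :
    lamT M z.card ≤ (11 / 10 : ℝ) * kapU M := by
  obtain ⟨h1, h2⟩ := not_bad_iff S M z hz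
  have hk := kapU_pos M
  rcases Nat.even_or_odd' z.card with ⟨a, ha | ha⟩
  · rw [ha] at h1 h2 ⊢
    have e : (((2 * a : ℕ) : ℝ)) / 2 = a := by
      push_cast
      ring
    rw [e] at h1 h2
    have haM : a ≤ M := by
      have : (a : ℝ) ≤ M := by
        have hM0' : (0 : ℝ) ≤ M := Nat.cast_nonneg M
        linarith
      exact_mod_cast this
    have hr := lamT_ratio M a hM1 haM
    have hp := hM0 M hMM a h1 h2
    have hpu := pu_pos haM
    have h3 : lamT M (2 * a) * pu M a ≤ (11 / 10 : ℝ) * kapU M * pu M a := by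
      rw [hr]
      have := mul_le_mul_of_nonneg_right hp hk.le
      linarith
    exact le_of_mul_le_mul_right h3 hpu
  · rw [ha, lamT_odd]
    positivity

/-- (AT-e) -/
theorem slice_T_good (S : Type) [Fintype S] [DecidableEq S] (M : ℕ)
    (hM : Fintype.card S = 2 * M) (g : ℝ) (hg : 0 ≤ g)
    (hwin : ∀ n : ℕ, (2 / 5 : ℝ) * M ≤ n → (n : ℝ) ≤ (1 - 2 / 5) * M → sc n ≤ g)
    (z : Finset S) (hz : z ∉ badS S M) :
    SDPIw (fun σ p => if agr p = z then W3 S σ p else 0) g := by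
  obtain ⟨h1, h2⟩ := not_bad_iff S M z hz
  rcases Nat.even_or_odd' z.card with ⟨a, ha | ha⟩
  · rw [ha] at h1 h2
    have e : (((2 * a : ℕ) : ℝ)) / 2 = a := by
      push_cast
      ring
    rw [e] at h1 h2
    have hM0' : (0 : ℝ) ≤ M := Nat.cast_nonneg M
    have haM : a ≤ M := by
      have : (a : ℝ) ≤ M := by linarith
      exact_mod_cast this
    have hc1 : Fintype.card {b // b ∈ z} = 2 * a := by rw [card_sub_mem, ha]
    have hc2 : Fintype.card {b // ¬ b ∈ z} = 2 * (M - a) := by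
      rw [card_sub_not_mem, hM, ha]
      omega
    have hs1 : sc a ≤ g := hwin a h1 (by linarith)
    have hs2 : sc (M - a) ≤ g := by
      apply hwin (M - a)
      · rw [Nat.cast_sub haM]
        linarith
      · rw [Nat.cast_sub haM]
        linarith
    exact slice_T z g hg
      (SDPIw_mono _ (Wt_nonneg _) hs1 ((TOK_sc a).2 {b // b ∈ z} hc1))
      (SDPIw_mono _ (Wt_nonneg _) hs2 ((TOK_sc (M - a)).2 {b // ¬ b ∈ z} hc2))
  · apply SDPIw_zero
    intro σ p
    by_cases hp : agr p = z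
    · rw [if_pos hp]
      unfold W3
      rw [if_neg]
      rintro ⟨hσ, ht1, ht2⟩
      have hev := clo_even σ hσ (agr p) (clo_agr σ p ht1 ht2)
      rw [hp, ha] at hev
      exact (Nat.not_even_iff_odd.2 ⟨a, rfl⟩) hev
    · rw [if_neg hp]

end Vale.Agent.P162.Mid
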