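import Vale.Agent.P162.Mid.Defs
import Vale.Agent.P162.KL.SizeLaws
import Vale.Agent.P162.KL.BL
import Vale.Agent.P162.KL.PairLaw
import Vale.Agent.P162.Scalar.Harmonic
import Vale.Agent.P162.Mid.KlwNonneg
import Vale.Agent.P162.Mid.KlwChain
import Vale.Agent.P162.Mid.KlwChainMap
import Vale.Agent.P162.Mid.KlwMapLe
import Vale.Agent.P162.Mid.KlwSmul
import Vale.Agent.P162.Mid.KlwSumLe
import Vale.Agent.P162.Mid.KlwMonoWeight
import Vale.Agent.P162.Mid.KlwSuper
import Vale.Agent.P162.Mid.SdpiBasic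
import Vale.Agent.P162.Mid.ChainIO
import Vale.Agent.P162.Mid.SdpiOne
import Vale.Agent.P162.Mid.ChainPart
import Vale.Agent.P162.Mid.SdpiEmbed
import Vale.Agent.P162.Mid.SdpiTensor
import Vale.Agent.P162.Mid.SdpiLift
import Vale.Agent.P162.Mid.SdpiReweight
import Vale.Agent.P162.Mid.OutSplit
import Vale.Agent.P162.Mid.Bridge
import Vale.Agent.P162.Mid.StepZAbs
import Vale.Agent.P162.Mid.HalfAbs
import Vale.Agent.P162.Mid.StepTAbs
import Vale.Agent.P162.Mid.GlueP
import Vale.Agent.P162.Mid.GlueS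
import Vale.Agent.P162.Mid.GlueC
import Vale.Agent.P162.Mid.Trv0
import Vale.Agent.P162.Mid.SumTrv
import Vale.Agent.P162.Mid.SumClo
import Vale.Agent.P162.Mid.CountMT
import Vale.Agent.P162.Mid.CardIsM
import Vale.Agent.P162.Mid.DmFormula
import Vale.Agent.P162.Mid.CountClo
import Vale.Agent.P162.Mid.CountClo2
import Vale.Agent.P162.Mid.CountTrv2
import Vale.Agent.P162.Mid.Consts
import Vale.Agent.P162.Mid.SumWp
import Vale.Agent.P162.Mid.SumWcSize
import Vale.Agent.P162.Mid.SumWc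
import Vale.Agent.P162.Mid.WpGlue
import Vale.Agent.P162.Mid.SliceZ
import Vale.Agent.P162.Mid.SumWpRight
import Vale.Agent.P162.Mid.BLEven
import Vale.Agent.P162.Mid.SumW3
import Vale.Agent.P162.Mid.SumW3Right
import Vale.Agent.P162.Mid.SumW3Agr
import Vale.Agent.P162.Mid.W3Glue
import Vale.Agent.P162.Mid.SliceT
import Vale.Agent.P162.Mid.ZcBasic
import Vale.Agent.P162.Mid.ScBasic
import Vale.Agent.P162.Mid.Bad
import Vale.Agent.P162.Mid.ZWeights
import Vale.Agent.P162.Mid.ZBad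
import Vale.Agent.P162.Mid.ZGood
import Vale.Agent.P162.Mid.StepZSdpi
import Vale.Agent.P162.Mid.StepZModel
import Vale.Agent.P162.Mid.TWeights
import Vale.Agent.P162.Mid.TSums
import Vale.Agent.P162.Mid.Ratio
import Vale.Agent.P162.Mid.TGood

namespace Vale.Agent.P162.Mid
open Finset

/-- STEP T in the shape of the hypothesis `hT` of `s_bound` (`Scalar/Harmonic.lean`), `r = 2/5`,
`kap = 11/10`, `K = 50` -/
theorem stepT_model : ∃ M1 : ℕ, ∀ M : ℕ, M1 ≤ M → ∀ sg : ℝ, 0 ≤ sg →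
    (∀ n : ℕ, (2 / 5 : ℝ) * M ≤ n → (n : ℝ) ≤ (1 - 2 / 5) * M → sc n ≤ sg) →
    2 * sc M ≤ (11 / 10 : ℝ) * zc M + sg + 50 / M := by
  obtain ⟨M0, hM0⟩ := pH_le_pu
  refine ⟨max M0 2, fun M hM sg hsg hwin => ?_⟩
  have hM0' : M0 ≤ M := le_trans (le_max_left _ _) hM
  have hM2 : 2 ≤ M := le_trans (le_max_right _ _) hM
  have hc0 : 0 ≤ ∑ a ∈ badA M, pH M a := Finset.sum_nonneg (fun a _ => pH_nonneg M a)
  have hc1 : ∑ a ∈ badA M, pH M a ≤ 1 := sum_pH_bad_le_one M
  have hc25 : ∑ a ∈ badA M, pH M a ≤ 25 / (M : ℝ) := sum_pH_bad M hM2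
  have hk : 0 < kapU M := kapU_pos M
  have hz : 0 ≤ zc M := zc_nonneg M
  have key : TOK M (((11 / 10 : ℝ) * kapU M / kapU M * zc M + sg
      + 2 * ∑ a ∈ badA M, pH M a) / 2) := by
    refine ⟨by positivity, fun S _ _ hS => ?_⟩
    refine stepT_abs (W3 S) (Wt S) (Wc S) agr ?_ ?_ ?_
      (fun T => if 2 * T.card = Fintype.card S then (1 : ℝ) else 0)
      (fun T => if 2 * T.card = Fintype.card S then (1 : ℝ) else 0) ?_ ?_
      (sum_W3 S) (cT M) (cT_pos M) (sum_W3_right S M hS) (sum_W3_left S M hS)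
      (fun z => lamT M z.card) (fun z => lamT_nonneg M _) (sum_W3_agr S M hS)
      (badS S M) ((11 / 10 : ℝ) * kapU M) (∑ a ∈ badA M, pH M a) (kapU M) (by positivity)
      hc0 hc1 hk
      (fun z hz => lamT_good M0 hM0 S M (by omega) hM0' hS z hz)
      (lamT_bad S M hS) (lamT_total S M hS)
      (zc M) hz ((ZOK_zc M).2 S hS)
      sg hsg (fun z hz => slice_T_good S M hS sg hsg hwin z hz)
    · intro σ p
      unfold W3
      split_ifs
      · positivity
      · exact le_refl _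
    · intro σ T
      unfold Wt
      split_ifs
      · exact zero_le_one
      · exact le_refl _
    · intro σ z
      unfold Wc
      split_ifs
      · unfold dm
        positivity
      · exact le_refl _
    · intro T
      split_ifs
      · exact zero_le_one
      · exact le_refl _
    · intro T
      split_ifs
      · exact zero_le_one
      · exact le_refl _
  have h1 := sc_le M _ key
  have h2 : (11 / 10 : ℝ) * kapU M / kapU M = 11 / 10 := by
    field_simp
  rw [h2] at h1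
  have h3 : 2 * ∑ a ∈ badA M, pH M a ≤ 50 / (M : ℝ) := by
    calc 2 * ∑ a ∈ badA M, pH M a ≤ 2 * (25 / (M : ℝ)) := by linarith
      _ = 50 / (M : ℝ) := by ring
  linarith

end Vale.Agent.P162.Mid
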