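import Vale.Agent.P162.Mid.Defs
import Vale.Agent.P162.KL.SizeLaws
import Vale.Agent.P162.KL.BL
import Vale.Agent.P162.KL.PairLaw
import Vale.Agent.P162.Scalar.Harmonic
import Vale.Agent.P162.Mid.KlwNonneg
import Vale.Agent.P162.Mid.KlwChain
import Vale.Agent.P162.Mid.KlwChainMap
import Vale.Agent.P162.Mid.KlwMapLe
import Vale.Agent.P162.Mid.KlwSmul
import Vale.Agent.P162.Mid.KlwSumLe
import Vale.Agent.P162.Mid.KlwMonoWeight
import Vale.Agent.P162.Mid.KlwSuper
import Vale.Agent.P162.Mid.SdpiBasic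
import Vale.Agent.P162.Mid.ChainIO
import Vale.Agent.P162.Mid.SdpiOne
import Vale.Agent.P162.Mid.ChainPart
import Vale.Agent.P162.Mid.SdpiEmbed
import Vale.Agent.P162.Mid.SdpiTensor
import Vale.Agent.P162.Mid.SdpiLift
import Vale.Agent.P162.Mid.SdpiReweight
import Vale.Agent.P162.Mid.OutSplit
import Vale.Agent.P162.Mid.Bridge
import Vale.Agent.P162.Mid.StepZAbs
import Vale.Agent.P162.Mid.HalfAbs
import Vale.Agent.P162.Mid.StepTAbs
import Vale.Agent.P162.Mid.GlueP
import Vale.Agent.P162.Mid.GlueS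
import Vale.Agent.P162.Mid.GlueC
import Vale.Agent.P162.Mid.Trv0
import Vale.Agent.P162.Mid.SumTrv
import Vale.Agent.P162.Mid.SumClo
import Vale.Agent.P162.Mid.CountMT
import Vale.Agent.P162.Mid.CardIsM
import Vale.Agent.P162.Mid.DmFormula
import Vale.Agent.P162.Mid.CountClo
import Vale.Agent.P162.Mid.CountClo2
import Vale.Agent.P162.Mid.CountTrv2
import Vale.Agent.P162.Mid.Consts
import Vale.Agent.P162.Mid.SumWp
import Vale.Agent.P162.Mid.SumWcSize
import Vale.Agent.P162.Mid.SumWc
import Vale.Agent.P162.Mid.WpGlue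
import Vale.Agent.P162.Mid.SliceZ
import Vale.Agent.P162.Mid.SumWpRight
import Vale.Agent.P162.Mid.BLEven
import Vale.Agent.P162.Mid.SumW3
import Vale.Agent.P162.Mid.SumW3Right
import Vale.Agent.P162.Mid.SumW3Agr
import Vale.Agent.P162.Mid.W3Glue
import Vale.Agent.P162.Mid.SliceT
import Vale.Agent.P162.Mid.ZcBasic
import Vale.Agent.P162.Mid.ScBasic
import Vale.Agent.P162.Mid.Bad
import Vale.Agent.P162.Mid.ZWeights
import Vale.Agent.P162.Mid.ZBad
import Vale.Agent.P162.Mid.ZGood
import Vale.Agent.P162.Mid.StepZSdpi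
import Vale.Agent.P162.Mid.StepZModel
import Vale.Agent.P162.Mid.TWeights
import Vale.Agent.P162.Mid.TSums
import Vale.Agent.P162.Mid.Ratio
import Vale.Agent.P162.Mid.TGood
import Vale.Agent.P162.Mid.StepTModel

namespace Vale.Agent.P162.Mid
open Finset

/-- the scalar conclusion: `zeta_bound` + `s_bound` with `r = 2/5`, `A = 19/20`, `A' = 21/20` -/
theorem sc_bound : ∃ j0 : ℕ, ∀ j : ℕ, j0 ≤ j → sc (2 ^ j) ≤ (17 / 10 : ℝ) / ((j : ℝ) + 1) := by
  obtain ⟨K, hK0, MZ, hZ⟩ := stepZ_model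
  obtain ⟨MT, hT⟩ := stepT_model
  have hlog : (11 / 10 : ℝ) * Real.log (1 / (2 / 5 : ℝ)) < 17 / 10 * Real.log 2 := by
    have h1 : (1 / (2 / 5 : ℝ)) = 2 * (5 / 4) := by norm_num
    rw [h1, Real.log_mul (by norm_num) (by norm_num)]
    have h2 : Real.log (5 / 4 : ℝ) ≤ 5 / 4 - 1 := Real.log_le_sub_one_of_pos (by norm_num)
    have h3 := Real.log_two_gt_d9
    linarith
  obtain ⟨j0, _, hj⟩ := Vale.Agent.P162.harmonic_main (2 / 5) (max K 50) (11 / 10) (17 / 10)
    (max (max MZ MT) 1) (by norm_num) (by norm_num) (le_trans hK0 (le_max_left _ _)) (by norm_num)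
    zc sc zc_nonneg zc_le_one sc_nonneg sc_le_half
    (by
      intro M hM g hg hwin
      have hMZ : MZ ≤ M := le_trans (le_trans (le_max_left _ _) (le_max_left _ _)) hM
      have hM1 : 1 ≤ M := le_trans (le_max_right _ _) hM
      have hMpos : (0 : ℝ) < M := by exact_mod_cast hM1
      have h := hZ M hMZ g hg hwin
      have hKK : K / M ≤ max K 50 / M := div_le_div_of_nonneg_right (le_max_left _ _) hMpos.le
      have hK0M : 0 ≤ K / M := div_nonneg hK0 hMpos.le
      have hz := zc_nonneg M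
      calc zc M * (1 - max K 50 / M + g) ≤ zc M * (1 - K / M + g) :=
            mul_le_mul_of_nonneg_left (by linarith) hz
        _ ≤ (1 + K / M) * (g + K / M) := h
        _ ≤ (1 + max K 50 / M) * (g + max K 50 / M) :=
            mul_le_mul (by linarith) (by linarith) (by linarith) (by linarith))
    (by
      intro M hM sg hsg hwin
      have hMT : MT ≤ M := le_trans (le_trans (le_max_right _ _) (le_max_left _ _)) hM
      have hM1 : 1 ≤ M := le_trans (le_max_right _ _) hM
      have hMpos : (0 : ℝ) < M := by exact_mod_cast hM1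
      have h := hT M hMT sg hsg hwin
      have hKK : (50 : ℝ) / M ≤ max K 50 / M :=
        div_le_div_of_nonneg_right (le_max_right _ _) hMpos.le
      linarith)
    hlog
  refine ⟨j0, fun j hjj => ?_⟩
  have h := hj (j + 1) (by omega)
  simpa using h

end Vale.Agent.P162.Mid
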