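import Vale.Agent.P162.Mid.Defs
import Vale.Agent.P162.KL.SizeLaws
import Vale.Agent.P162.KL.BL
import Vale.Agent.P162.KL.PairLaw
import Vale.Agent.P162.Scalar.Harmonic
import Vale.Agent.P162.Mid.KlwNonneg
import Vale.Agent.P162.Mid.KlwChain
import Vale.Agent.P162.Mid.KlwChainMap
import Vale.Agent.P162.Mid.KlwMapLe
import Vale.Agent.P162.Mid.KlwSmul
import Vale.Agent.P162.Mid.KlwSumLe
import Vale.Agent.P162.Mid.KlwMonoWeight
import Vale.Agent.P162.Mid.KlwSuper
import Vale.Agent.P162.Mid.SdpiBasic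
import Vale.Agent.P162.Mid.ChainIO
import Vale.Agent.P162.Mid.SdpiOne
import Vale.Agent.P162.Mid.ChainPart
import Vale.Agent.P162.Mid.SdpiEmbed
import Vale.Agent.P162.Mid.SdpiTensor
import Vale.Agent.P162.Mid.SdpiLift
import Vale.Agent.P162.Mid.SdpiReweight
import Vale.Agent.P162.Mid.OutSplit
import Vale.Agent.P162.Mid.Bridge
import Vale.Agent.P162.Mid.StepZAbs
import Vale.Agent.P162.Mid.HalfAbs
import Vale.Agent.P162.Mid.StepTAbs
import Vale.Agent.P162.Mid.GlueP
import Vale.Agent.P162.Mid.GlueS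
import Vale.Agent.P162.Mid.GlueC
import Vale.Agent.P162.Mid.Trv0
import Vale.Agent.P162.Mid.SumTrv
import Vale.Agent.P162.Mid.SumClo
import Vale.Agent.P162.Mid.CountMT
import Vale.Agent.P162.Mid.CardIsM
import Vale.Agent.P162.Mid.DmFormula
import Vale.Agent.P162.Mid.CountClo
import Vale.Agent.P162.Mid.CountClo2
import Vale.Agent.P162.Mid.CountTrv2
import Vale.Agent.P162.Mid.Consts
import Vale.Agent.P162.Mid.SumWp
import Vale.Agent.P162.Mid.SumWcSize
import Vale.Agent.P162.Mid.SumWc
import Vale.Agent.P162.Mid.WpGlue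
import Vale.Agent.P162.Mid.SliceZ
import Vale.Agent.P162.Mid.SumWpRight
import Vale.Agent.P162.Mid.BLEven
import Vale.Agent.P162.Mid.SumW3
import Vale.Agent.P162.Mid.SumW3Right
import Vale.Agent.P162.Mid.SumW3Agr
import Vale.Agent.P162.Mid.W3Glue
import Vale.Agent.P162.Mid.SliceT
import Vale.Agent.P162.Mid.ZcBasic
import Vale.Agent.P162.Mid.ScBasic
import Vale.Agent.P162.Mid.Bad
import Vale.Agent.P162.Mid.ZWeights
import Vale.Agent.P162.Mid.ZBad
import Vale.Agent.P162.Mid.ZGood
import Vale.Agent.P162.Mid.StepZSdpi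
import Vale.Agent.P162.Mid.StepZModel
import Vale.Agent.P162.Mid.TWeights
import Vale.Agent.P162.Mid.TSums
import Vale.Agent.P162.Mid.Ratio
import Vale.Agent.P162.Mid.TGood
import Vale.Agent.P162.Mid.StepTModel
import Vale.Agent.P162.Mid.ScBound

namespace Vale.Agent.P162.Mid
open Finset

/-- position `y` and position `y ± M` are paired by the cut -/
def flipFun (M : ℕ) (y : Fin (2 * M)) : Fin (2 * M) :=
  if h : y.val < M then ⟨y.val + M, by omega⟩ else ⟨y.val - M, by omega⟩

theorem flipFun_invol (M : ℕ) : Function.Involutive (flipFun M) := by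
  intro y
  unfold flipFun
  by_cases h : y.val < M
  · simp [h]
  · have h2 : y.val - M < M := by omega
    simp only [h, h2, dif_pos, dif_neg, not_false_eq_true]
    apply Fin.ext
    simp only
    omega

/-- the cut as a permutation of positions -/
def flipHalf (M : ℕ) : Equiv.Perm (Fin (2 * M)) := (flipFun_invol M).toPerm

/-- the matching of the cards: `x` and `x'` are paired iff `h x' = flipHalf (h x)` -/
def mOf (M : ℕ) (h : Equiv.Perm (Fin (2 * M))) : Equiv.Perm (Fin (2 * M)) :=
  h⁻¹ * flipHalf M * h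

theorem isM_flipHalf (M : ℕ) : IsM (flipHalf M) := by
  refine ⟨fun a => flipFun_invol M a, fun a ha => ?_⟩
  have h1 : (flipFun M a).val = a.val := congrArg Fin.val ha
  have h2 := a.isLt
  unfold flipFun at h1
  by_cases h : a.val < M
  · simp only [h, dif_pos] at h1
    omega
  · simp only [h, dif_neg, not_false_eq_true] at h1
    omega

theorem isM_mOf (M : ℕ) (h : Equiv.Perm (Fin (2 * M))) : IsM (mOf M h) := by
  obtain ⟨h1, h2⟩ := isM_flipHalf M
  refine ⟨fun a => ?_, fun a ha => ?_⟩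
  · simp [mOf, Equiv.Perm.mul_apply, h1]
  · simp only [mOf, Equiv.Perm.mul_apply] at ha
    apply h2 (h a)
    have := congrArg h ha
    simpa using this

end Vale.Agent.P162.Mid
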