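import Vale.Agent.P162.Mid.Defs
import Vale.Agent.P162.KL.SizeLaws
import Vale.Agent.P162.KL.BL
import Vale.Agent.P162.KL.PairLaw
import Vale.Agent.P162.Scalar.Harmonic
import Vale.Agent.P162.Mid.KlwNonneg
import Vale.Agent.P162.Mid.KlwChain
import Vale.Agent.P162.Mid.KlwChainMap
import Vale.Agent.P162.Mid.KlwMapLe
import Vale.Agent.P162.Mid.KlwSmul
import Vale.Agent.P162.Mid.KlwSumLe
import Vale.Agent.P162.Mid.KlwMonoWeight
import Vale.Agent.P162.Mid.KlwSuper
import Vale.Agent.P162.Mid.SdpiBasic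
import Vale.Agent.P162.Mid.ChainIO
import Vale.Agent.P162.Mid.SdpiOne
import Vale.Agent.P162.Mid.ChainPart
import Vale.Agent.P162.Mid.SdpiEmbed
import Vale.Agent.P162.Mid.SdpiTensor
import Vale.Agent.P162.Mid.SdpiLift
import Vale.Agent.P162.Mid.SdpiReweight
import Vale.Agent.P162.Mid.OutSplit
import Vale.Agent.P162.Mid.Bridge
import Vale.Agent.P162.Mid.StepZAbs
import Vale.Agent.P162.Mid.HalfAbs
import Vale.Agent.P162.Mid.StepTAbs
import Vale.Agent.P162.Mid.GlueP
import Vale.Agent.P162.Mid.GlueS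
import Vale.Agent.P162.Mid.GlueC
import Vale.Agent.P162.Mid.Trv0
import Vale.Agent.P162.Mid.SumTrv
import Vale.Agent.P162.Mid.SumClo
import Vale.Agent.P162.Mid.CountMT
import Vale.Agent.P162.Mid.CardIsM
import Vale.Agent.P162.Mid.DmFormula
import Vale.Agent.P162.Mid.CountClo
import Vale.Agent.P162.Mid.CountClo2
import Vale.Agent.P162.Mid.CountTrv2
import Vale.Agent.P162.Mid.Consts
import Vale.Agent.P162.Mid.SumWp
import Vale.Agent.P162.Mid.SumWcSize
import Vale.Agent.P162.Mid.SumWc
import Vale.Agent.P162.Mid.WpGlue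
import Vale.Agent.P162.Mid.SliceZ
import Vale.Agent.P162.Mid.SumWpRight
import Vale.Agent.P162.Mid.BLEven
import Vale.Agent.P162.Mid.SumW3
import Vale.Agent.P162.Mid.SumW3Right
import Vale.Agent.P162.Mid.SumW3Agr
import Vale.Agent.P162.Mid.W3Glue
import Vale.Agent.P162.Mid.SliceT
import Vale.Agent.P162.Mid.ZcBasic
import Vale.Agent.P162.Mid.ScBasic
import Vale.Agent.P162.Mid.Bad
import Vale.Agent.P162.Mid.ZWeights
import Vale.Agent.P162.Mid.ZBad
import Vale.Agent.P162.Mid.ZGood
import Vale.Agent.P162.Mid.StepZSdpi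
import Vale.Agent.P162.Mid.StepZModel
import Vale.Agent.P162.Mid.TWeights
import Vale.Agent.P162.Mid.TSums
import Vale.Agent.P162.Mid.Ratio
import Vale.Agent.P162.Mid.TGood
import Vale.Agent.P162.Mid.StepTModel
import Vale.Agent.P162.Mid.ScBound
import Vale.Agent.P162.Mid.Flip

namespace Vale.Agent.P162.Mid
open Finset

private theorem bce_newBit (M : ℕ) (h : Equiv.Perm (Fin (2 * M))) (b : Fin M → Bool)
    (x : Fin (2 * M)) :
    KL.newBit M h b x = if hx : (h x).val < M then b ⟨(h x).val, hx⟩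
      else !b ⟨(h x).val - M, by omega⟩ := by
  unfold KL.newBit thorpMap
  by_cases hx : (h x).val < M
  · simp only [hx, dif_pos]
    cases hb : b ⟨(h x).val, hx⟩ <;> simp
  · simp only [hx, dif_neg, not_false_eq_true]
    cases hb : b ⟨(h x).val - M, by omega⟩ <;> simp

private theorem bce_h_mOf (M : ℕ) (h : Equiv.Perm (Fin (2 * M))) (x : Fin (2 * M)) :
    h (mOf M h x) = flipFun M (h x) := by
  unfold mOf flipHalf
  simp [Equiv.Perm.mul_apply]

/-- the new bit of the partner is the opposite bit -/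
private theorem bce_newBit_mOf (M : ℕ) (h : Equiv.Perm (Fin (2 * M))) (b : Fin M → Bool)
    (x : Fin (2 * M)) :
    KL.newBit M h b (mOf M h x) = !KL.newBit M h b x := by
  rw [bce_newBit, bce_newBit]
  have e := bce_h_mOf M h x
  by_cases hx : (h x).val < M
  · have h1 : (h (mOf M h x)).val = (h x).val + M := by
      rw [e]; unfold flipFun; simp [hx]
    have h2 : ¬ (h (mOf M h x)).val < M := by omega
    simp only [hx, h2, dif_pos, dif_neg, not_false_eq_true]
    congr 2
    apply Fin.ext
    simp only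
    omega
  · have h1 : (h (mOf M h x)).val = (h x).val - M := by
      rw [e]; unfold flipFun; simp [hx]
    have h2 : (h (mOf M h x)).val < M := by omega
    simp only [hx, h2, dif_pos, dif_neg, not_false_eq_true, Bool.not_not]
    congr 1
    apply Fin.ext
    simp only
    omega

private theorem bce_trv_iff (M : ℕ) (σ : Equiv.Perm (Fin (2 * M))) (τ : Fin (2 * M) → Bool) :
    Trv σ (Finset.univ.filter (fun x => τ x = true)) ↔ ∀ a, τ (σ a) = !τ a := by
  unfold Trv
  refine forall_congr' (fun a => ?_)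
  simp only [Finset.mem_filter, Finset.mem_univ, true_and]
  cases τ a <;> cases τ (σ a) <;> simp

private theorem bce_card (M : ℕ) (h : Equiv.Perm (Fin (2 * M))) (τ : Fin (2 * M) → Bool)
    (hτ : ∀ a, τ (mOf M h a) = !τ a) :
    (Finset.univ.filter (fun b : Fin M → Bool => KL.newBit M h b = τ)).card = 1 := by
  rw [Finset.card_eq_one]
  refine ⟨fun y => τ (h⁻¹ ⟨y.val, by omega⟩), ?_⟩
  ext b
  simp only [Finset.mem_filter, Finset.mem_univ, true_and, Finset.mem_singleton]
  constructor
  · intro hb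
    funext y
    rw [← hb, bce_newBit]
    have : (h (h⁻¹ (⟨y.val, by omega⟩ : Fin (2 * M)))).val = y.val := by simp
    have h2 : (h (h⁻¹ (⟨y.val, by omega⟩ : Fin (2 * M)))).val < M := by rw [this]; exact y.2
    simp only [h2, dif_pos]
    congr 1
    apply Fin.ext
    simp
  · intro hb
    subst hb
    funext x
    rw [bce_newBit]
    by_cases hx : (h x).val < M
    · simp only [hx, dif_pos]
      simp
    · simp only [hx, dif_neg, not_false_eq_true]
      have e : (⟨(h x).val - M, by omega⟩ : Fin (2 * M)) = h (mOf M h x) := by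
        rw [bce_h_mOf]; unfold flipFun; simp [hx]
      rw [e]
      simp [hτ]

/-- (F1a) the new-bit channel is the transversal channel of the matching `mOf M h` -/
theorem bitChan_eq (M : ℕ) (h : Equiv.Perm (Fin (2 * M))) (τ : Fin (2 * M) → Bool) :
    KL.bitChan M h τ =
      (1 / 2 ^ M : ℝ) * Wt (Fin (2 * M)) (mOf M h) (Finset.univ.filter (fun x => τ x = true)) := by
  unfold KL.bitChan Wt
  by_cases hτ : ∀ a, τ (mOf M h a) = !τ a
  · have h1 : IsM (mOf M h) ∧ Trv (mOf M h) (Finset.univ.filter (fun x => τ x = true)) :=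
      ⟨isM_mOf M h, (bce_trv_iff M _ τ).2 hτ⟩
    rw [if_pos h1, bce_card M h τ hτ]
    simp
  · have h1 : ¬ (IsM (mOf M h) ∧ Trv (mOf M h) (Finset.univ.filter (fun x => τ x = true))) :=
      fun hh => hτ ((bce_trv_iff M _ τ).1 hh.2)
    rw [if_neg h1]
    have h2 : (Finset.univ.filter (fun b : Fin M → Bool => KL.newBit M h b = τ)) = ∅ := by
      rw [Finset.filter_eq_empty_iff]
      intro b _ hb
      apply hτ
      intro a
      rw [← hb]
      exact bce_newBit_mOf M h b a
    rw [h2]
    simp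

end Vale.Agent.P162.Mid
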