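import Vale.Agent.P162.Mid.Defs
import Vale.Agent.P162.KL.SizeLaws
import Vale.Agent.P162.KL.BL
import Vale.Agent.P162.KL.PairLaw
import Vale.Agent.P162.Scalar.Harmonic
import Vale.Agent.P162.Mid.KlwNonneg
import Vale.Agent.P162.Mid.KlwChain
import Vale.Agent.P162.Mid.KlwChainMap
import Vale.Agent.P162.Mid.KlwMapLe
import Vale.Agent.P162.Mid.KlwSmul
import Vale.Agent.P162.Mid.KlwSumLe
import Vale.Agent.P162.Mid.KlwMonoWeight
import Vale.Agent.P162.Mid.KlwSuper
import Vale.Agent.P162.Mid.SdpiBasic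
import Vale.Agent.P162.Mid.ChainIO
import Vale.Agent.P162.Mid.SdpiOne
import Vale.Agent.P162.Mid.ChainPart
import Vale.Agent.P162.Mid.SdpiEmbed
import Vale.Agent.P162.Mid.SdpiTensor
import Vale.Agent.P162.Mid.SdpiLift
import Vale.Agent.P162.Mid.SdpiReweight
import Vale.Agent.P162.Mid.OutSplit
import Vale.Agent.P162.Mid.Bridge
import Vale.Agent.P162.Mid.StepZAbs
import Vale.Agent.P162.Mid.HalfAbs
import Vale.Agent.P162.Mid.StepTAbs
import Vale.Agent.P162.Mid.GlueP
import Vale.Agent.P162.Mid.GlueS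
import Vale.Agent.P162.Mid.GlueC
import Vale.Agent.P162.Mid.Trv0
import Vale.Agent.P162.Mid.SumTrv
import Vale.Agent.P162.Mid.SumClo
import Vale.Agent.P162.Mid.CountMT
import Vale.Agent.P162.Mid.CardIsM
import Vale.Agent.P162.Mid.DmFormula
import Vale.Agent.P162.Mid.CountClo
import Vale.Agent.P162.Mid.CountClo2
import Vale.Agent.P162.Mid.CountTrv2
import Vale.Agent.P162.Mid.Consts
import Vale.Agent.P162.Mid.SumWp
import Vale.Agent.P162.Mid.SumWcSize
import Vale.Agent.P162.Mid.SumWc
import Vale.Agent.P162.Mid.WpGlue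
import Vale.Agent.P162.Mid.SliceZ
import Vale.Agent.P162.Mid.SumWpRight
import Vale.Agent.P162.Mid.BLEven
import Vale.Agent.P162.Mid.SumW3
import Vale.Agent.P162.Mid.SumW3Right
import Vale.Agent.P162.Mid.SumW3Agr
import Vale.Agent.P162.Mid.W3Glue
import Vale.Agent.P162.Mid.SliceT
import Vale.Agent.P162.Mid.ZcBasic
import Vale.Agent.P162.Mid.ScBasic
import Vale.Agent.P162.Mid.Bad
import Vale.Agent.P162.Mid.ZWeights
import Vale.Agent.P162.Mid.ZBad
import Vale.Agent.P162.Mid.ZGood
import Vale.Agent.P162.Mid.StepZSdpi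
import Vale.Agent.P162.Mid.StepZModel
import Vale.Agent.P162.Mid.TWeights
import Vale.Agent.P162.Mid.TSums
import Vale.Agent.P162.Mid.Ratio
import Vale.Agent.P162.Mid.TGood
import Vale.Agent.P162.Mid.StepTModel
import Vale.Agent.P162.Mid.ScBound
import Vale.Agent.P162.Mid.Flip
import Vale.Agent.P162.Mid.BitChanEq

namespace Vale.Agent.P162.Mid
open Finset

/-- (F1c) -/
theorem isChan_bitChan (M : ℕ) : KL.IsChan (KL.bitChan M) := by
  intro h
  constructor
  · intro τ
    unfold KL.bitChan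
    positivity
  · unfold KL.bitChan
    rw [← Finset.sum_div, ← Nat.cast_sum]
    have h1 : ∑ τ : Fin (2 * M) → Bool,
        (Finset.univ.filter (fun b : Fin M → Bool => KL.newBit M h b = τ)).card =
        (Finset.univ : Finset (Fin M → Bool)).card := by
      rw [Finset.card_eq_sum_card_fiberwise (f := fun b => KL.newBit M h b) (t := Finset.univ)
        (by intro b _; exact Finset.mem_coe.2 (Finset.mem_univ _))]
    rw [h1, Finset.card_univ, Fintype.card_pi]
    simp

end Vale.Agent.P162.Mid
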