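import Vale.Agent.P162.Mid.Defs
import Vale.Agent.P162.KL.SizeLaws
import Vale.Agent.P162.KL.BL
import Vale.Agent.P162.KL.PairLaw
import Vale.Agent.P162.Scalar.Harmonic
import Vale.Agent.P162.Mid.KlwNonneg
import Vale.Agent.P162.Mid.KlwChain
import Vale.Agent.P162.Mid.KlwChainMap
import Vale.Agent.P162.Mid.KlwMapLe
import Vale.Agent.P162.Mid.KlwSmul
import Vale.Agent.P162.Mid.KlwSumLe
import Vale.Agent.P162.Mid.KlwMonoWeight
import Vale.Agent.P162.Mid.KlwSuper
import Vale.Agent.P162.Mid.SdpiBasic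
import Vale.Agent.P162.Mid.ChainIO
import Vale.Agent.P162.Mid.SdpiOne
import Vale.Agent.P162.Mid.ChainPart
import Vale.Agent.P162.Mid.SdpiEmbed
import Vale.Agent.P162.Mid.SdpiTensor
import Vale.Agent.P162.Mid.SdpiLift
import Vale.Agent.P162.Mid.SdpiReweight
import Vale.Agent.P162.Mid.OutSplit
import Vale.Agent.P162.Mid.Bridge
import Vale.Agent.P162.Mid.StepZAbs
import Vale.Agent.P162.Mid.HalfAbs
import Vale.Agent.P162.Mid.StepTAbs
import Vale.Agent.P162.Mid.GlueP
import Vale.Agent.P162.Mid.GlueS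
import Vale.Agent.P162.Mid.GlueC
import Vale.Agent.P162.Mid.Trv0
import Vale.Agent.P162.Mid.SumTrv
import Vale.Agent.P162.Mid.SumClo
import Vale.Agent.P162.Mid.CountMT
import Vale.Agent.P162.Mid.CardIsM
import Vale.Agent.P162.Mid.DmFormula
import Vale.Agent.P162.Mid.CountClo
import Vale.Agent.P162.Mid.CountClo2
import Vale.Agent.P162.Mid.CountTrv2
import Vale.Agent.P162.Mid.Consts
import Vale.Agent.P162.Mid.SumWp
import Vale.Agent.P162.Mid.SumWcSize
import Vale.Agent.P162.Mid.SumWc
import Vale.Agent.P162.Mid.WpGlue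
import Vale.Agent.P162.Mid.SliceZ
import Vale.Agent.P162.Mid.SumWpRight
import Vale.Agent.P162.Mid.BLEven
import Vale.Agent.P162.Mid.SumW3
import Vale.Agent.P162.Mid.SumW3Right
import Vale.Agent.P162.Mid.SumW3Agr
import Vale.Agent.P162.Mid.W3Glue
import Vale.Agent.P162.Mid.SliceT
import Vale.Agent.P162.Mid.ZcBasic
import Vale.Agent.P162.Mid.ScBasic
import Vale.Agent.P162.Mid.Bad
import Vale.Agent.P162.Mid.ZWeights
import Vale.Agent.P162.Mid.ZBad
import Vale.Agent.P162.Mid.ZGood
import Vale.Agent.P162.Mid.StepZSdpi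
import Vale.Agent.P162.Mid.StepZModel
import Vale.Agent.P162.Mid.TWeights
import Vale.Agent.P162.Mid.TSums
import Vale.Agent.P162.Mid.Ratio
import Vale.Agent.P162.Mid.TGood
import Vale.Agent.P162.Mid.StepTModel
import Vale.Agent.P162.Mid.ScBound
import Vale.Agent.P162.Mid.Flip
import Vale.Agent.P162.Mid.BitChanEq
import Vale.Agent.P162.Mid.BitChanLaw
import Vale.Agent.P162.KL.BitChan

namespace Vale.Agent.P162.Mid
open Finset

/-- (F1b) every matching has the same number of preimages under `mOf` (all fixed point free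
involutions are conjugate: `Equiv.Perm.isConj_iff_cycleType_eq`; fibres = cosets of the
centraliser of `flipHalf`) -/
theorem fibre_mOf (M : ℕ) : ∃ F : ℝ, 0 < F ∧ ∀ σ : Equiv.Perm (Fin (2 * M)), IsM σ →
    ∑ h : Equiv.Perm (Fin (2 * M)), (if mOf M h = σ then (1 : ℝ) else 0) = F := by
  refine ⟨∑ h : Equiv.Perm (Fin (2 * M)), (if mOf M h = flipHalf M then (1 : ℝ) else 0), ?_, ?_⟩
  · have h1 : (if mOf M 1 = flipHalf M then (1 : ℝ) else 0) = 1 := by
      rw [if_pos]
      unfold mOf
      simp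
    have h2 := Finset.single_le_sum
      (f := fun h : Equiv.Perm (Fin (2 * M)) => (if mOf M h = flipHalf M then (1 : ℝ) else 0))
      (fun h _ => by split_ifs <;> norm_num) (Finset.mem_univ (1 : Equiv.Perm (Fin (2 * M))))
    rw [h1] at h2
    linarith
  · intro σ hσ
    have hc : IsConj (flipHalf M) σ := by
      rw [Equiv.Perm.isConj_iff_cycleType_eq,
        KL.cycleType_of_isMt _ (show KL.IsMt (flipHalf M) from isM_flipHalf M),
        KL.cycleType_of_isMt _ (show KL.IsMt σ from hσ)]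
    obtain ⟨c, hc⟩ := isConj_iff.1 hc
    have e := Equiv.sum_comp (Equiv.mulRight c⁻¹)
      (fun h : Equiv.Perm (Fin (2 * M)) => (if mOf M h = σ then (1 : ℝ) else 0))
    rw [← e]
    apply Finset.sum_congr rfl
    intro h _
    have hiff : mOf M ((Equiv.mulRight c⁻¹) h) = σ ↔ mOf M h = flipHalf M := by
      simp only [Equiv.coe_mulRight]
      unfold mOf
      rw [← hc]
      constructor
      · intro hh
        have h3 : c⁻¹ * ((h * c⁻¹)⁻¹ * flipHalf M * (h * c⁻¹)) * c =
            c⁻¹ * (c * flipHalf M * c⁻¹) * c := by rw [hh]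
        have h4 : c⁻¹ * ((h * c⁻¹)⁻¹ * flipHalf M * (h * c⁻¹)) * c = h⁻¹ * flipHalf M * h := by
          group
        have h5 : c⁻¹ * (c * flipHalf M * c⁻¹) * c = flipHalf M := by group
        rw [h4, h5] at h3
        exact h3
      · intro hh
        have h4 : (h * c⁻¹)⁻¹ * flipHalf M * (h * c⁻¹) = c * (h⁻¹ * flipHalf M * h) * c⁻¹ := by
          group
        rw [h4, hh]
    simp only [hiff]

end Vale.Agent.P162.Mid
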