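import Vale.Agent.P162.Mid.Defs
import Vale.Agent.P162.KL.SizeLaws
import Vale.Agent.P162.KL.BL
import Vale.Agent.P162.KL.PairLaw
import Vale.Agent.P162.Scalar.Harmonic
import Vale.Agent.P162.Mid.KlwNonneg
import Vale.Agent.P162.Mid.KlwChain
import Vale.Agent.P162.Mid.KlwChainMap
import Vale.Agent.P162.Mid.KlwMapLe
import Vale.Agent.P162.Mid.KlwSmul
import Vale.Agent.P162.Mid.KlwSumLe
import Vale.Agent.P162.Mid.KlwMonoWeight
import Vale.Agent.P162.Mid.KlwSuper
import Vale.Agent.P162.Mid.SdpiBasic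
import Vale.Agent.P162.Mid.ChainIO
import Vale.Agent.P162.Mid.SdpiOne
import Vale.Agent.P162.Mid.ChainPart
import Vale.Agent.P162.Mid.SdpiEmbed
import Vale.Agent.P162.Mid.SdpiTensor
import Vale.Agent.P162.Mid.SdpiLift
import Vale.Agent.P162.Mid.SdpiReweight
import Vale.Agent.P162.Mid.OutSplit
import Vale.Agent.P162.Mid.Bridge
import Vale.Agent.P162.Mid.StepZAbs
import Vale.Agent.P162.Mid.HalfAbs
import Vale.Agent.P162.Mid.StepTAbs
import Vale.Agent.P162.Mid.GlueP
import Vale.Agent.P162.Mid.GlueS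
import Vale.Agent.P162.Mid.GlueC
import Vale.Agent.P162.Mid.Trv0
import Vale.Agent.P162.Mid.SumTrv
import Vale.Agent.P162.Mid.SumClo
import Vale.Agent.P162.Mid.CountMT
import Vale.Agent.P162.Mid.CardIsM
import Vale.Agent.P162.Mid.DmFormula
import Vale.Agent.P162.Mid.CountClo
import Vale.Agent.P162.Mid.CountClo2
import Vale.Agent.P162.Mid.CountTrv2
import Vale.Agent.P162.Mid.Consts
import Vale.Agent.P162.Mid.SumWp
import Vale.Agent.P162.Mid.SumWcSize
import Vale.Agent.P162.Mid.SumWc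
import Vale.Agent.P162.Mid.WpGlue
import Vale.Agent.P162.Mid.SliceZ
import Vale.Agent.P162.Mid.SumWpRight
import Vale.Agent.P162.Mid.BLEven
import Vale.Agent.P162.Mid.SumW3
import Vale.Agent.P162.Mid.SumW3Right
import Vale.Agent.P162.Mid.SumW3Agr
import Vale.Agent.P162.Mid.W3Glue
import Vale.Agent.P162.Mid.SliceT
import Vale.Agent.P162.Mid.ZcBasic
import Vale.Agent.P162.Mid.ScBasic
import Vale.Agent.P162.Mid.Bad
import Vale.Agent.P162.Mid.ZWeights
import Vale.Agent.P162.Mid.ZBad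
import Vale.Agent.P162.Mid.ZGood
import Vale.Agent.P162.Mid.StepZSdpi
import Vale.Agent.P162.Mid.StepZModel
import Vale.Agent.P162.Mid.TWeights
import Vale.Agent.P162.Mid.TSums
import Vale.Agent.P162.Mid.Ratio
import Vale.Agent.P162.Mid.TGood
import Vale.Agent.P162.Mid.StepTModel
import Vale.Agent.P162.Mid.ScBound
import Vale.Agent.P162.Mid.Flip
import Vale.Agent.P162.Mid.BitChanEq
import Vale.Agent.P162.Mid.BitChanLaw
import Vale.Agent.P162.Mid.Fibre

namespace Vale.Agent.P162.Mid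
open Finset

private theorem Wt_nn28 (M : ℕ) (σ : Equiv.Perm (Fin (2 * M))) (T : Finset (Fin (2 * M))) :
    0 ≤ Wt (Fin (2 * M)) σ T := by
  unfold Wt
  split_ifs <;> norm_num

/-- the transversal weight with colourings as outputs -/
private noncomputable def WtB28 (M : ℕ) (σ : Equiv.Perm (Fin (2 * M))) (τ : Fin (2 * M) → Bool) : ℝ :=
  Wt (Fin (2 * M)) σ (Finset.univ.filter (fun x => τ x = true))

private theorem s1_28 (M : ℕ) (η : ℝ) (hs : SDPIw (Wt (Fin (2 * M))) η) : SDPIw (WtB28 M) η := by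
  refine SDPIw_embed (X' := Equiv.Perm (Fin (2 * M))) (Y' := Finset (Fin (2 * M)))
      (fun σ => σ) (fun T a => decide (a ∈ T)) (fun _ _ h => h) ?_ (WtB28 M)
      (Wt (Fin (2 * M))) ?_ ?_ hs
  · intro T1 T2 h
    ext a
    have := congrFun h a
    simpa using this
  · intro σ T
    unfold WtB28
    congr 1
    ext a
    simp
  · intro σ τ _
    refine ⟨⟨σ, rfl⟩, ⟨Finset.univ.filter (fun x => τ x = true), ?_⟩⟩
    funext a
    cases h : τ a <;> simp [h]

private theorem s3_28 (M : ℕ) (η : ℝ) (hη : 0 ≤ η) (F : ℝ) (hF : 0 < F)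
    (hfib : ∀ σ : Equiv.Perm (Fin (2 * M)), IsM σ →
      ∑ h : Equiv.Perm (Fin (2 * M)), (if mOf M h = σ then (1 : ℝ) else 0) = F)
    (hs : SDPIw (WtB28 M) η) :
    SDPIw (fun (h : Equiv.Perm (Fin (2 * M))) (τ : Fin (2 * M) → Bool) =>
      1 / F * (F / 2 ^ M * WtB28 M (mOf M h) τ)) η := by
  have s2 : SDPIw (fun σ τ => F / 2 ^ M * WtB28 M σ τ) η :=
    SDPIw_smul (WtB28 M) (fun σ τ => Wt_nn28 M σ _) (F / 2 ^ M) (by positivity) hs
  refine SDPIw_lift (mOf M) (fun _ => 1 / F) (fun _ => by positivity)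
    (fun σ τ => F / 2 ^ M * WtB28 M σ τ) ?_ ?_ hη s2
  · intro σ τ
    exact mul_nonneg (by positivity) (Wt_nn28 M σ _)
  · intro σ hσ
    have hM : IsM σ := by
      by_contra hn
      apply hσ
      apply Finset.sum_eq_zero
      intro τ _
      unfold WtB28 Wt
      rw [if_neg (fun h => hn h.1), mul_zero]
    have h1 := hfib σ hM
    have h2 : ∀ h : Equiv.Perm (Fin (2 * M)), (if mOf M h = σ then 1 / F else 0) =
        (1 / F) * (if mOf M h = σ then (1 : ℝ) else 0) := by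
      intro h
      split_ifs <;> simp
    simp only [h2]
    rw [← Finset.mul_sum, h1]
    field_simp

/-- (F1) from the transversal channel on matchings to the new-bit channel on permutations -/
theorem bit_of_Wt (M : ℕ) (η : ℝ) (hη : 0 ≤ η) (hs : SDPIw (Wt (Fin (2 * M))) η) :
    KL.SDPI (KL.bitChan M) η := by
  obtain ⟨F, hF, hfib⟩ := fibre_mOf M
  have s3 := s3_28 M η hη F hF hfib (s1_28 M η hs)
  apply SDPI_of_SDPIw _ (isChan_bitChan M)
  have e : KL.bitChan M = fun (h : Equiv.Perm (Fin (2 * M))) (τ : Fin (2 * M) → Bool) =>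
      1 / F * (F / 2 ^ M * WtB28 M (mOf M h) τ) := by
    funext h τ
    rw [bitChan_eq]
    unfold WtB28
    field_simp
  rw [e]
  exact s3

end Vale.Agent.P162.Mid
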