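import Vale.Agent.P162.Mid.Defs
import Vale.Agent.P162.Comb.Split2
import Vale.Agent.P162.KL.SizeLaws

/-!
# P162 (P2) middle layer : concrete facts on the weights `Wc`, `Wp`
-/

namespace Vale.Agent.P162.Mid.H98

open Finset

theorem dm_eq (k : ℕ) : dm k = ((Vale.Agent.P162.dm k : ℕ) : ℝ) := by
  unfold dm Vale.Agent.P162.dm
  congr 1
  apply congrArg
  ext σ
  simp only [Finset.mem_filter, Finset.mem_univ, true_and]
  exact Iff.rfl

theorem dm_nonneg (k : ℕ) : 0 ≤ dm k := by
  rw [dm_eq]; positivity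

theorem dm_pos (M : ℕ) : 0 < dm (2 * M) := by
  rw [dm_eq]
  exact_mod_cast Vale.Agent.P162.dm_pos M

theorem dm_odd (k : ℕ) (hk : ¬ Even k) : dm k = 0 := by
  rw [dm_eq, Vale.Agent.P162.dm_odd k hk]
  simp

theorem dm_zero : dm 0 = 1 := by
  have h := Vale.Agent.P162.dm_formula 0
  rw [dm_eq]
  simp at h
  simp [h]

section

variable {S : Type*} [Fintype S] [DecidableEq S]

theorem clo_iff {σ : Equiv.Perm S} (h : IsM σ) (z : Finset S) : Clo σ z ↔ IsCl σ z := by
  constructor
  · intro hc a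
    constructor
    · intro ha
      have := hc _ ha
      rwa [h.1] at this
    · exact hc a
  · intro hc a ha
    exact (hc a).2 ha

theorem Wc_nonneg (σ : Equiv.Perm S) (z : Finset S) : 0 ≤ Wc S σ z := by
  unfold Wc
  split_ifs
  · have := dm_nonneg z.card
    have := dm_nonneg (Fintype.card S - z.card)
    positivity
  · exact le_rfl

theorem Wp_nonneg (σ : Equiv.Perm S) (p : Finset S × Finset S) : 0 ≤ Wp S σ p := by
  unfold Wp
  split_ifs
  · have := dm_nonneg (p.1 ∩ p.2).card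
    have := dm_nonneg (p.1 \ p.2).card
    have := dm_nonneg (p.2 \ p.1).card
    have := dm_nonneg (Fintype.card S - (p.1 ∪ p.2).card)
    positivity
  · exact le_rfl

theorem Wp_symm (σ : Equiv.Perm S) (y1 y2 : Finset S) : Wp S σ (y1, y2) = Wp S σ (y2, y1) := by
  unfold Wp
  by_cases h : IsM σ ∧ Clo σ y1 ∧ Clo σ y2
  · rw [if_pos h, if_pos ⟨h.1, h.2.2, h.2.1⟩]
    simp only [Finset.inter_comm y1 y2, Finset.union_comm y1 y2]
    congr 1; ring
  · rw [if_neg h, if_neg (fun hh => h ⟨hh.1, hh.2.2, hh.2.1⟩)]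

/-- sums of a function of the size against `Wc` -/
theorem sum_Wc_size {σ : Equiv.Perm S} (h : IsM σ) {M : ℕ} (hM : Fintype.card S = 2 * M)
    (f : ℕ → ℝ) :
    ∑ z, f z.card * Wc S σ z =
      ∑ n ∈ Finset.range (M + 1), f (2 * n) * (((2 * M).choose (2 * n) : ℝ) / dm (2 * M)) := by
  have h1 : ∑ z, f z.card * Wc S σ z =
      ∑ z ∈ univ.filter (fun z : Finset S => IsCl σ z),
        (fun k => f k * (1 / (dm k * dm (2 * M - k)))) z.card := by
    rw [Finset.sum_filter]
    apply Finset.sum_congr rfl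
    intro z _
    unfold Wc
    by_cases hz : IsCl σ z
    · rw [if_pos hz, if_pos ⟨h, (clo_iff h z).2 hz⟩, hM]
    · rw [if_neg hz, if_neg (fun hh => hz ((clo_iff h z).1 hh.2)), mul_zero]
  rw [h1, Vale.Agent.P162.sum_cl_card h hM (fun k => f k * (1 / (dm k * dm (2 * M - k))))]
  apply Finset.sum_congr rfl
  intro n hn
  have hn' : n ≤ M := by
    have := Finset.mem_range.1 hn
    omega
  have hc := Vale.Agent.P162.choose_mul_dm hn'
  have hc' : (M.choose n : ℝ) * dm (2 * M) =
      ((2 * M).choose (2 * n) : ℝ) * dm (2 * n) * dm (2 * M - 2 * n) := by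
    rw [dm_eq, dm_eq, dm_eq]
    exact_mod_cast hc
  have p1 := dm_pos M
  have p2 := dm_pos n
  have p3 : 0 < dm (2 * M - 2 * n) := by
    have e : 2 * M - 2 * n = 2 * (M - n) := by omega
    rw [e]; exact dm_pos _
  field_simp
  linear_combination (f (2 * n)) * hc'

end

end Vale.Agent.P162.Mid.H98
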