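import Vale.Agent.P162.Mid.ConcT3
import Vale.Agent.P162.P2.WcChan

/-!
# P162 Mid, concrete STEP T : conclusion
-/

namespace Vale.Agent.P162.Mid.T23
open Finset

/-- hypothesis `hgood` of `stepT_abs` -/
theorem hgood_conc {S : Type} [Fintype S] [DecidableEq S] {M : ℕ} (hS : Fintype.card S = 2 * M)
    (sg : ℝ) (hT : ∀ n, 2 * M ≤ 5 * n → 5 * n ≤ 3 * M → TOK n sg)
    (z : Finset S) (hz : z ∉ badT (S := S) M) :
    SDPIw (fun σ p => if agr p = z then W3 S σ p else 0) sg := by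
  unfold badT at hz
  simp only [mem_filter, mem_univ, true_and, not_not] at hz
  by_cases hev : Even z.card
  · obtain ⟨a, ha⟩ := hev
    have e2 : z.card / 2 = a := by omega
    rw [e2] at hz
    have hle : z.card ≤ 2 * M := by
      rw [← hS]
      exact Finset.card_le_univ z
    have c1 : Fintype.card {a // a ∈ z} = 2 * a := by
      rw [Fintype.card_coe]
      omega
    have c2 : Fintype.card {a // ¬ a ∈ z} = 2 * (M - a) := by
      rw [Fintype.card_subtype_compl, Fintype.card_coe, hS]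
      omega
    have t1 := hT a hz.1 hz.2
    have t2 := hT (M - a) (by omega) (by omega)
    have s1 : SDPIw (Wt {a // a ∈ z}) sg := t1.2 _ c1
    have s2 : SDPIw (Wt {a // ¬ a ∈ z}) sg := t2.2 _ c2
    have s3 := SDPIw_tensor (Wt {a // a ∈ z}) (Wt {a // ¬ a ∈ z}) Wt_nonneg Wt_nonneg t1.1 s1 s2
    have s4 := SDPIw_smul
      (fun (x : Equiv.Perm {a // a ∈ z} × Equiv.Perm {a // ¬ a ∈ z})
        (y : Finset {a // a ∈ z} × Finset {a // ¬ a ∈ z}) =>
          Wt {a // a ∈ z} x.1 y.1 * Wt {a // ¬ a ∈ z} x.2 y.2)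
      (fun x y => mul_nonneg (Wt_nonneg x.1 y.1) (Wt_nonneg x.2 y.2))
      (gT M z.card) (gT_pos M z.card).le s3
    exact SDPIw_embed (glp z) (gl2 z) (H98.glp_injective z) (gl2_injective z) _ _
      (fun s t => W3_factor hS z s t) (fun σ p h => W3_slice_supp z σ p h) s4
  · apply SDPIw_zero
    intro σ p
    by_contra h
    obtain ⟨⟨s, hs⟩, -⟩ := W3_slice_supp z σ p h
    have hσ : IsM σ := by
      by_contra hn
      apply h
      rw [W3_of_not hn, ite_self]
    have hc : Clo σ z := by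
      rw [← hs]
      exact H98.clo_glp_self z s
    exact hev (IsCl.even (μ := σ) hσ ((clo_iff hσ z).mp hc))

/-- CONCRETE TWO COPIES : the transversal channel has the constant `1/2` -/
theorem half_conc (M : ℕ) : TOK M (1 / 2) := by
  refine ⟨by norm_num, ?_⟩
  intro S _ _ hS
  exact half_abs (W3 S) (Wt S) W3_nonneg Wt_nonneg bal bal bal_nonneg bal_nonneg W3_sum_perm
    (cT M) (cT_pos M) (W3_marg1 hS) (W3_marg2 hS)

/-- CONCRETE STEP T -/
theorem stepT_conc {M : ℕ} (hM : 2 ≤ M) (zt sg : ℝ) (hz : ZOK M zt) (hsg : 0 ≤ sg)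
    (hT : ∀ n, 2 * M ≤ 5 * n → 5 * n ≤ 3 * M → TOK n sg) :
    TOK M ((20 / 19 * zt + sg + 50 / (M : ℝ)) / 2) := by
  have hM0 : (0 : ℝ) < M := by exact_mod_cast (by omega : 0 < M)
  have hM1 : 1 ≤ M := by omega
  have hzt := hz.1
  refine ⟨by positivity, ?_⟩
  intro S _ _ hS
  have hκ : 0 < 2 ^ M * cT M / bS M := by
    have h1 := cT_pos M
    have h2 := bS_pos hM1
    positivity
  have key := stepT_abs (W3 S) (Wt S) (Wc S) agr W3_nonneg Wt_nonneg Wc_nonneg bal bal
    bal_nonneg bal_nonneg W3_sum_perm (cT M) (cT_pos M) (W3_marg1 hS) (W3_marg2 hS)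
    (lamT M) (lamT_nonneg M) (hlam_conc hS) (badT M) (20 / 19 * (2 ^ M * cT M / bS M)) (cB M)
    (2 ^ M * cT M / bS M) (by positivity) (cB_nonneg M) (cB_le_one M) hκ
    (fun z hz => hl0_conc hM1 hS z hz) (hB_conc hS) (hu_conc hM1 hS) zt hzt (hz.2 S hS) sg hsg
    (hgood_conc hS sg hT)
  refine SDPIw_mono _ Wt_nonneg ?_ key
  have e : 20 / 19 * (2 ^ M * cT M / bS M) / (2 ^ M * cT M / bS M) = 20 / 19 := by
    rw [mul_div_assoc, div_self hκ.ne', mul_one]
  rw [e]
  have hc : cB M ≤ 25 / (M : ℝ) := P2.pH_window_tail hM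
  have : 50 / (M : ℝ) = 2 * (25 / (M : ℝ)) := by ring
  rw [this]
  linarith

end Vale.Agent.P162.Mid.T23
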