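import Vale.Agent.P162.Mid.Defs
import Vale.Agent.P162.Comb.TwoTr
import Vale.Agent.P162.Comb.Split

/-!
# P162 Mid, concrete STEP T, part 0 : dictionary with `Comb/*` and set lemmas
-/

namespace Vale.Agent.P162.Mid.T23
open Finset

variable {S : Type*} [Fintype S] [DecidableEq S]

theorem trv_iff (σ : Equiv.Perm S) (T : Finset S) : Trv σ T ↔ IsTr σ T := by
  unfold Trv IsTr
  constructor
  · intro h x
    have := h x
    tauto
  · intro h x
    have := h x
    tauto

theorem clo_iff {σ : Equiv.Perm S} (h : IsM σ) (z : Finset S) : Clo σ z ↔ IsCl σ z := by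
  constructor
  · intro hc x
    constructor
    · intro hx
      have := hc _ hx
      rwa [h.1] at this
    · exact hc x
  · intro hc x hx
    exact (hc x).mpr hx

theorem dm_eq (k : ℕ) : dm k = (Vale.Agent.P162.dm k : ℝ) := by
  unfold dm Vale.Agent.P162.dm
  congr 1
  apply congrArg Finset.card
  ext σ
  simp only [mem_filter, mem_univ, true_and]
  exact Iff.rfl

theorem dm_pos (M : ℕ) : 0 < dm (2 * M) := by
  rw [dm_eq]
  exact_mod_cast Vale.Agent.P162.dm_pos M

/-- sum of an indicator times a constant, whatever the decidability instances -/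
theorem sum_ite_card {α : Type*} [Fintype α] (P : α → Prop) (d1 d2 : DecidablePred P) (c : ℝ) :
    ∑ x, (@ite ℝ (P x) (d1 x) c 0) = ((@Finset.filter α P d2 univ).card : ℝ) * c := by
  have : d1 = d2 := Subsingleton.elim _ _
  subst this
  rw [← Finset.sum_filter, Finset.sum_const, nsmul_eq_mul]

/-- the set which agrees with `y` on `z` and with the complement of `y` off `z` -/
def flp (z y : Finset S) : Finset S := univ.filter (fun x => (x ∈ z ↔ x ∈ y))

theorem mem_flp (z y : Finset S) (x : S) : x ∈ flp z y ↔ (x ∈ z ↔ x ∈ y) := by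
  simp [flp]

theorem mem_agr (p : Finset S × Finset S) (x : S) : x ∈ agr p ↔ (x ∈ p.1 ↔ x ∈ p.2) := by
  simp only [agr, mem_union, mem_inter, mem_compl]
  tauto

theorem agr_eq_iff (y1 y2 z : Finset S) : agr (y1, y2) = z ↔ y2 = flp z y1 := by
  constructor
  · rintro rfl
    ext x
    rw [mem_flp, mem_agr]
    simp only
    tauto
  · rintro rfl
    ext x
    rw [mem_agr]
    simp only
    rw [mem_flp]
    tauto

theorem flp_flp (z y : Finset S) : flp (flp z y) y = z := by
  ext x
  rw [mem_flp, mem_flp]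
  tauto

theorem inter_flp (z y : Finset S) : y ∩ flp z y = y ∩ z := by
  ext x
  rw [mem_inter, mem_inter, mem_flp]
  tauto

theorem sdiff_flp (z y : Finset S) : y \ flp z y = y \ z := by
  ext x
  rw [mem_sdiff, mem_sdiff, mem_flp]
  tauto

theorem trv_flp {σ : Equiv.Perm S} (hσ : IsM σ) {y : Finset S} (hy : Trv σ y) (z : Finset S) :
    Trv σ (flp z y) ↔ Clo σ z := by
  rw [clo_iff hσ]
  unfold Trv IsCl
  constructor
  · intro h x
    have h1 := h x
    have h2 := hy x
    rw [mem_flp, mem_flp] at h1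
    tauto
  · intro h x
    have h1 := h x
    have h2 := hy x
    rw [mem_flp, mem_flp]
    tauto

theorem trv_card {σ : Equiv.Perm S} (hσ : IsM σ) {y : Finset S} (hy : Trv σ y) :
    2 * y.card = Fintype.card S :=
  IsTr.card (μ := σ) hσ ((trv_iff σ y).mp hy)

theorem card_inter_trv_clo {σ : Equiv.Perm S} (hσ : IsM σ) {y z : Finset S} (hy : Trv σ y)
    (hz : Clo σ z) : 2 * (y ∩ z).card = z.card := by
  have hz' := (clo_iff hσ z).mp hz
  have h1 : (y ∩ z).image σ = z \ y := by
    ext x
    simp only [mem_image, mem_inter, mem_sdiff]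
    constructor
    · rintro ⟨a, ⟨ha1, ha2⟩, rfl⟩
      exact ⟨hz a ha2, (hy a).mp ha1⟩
    · rintro ⟨hx1, hx2⟩
      refine ⟨σ x, ⟨?_, hz x hx1⟩, hσ.1 x⟩
      rw [hy (σ x), hσ.1 x]
      exact hx2
  have h2 : (z \ y).card = (y ∩ z).card := by
    rw [← h1, Finset.card_image_of_injective _ σ.injective]
  have h3 : (z \ y).card + (z ∩ y).card = z.card := Finset.card_sdiff_add_card_inter z y
  rw [Finset.inter_comm z y] at h3
  omega

end Vale.Agent.P162.Mid.T23
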