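import Vale.Agent.P162.Mid.ConcT0

/-!
# P162 Mid, concrete STEP T, part 1 : the sums of the weight `W3`
-/

namespace Vale.Agent.P162.Mid.T23
open Finset

variable {S : Type*} [Fintype S] [DecidableEq S]

/-- weight of a pair of transversals whose agreement set has `k` points -/
noncomputable def gT (M k : ℕ) : ℝ :=
  1 / (((k / 2).factorial : ℝ) * ((M - k / 2).factorial : ℝ))

theorem gT_pos (M k : ℕ) : 0 < gT M k := by
  unfold gT
  positivity

/-- indicator of the balanced sets -/
noncomputable def bal (y : Finset S) : ℝ := if 2 * y.card = Fintype.card S then 1 else 0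

theorem bal_nonneg (y : Finset S) : 0 ≤ bal y := by
  unfold bal
  split_ifs <;> norm_num

/-- total weight of the second transversal -/
noncomputable def cT (M : ℕ) : ℝ := ∑ n ∈ range (M + 1), (M.choose n : ℝ) * gT M (2 * n)

theorem cT_pos (M : ℕ) : 0 < cT M := by
  unfold cT
  apply Finset.sum_pos
  · intro n hn
    have h1 : 0 < M.choose n := Nat.choose_pos (by simp at hn; omega)
    have h2 := gT_pos M (2 * n)
    positivity
  · exact ⟨0, by simp⟩

theorem W3_nonneg (σ : Equiv.Perm S) (p : Finset S × Finset S) : 0 ≤ W3 S σ p := by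
  unfold W3
  split_ifs
  · positivity
  · exact le_refl _

theorem Wt_nonneg (σ : Equiv.Perm S) (T : Finset S) : 0 ≤ Wt S σ T := by
  unfold Wt
  split_ifs <;> norm_num

theorem Wc_nonneg (σ : Equiv.Perm S) (z : Finset S) : 0 ≤ Wc S σ z := by
  unfold Wc
  split_ifs
  · rw [dm_eq, dm_eq]
    positivity
  · exact le_refl _

open Classical in
theorem W3_flp {M : ℕ} (hS : Fintype.card S = 2 * M) {σ : Equiv.Perm S} (hσ : IsM σ)
    {y : Finset S} (hy : Trv σ y) (z : Finset S) :
    W3 S σ (y, flp z y) = if Clo σ z then gT M z.card else 0 := by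
  unfold W3
  by_cases hz : Clo σ z
  · rw [if_pos hz, if_pos ⟨hσ, hy, (trv_flp hσ hy z).mpr hz⟩]
    simp only
    rw [inter_flp, sdiff_flp]
    have h1 := card_inter_trv_clo hσ hy hz
    have h2 := trv_card hσ hy
    have h3 : (y \ z).card + (y ∩ z).card = y.card := Finset.card_sdiff_add_card_inter y z
    have e1 : (y ∩ z).card = z.card / 2 := by omega
    have e2 : (y \ z).card = M - z.card / 2 := by omega
    rw [e1, e2]
    rfl
  · rw [if_neg hz, if_neg]
    rintro ⟨-, -, h⟩
    exact hz ((trv_flp hσ hy z).mp h)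

open Classical in
/-- sums over the closed sets of a matching -/
theorem sum_clo {M : ℕ} (hS : Fintype.card S = 2 * M) {σ : Equiv.Perm S} (hσ : IsM σ)
    (f : ℕ → ℝ) :
    ∑ z : Finset S, (if Clo σ z then f z.card else 0)
      = ∑ n ∈ range (M + 1), (M.choose n : ℝ) * f (2 * n) := by
  rw [← sum_cl_card (μ := σ) hσ hS f, Finset.sum_filter]
  apply Finset.sum_congr rfl
  intro z _
  by_cases hz : Clo σ z
  · rw [if_pos hz, if_pos ((clo_iff hσ z).mp hz)]
  · rw [if_neg hz, if_neg (fun h => hz ((clo_iff hσ z).mpr h))]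

/-- the reference weight of the pair of transversals is a product -/
theorem W3_sum_perm (y1 y2 : Finset S) : ∑ σ, W3 S σ (y1, y2) = bal y1 * bal y2 := by
  unfold W3
  simp only
  rw [sum_ite_card _ _ (fun σ => Classical.propDecidable _)]
  by_cases h1 : 2 * y1.card = Fintype.card S
  · by_cases h2 : 2 * y2.card = Fintype.card S
    · have hc := card_mat_tr2 y1 y2 h1 h2
      have he : (@Finset.filter _ (fun σ : Equiv.Perm S => IsM σ ∧ Trv σ y1 ∧ Trv σ y2)
          (fun σ => Classical.propDecidable _) univ)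
          = univ.filter (fun μ : Equiv.Perm S => IsMat μ ∧ IsTr μ y1 ∧ IsTr μ y2) := by
        ext σ
        simp only [mem_filter, mem_univ, true_and, trv_iff]
        exact Iff.rfl
      rw [he, hc]
      unfold bal
      rw [if_pos h1, if_pos h2]
      push_cast
      have a1 : ((y1 ∩ y2).card.factorial : ℝ) ≠ 0 := by positivity
      have a2 : ((y1 \ y2).card.factorial : ℝ) ≠ 0 := by positivity
      field_simp
    · have he : (@Finset.filter _ (fun σ : Equiv.Perm S => IsM σ ∧ Trv σ y1 ∧ Trv σ y2)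
          (fun σ => Classical.propDecidable _) univ) = ∅ := by
        ext σ
        simp only [mem_filter, mem_univ, true_and, notMem_empty, iff_false]
        rintro ⟨hσ, -, ht⟩
        exact h2 (trv_card hσ ht)
      rw [he]
      unfold bal
      rw [if_neg h2]
      simp
  · have he : (@Finset.filter _ (fun σ : Equiv.Perm S => IsM σ ∧ Trv σ y1 ∧ Trv σ y2)
        (fun σ => Classical.propDecidable _) univ) = ∅ := by
      ext σ
      simp only [mem_filter, mem_univ, true_and, notMem_empty, iff_false]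
      rintro ⟨hσ, ht, -⟩
      exact h1 (trv_card hσ ht)
    rw [he]
    unfold bal
    rw [if_neg h1]
    simp

theorem W3_symm (σ : Equiv.Perm S) (y1 y2 : Finset S) : W3 S σ (y1, y2) = W3 S σ (y2, y1) := by
  unfold W3
  simp only
  by_cases h : IsM σ ∧ Trv σ y1 ∧ Trv σ y2
  · rw [if_pos h, if_pos ⟨h.1, h.2.2, h.2.1⟩]
    have c1 := trv_card h.1 h.2.1
    have c2 := trv_card h.1 h.2.2
    have h3 : (y1 \ y2).card + (y1 ∩ y2).card = y1.card := Finset.card_sdiff_add_card_inter y1 y2
    have h4 : (y2 \ y1).card + (y2 ∩ y1).card = y2.card := Finset.card_sdiff_add_card_inter y2 y1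
    rw [Finset.inter_comm y2 y1] at h4 ⊢
    have : (y1 \ y2).card = (y2 \ y1).card := by omega
    rw [this]
  · rw [if_neg h, if_neg (fun h' => h ⟨h'.1, h'.2.2, h'.2.1⟩)]

/-- first marginal of `W3` -/
theorem W3_marg1 {M : ℕ} (hS : Fintype.card S = 2 * M) (σ : Equiv.Perm S) (y1 : Finset S) :
    ∑ y2, W3 S σ (y1, y2) = cT M * Wt S σ y1 := by
  by_cases h : IsM σ ∧ Trv σ y1
  · have e : ∑ y2, W3 S σ (y1, y2) = ∑ z, W3 S σ (y1, flp z y1) := by
      let E : Finset S ≃ Finset S :=
        ⟨fun z => flp z y1, fun z => flp z y1, fun z => flp_flp z y1, fun z => flp_flp z y1⟩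
      exact (Equiv.sum_comp E (fun y2 => W3 S σ (y1, y2))).symm
    rw [e, Finset.sum_congr rfl (fun z _ => W3_flp hS h.1 h.2 z), sum_clo hS h.1 (gT M)]
    unfold Wt cT
    rw [if_pos h, mul_one]
  · unfold Wt
    rw [if_neg h, mul_zero]
    apply Finset.sum_eq_zero
    intro y2 _
    unfold W3
    rw [if_neg (fun h' => h ⟨h'.1, h'.2.1⟩)]

/-- second marginal of `W3` -/
theorem W3_marg2 {M : ℕ} (hS : Fintype.card S = 2 * M) (σ : Equiv.Perm S) (y2 : Finset S) :
    ∑ y1, W3 S σ (y1, y2) = cT M * Wt S σ y2 := by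
  rw [← W3_marg1 hS σ y2]
  exact Finset.sum_congr rfl (fun y1 _ => W3_symm σ y1 y2)

open Classical in
/-- the law of the agreement set -/
theorem W3_agr {M : ℕ} (hS : Fintype.card S = 2 * M) {σ : Equiv.Perm S} (hσ : IsM σ)
    (z : Finset S) :
    ∑ p, (if agr p = z then W3 S σ p else 0)
      = 2 ^ M * (if Clo σ z then gT M z.card else 0) := by
  rw [Fintype.sum_prod_type]
  have h1 : ∀ y1 : Finset S, ∑ y2, (if agr (y1, y2) = z then W3 S σ (y1, y2) else 0)
      = if Trv σ y1 then (if Clo σ z then gT M z.card else 0) else 0 := by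
    intro y1
    have h2 : ∀ y2 : Finset S, (if agr (y1, y2) = z then W3 S σ (y1, y2) else 0)
        = if y2 = flp z y1 then W3 S σ (y1, y2) else 0 := by
      intro y2
      by_cases hh : agr (y1, y2) = z
      · rw [if_pos hh, if_pos ((agr_eq_iff y1 y2 z).mp hh)]
      · rw [if_neg hh, if_neg (fun h' => hh ((agr_eq_iff y1 y2 z).mpr h'))]
    rw [Finset.sum_congr rfl (fun y2 _ => h2 y2), Finset.sum_ite_eq' univ (flp z y1),
      if_pos (mem_univ _)]
    by_cases hy : Trv σ y1
    · rw [if_pos hy, W3_flp hS hσ hy z]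
    · rw [if_neg hy]
      unfold W3
      rw [if_neg (fun h' => hy h'.2.1)]
  rw [Finset.sum_congr rfl (fun y1 _ => h1 y1), sum_ite_card _ _ (fun y => Classical.propDecidable _)]
  have he : (@Finset.filter _ (fun y : Finset S => Trv σ y)
      (fun y => Classical.propDecidable _) univ) = univ.filter (fun y : Finset S => IsTr σ y) := by
    ext y
    simp only [mem_filter, mem_univ, true_and, trv_iff]
  rw [he, card_tr (μ := σ) hσ, hS]
  have : 2 * M / 2 = M := by omega
  rw [this]
  push_cast
  ring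

end Vale.Agent.P162.Mid.T23
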