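import Vale.Agent.P162.Mid.ConcT1
import Vale.Agent.P162.KL.SizeLaws

/-!
# P162 Mid, concrete STEP T, part 2 : the agreement set versus the closed-set channel
-/

namespace Vale.Agent.P162.Mid.T23
open Finset

variable {S : Type*} [Fintype S] [DecidableEq S]

/-- density of the law of the agreement set with respect to `Wc` -/
noncomputable def lamT (M : ℕ) (z : Finset S) : ℝ :=
  2 ^ M * gT M z.card * (dm z.card * dm (2 * M - z.card))

theorem lamT_nonneg (M : ℕ) (z : Finset S) : 0 ≤ lamT M z := by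
  unfold lamT
  have := gT_pos M z.card
  rw [dm_eq, dm_eq]
  positivity

/-- total weight of `Wc` -/
noncomputable def bS (M : ℕ) : ℝ :=
  ∑ n ∈ range (M + 1), (M.choose n : ℝ) * (1 / (dm (2 * n) * dm (2 * M - 2 * n)))

/-- the outputs outside the window -/
def badT (M : ℕ) : Finset (Finset S) :=
  univ.filter (fun z => ¬ (2 * M ≤ 5 * (z.card / 2) ∧ 5 * (z.card / 2) ≤ 3 * M))

/-- the mass of the sizes outside the window -/
noncomputable def cB (M : ℕ) : ℝ :=
  ∑ n ∈ (range (M + 1)).filter (fun n : ℕ => ¬ (2 * M ≤ 5 * n ∧ 5 * n ≤ 3 * M)), pH M n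

theorem choose_gT {M n : ℕ} (hn : n ≤ M) :
    (M.choose n : ℝ) * gT M (2 * n)
      = ((2 * M).choose M : ℝ) / (M.factorial : ℝ) * pH M n := by
  unfold gT pH
  have e : 2 * n / 2 = n := by omega
  rw [e]
  have h := Nat.choose_mul_factorial_mul_factorial hn
  have h' : (M.choose n : ℝ) * (n.factorial : ℝ) * ((M - n).factorial : ℝ) = (M.factorial : ℝ) := by
    exact_mod_cast h
  have a1 : (n.factorial : ℝ) ≠ 0 := by positivity
  have a2 : ((M - n).factorial : ℝ) ≠ 0 := by positivity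
  have a3 : (M.factorial : ℝ) ≠ 0 := by positivity
  have a4 : (((2 * M).choose M : ℕ) : ℝ) ≠ 0 := by
    have : 0 < (2 * M).choose M := Nat.choose_pos (by omega)
    positivity
  rw [← h']
  field_simp

theorem cT_eq (M : ℕ) : cT M = ((2 * M).choose M : ℝ) / (M.factorial : ℝ) := by
  unfold cT
  rw [Finset.sum_congr rfl (fun n hn => choose_gT (by simp at hn; omega)), ← Finset.mul_sum,
    sum_pH, mul_one]

theorem choose_gT' {M n : ℕ} (hn : n ≤ M) :
    (M.choose n : ℝ) * gT M (2 * n) = cT M * pH M n := by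
  rw [cT_eq, choose_gT hn]

theorem choose_dm {M n : ℕ} (hn : n ≤ M) :
    (M.choose n : ℝ) * (1 / (dm (2 * n) * dm (2 * M - 2 * n)))
      = (2 : ℝ) ^ (2 * M - 1) / dm (2 * M) * pu M n := by
  have h := choose_mul_dm hn
  have h' : (M.choose n : ℝ) * dm (2 * M)
      = ((2 * M).choose (2 * n) : ℝ) * dm (2 * n) * dm (2 * M - 2 * n) := by
    rw [dm_eq, dm_eq, dm_eq]
    exact_mod_cast h
  have p1 := dm_pos M
  have p2 := dm_pos n
  have p3 : 0 < dm (2 * M - 2 * n) := by
    have : 2 * M - 2 * n = 2 * (M - n) := by omega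
    rw [this]
    exact dm_pos _
  unfold pu
  have a1 := p1.ne'
  have a2 := p2.ne'
  have a3 := p3.ne'
  field_simp
  linarith

theorem bS_eq {M : ℕ} (hM : 1 ≤ M) : bS M = (2 : ℝ) ^ (2 * M - 1) / dm (2 * M) := by
  unfold bS
  rw [Finset.sum_congr rfl (fun n hn => choose_dm (by simp at hn; omega)), ← Finset.mul_sum,
    sum_pu hM, mul_one]

theorem bS_pos {M : ℕ} (hM : 1 ≤ M) : 0 < bS M := by
  rw [bS_eq hM]
  have := dm_pos M
  positivity

theorem choose_dm' {M n : ℕ} (hM : 1 ≤ M) (hn : n ≤ M) :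
    (M.choose n : ℝ) * (1 / (dm (2 * n) * dm (2 * M - 2 * n))) = bS M * pu M n := by
  rw [bS_eq hM, choose_dm hn]

open Classical in
/-- `lamT * Wc` in closed form -/
theorem lamT_mul_Wc {M : ℕ} (hS : Fintype.card S = 2 * M) {σ : Equiv.Perm S} (hσ : IsM σ)
    (z : Finset S) :
    lamT M z * Wc S σ z = 2 ^ M * (if Clo σ z then gT M z.card else 0) := by
  unfold Wc lamT
  by_cases hz : Clo σ z
  · rw [if_pos hz, if_pos ⟨hσ, hz⟩, hS]
    obtain ⟨a, ha⟩ := IsCl.even (μ := σ) hσ ((clo_iff hσ z).mp hz)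
    have hle : z.card ≤ 2 * M := by
      rw [← hS]
      exact Finset.card_le_univ z
    have e1 : z.card = 2 * a := by omega
    have e2 : 2 * M - z.card = 2 * (M - a) := by omega
    have p1 : 0 < dm z.card := by rw [e1]; exact dm_pos a
    have p2 : 0 < dm (2 * M - z.card) := by rw [e2]; exact dm_pos _
    have a1 := p1.ne'
    have a2 := p2.ne'
    field_simp
  · rw [if_neg hz, if_neg (fun h => hz h.2), mul_zero, mul_zero]

theorem Wc_of_not {σ : Equiv.Perm S} (hσ : ¬ IsM σ) (z : Finset S) : Wc S σ z = 0 := by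
  unfold Wc
  rw [if_neg (fun h => hσ h.1)]

theorem W3_of_not {σ : Equiv.Perm S} (hσ : ¬ IsM σ) (p : Finset S × Finset S) :
    W3 S σ p = 0 := by
  unfold W3
  rw [if_neg (fun h => hσ h.1)]

/-- hypothesis `hlam` of `stepT_abs` -/
theorem hlam_conc {M : ℕ} (hS : Fintype.card S = 2 * M) (σ : Equiv.Perm S) (z : Finset S) :
    ∑ p, (if agr p = z then W3 S σ p else 0) = lamT M z * Wc S σ z := by
  by_cases hσ : IsM σ
  · rw [lamT_mul_Wc hS hσ z]
    convert W3_agr hS hσ z using 2
  · rw [Wc_of_not hσ, mul_zero]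
    apply Finset.sum_eq_zero
    intro p _
    rw [W3_of_not hσ, ite_self]

theorem sum_lamT_Wc {M : ℕ} (hS : Fintype.card S = 2 * M) {σ : Equiv.Perm S} (hσ : IsM σ) :
    ∑ z, lamT M z * Wc S σ z = 2 ^ M * cT M := by
  classical
  rw [Finset.sum_congr rfl (fun z _ => lamT_mul_Wc hS hσ z), ← Finset.mul_sum,
    sum_clo hS hσ (gT M)]
  rfl

theorem sum_Wc {M : ℕ} (hS : Fintype.card S = 2 * M) {σ : Equiv.Perm S} (hσ : IsM σ) :
    ∑ z, Wc S σ z = bS M := by
  classical
  have h : ∀ z : Finset S, Wc S σ z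
      = if Clo σ z then (fun k : ℕ => 1 / (dm k * dm (2 * M - k))) z.card else 0 := by
    intro z
    unfold Wc
    by_cases hz : Clo σ z
    · rw [if_pos hz, if_pos ⟨hσ, hz⟩, hS]
    · rw [if_neg hz, if_neg (fun h => hz h.2)]
  rw [Finset.sum_congr rfl (fun z _ => h z),
    sum_clo hS hσ (fun k : ℕ => 1 / (dm k * dm (2 * M - k)))]
  rfl

/-- hypothesis `hu` of `stepT_abs` -/
theorem hu_conc {M : ℕ} (hM : 1 ≤ M) (hS : Fintype.card S = 2 * M) (σ : Equiv.Perm S) :
    ∑ z, lamT M z * Wc S σ z = (2 ^ M * cT M / bS M) * ∑ z, Wc S σ z := by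
  by_cases hσ : IsM σ
  · rw [sum_lamT_Wc hS hσ, sum_Wc hS hσ]
    have := (bS_pos hM).ne'
    field_simp
  · simp [Wc_of_not hσ]

/-- hypothesis `hB` of `stepT_abs` -/
theorem hB_conc {M : ℕ} (hS : Fintype.card S = 2 * M) (σ : Equiv.Perm S) :
    ∑ z ∈ badT M, lamT M z * Wc S σ z = cB M * ∑ z, lamT M z * Wc S σ z := by
  classical
  by_cases hσ : IsM σ
  · rw [sum_lamT_Wc hS hσ]
    unfold badT
    rw [Finset.sum_filter]
    have h : ∀ z : Finset S,
        (if ¬ (2 * M ≤ 5 * (z.card / 2) ∧ 5 * (z.card / 2) ≤ 3 * M) then lamT M z * Wc S σ z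
          else 0)
        = if Clo σ z then (fun k : ℕ => if ¬ (2 * M ≤ 5 * (k / 2) ∧ 5 * (k / 2) ≤ 3 * M) then
            2 ^ M * gT M k else 0) z.card else 0 := by
      intro z
      rw [lamT_mul_Wc hS hσ z]
      by_cases hz : Clo σ z
      · rw [if_pos hz, if_pos hz]
      · rw [if_neg hz, if_neg hz, mul_zero, ite_self]
    rw [Finset.sum_congr rfl (fun z _ => h z),
      sum_clo hS hσ (fun k : ℕ => if ¬ (2 * M ≤ 5 * (k / 2) ∧ 5 * (k / 2) ≤ 3 * M) then
            2 ^ M * gT M k else 0)]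
    unfold cB
    rw [Finset.sum_filter, Finset.sum_mul]
    apply Finset.sum_congr rfl
    intro n hn
    have hn' : n ≤ M := by simp at hn; omega
    have e : 2 * n / 2 = n := by omega
    simp only [e]
    by_cases hw : ¬ (2 * M ≤ 5 * n ∧ 5 * n ≤ 3 * M)
    · rw [if_pos hw, if_pos hw]
      have := choose_gT' hn'
      calc (M.choose n : ℝ) * (2 ^ M * gT M (2 * n))
          = 2 ^ M * ((M.choose n : ℝ) * gT M (2 * n)) := by ring
        _ = pH M n * (2 ^ M * cT M) := by rw [this]; ring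
    · rw [if_neg hw, if_neg hw]
      ring
  · simp [Wc_of_not hσ]

theorem cB_nonneg (M : ℕ) : 0 ≤ cB M :=
  Finset.sum_nonneg (fun n _ => pH_nonneg M n)

theorem cB_le_one (M : ℕ) : cB M ≤ 1 := by
  rw [← sum_pH M]
  exact Finset.sum_le_sum_of_subset_of_nonneg (Finset.filter_subset _ _)
    (fun n _ _ => pH_nonneg M n)

/-- hypothesis `hl0` of `stepT_abs` -/
theorem hl0_conc {M : ℕ} (hM : 1 ≤ M) (hS : Fintype.card S = 2 * M) (z : Finset S)
    (hz : z ∉ badT (S := S) M) : lamT M z ≤ 20 / 19 * (2 ^ M * cT M / bS M) := by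
  have hb := bS_pos hM
  have hc := cT_pos M
  unfold badT at hz
  simp only [mem_filter, mem_univ, true_and, not_not] at hz
  by_cases hev : Even z.card
  · obtain ⟨a, ha⟩ := hev
    have e1 : z.card = 2 * a := by omega
    have e2 : z.card / 2 = a := by omega
    rw [e2] at hz
    have haM : a ≤ M := by omega
    have h1 := choose_gT' haM
    have h2 := choose_dm' hM haM
    have h3 := pH_le_pu_two_fifths hM hz.1 hz.2
    have hpu := pu_pos haM
    have hch : (0 : ℝ) < (M.choose a : ℝ) := by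
      have : 0 < M.choose a := Nat.choose_pos haM
      positivity
    have p2 := dm_pos a
    have p3 : 0 < dm (2 * M - 2 * a) := by
      have : 2 * M - 2 * a = 2 * (M - a) := by omega
      rw [this]
      exact dm_pos _
    unfold lamT
    rw [e1]
    -- `gT = cT pH / C`, `dm dm = C / (bS pu)`
    have g1 : gT M (2 * a) = cT M * pH M a / (M.choose a : ℝ) := by
      rw [← h1]
      field_simp
    have g2 : dm (2 * a) * dm (2 * M - 2 * a) = (M.choose a : ℝ) / (bS M * pu M a) := by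
      rw [← h2]
      have a2 := p2.ne'
      have a3 := p3.ne'
      field_simp
    rw [g1, g2]
    have : 2 ^ M * (cT M * pH M a / (M.choose a : ℝ)) * ((M.choose a : ℝ) / (bS M * pu M a))
        = (2 ^ M * cT M / bS M) * (pH M a / pu M a) := by
      field_simp
    rw [this, mul_comm (20 / 19 : ℝ)]
    apply mul_le_mul_of_nonneg_left _ (by positivity)
    rw [div_le_iff₀ hpu]
    exact h3
  · unfold lamT
    have : dm z.card = 0 := by
      rw [dm_eq, dm_odd _ hev]
      simp
    rw [this]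
    simp only [zero_mul, mul_zero]
    positivity

end Vale.Agent.P162.Mid.T23
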