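import Vale.Agent.P162.Mid.ConcT2
import Vale.Agent.P162.Mid.ConcGlue
import Vale.Agent.P162.Mid.StepTAbs

/-!
# P162 Mid, concrete STEP T, part 3 : given the agreement set the channel is a product
-/

namespace Vale.Agent.P162.Mid.T23
open Finset

variable {S : Type*} [Fintype S] [DecidableEq S]

theorem gl_compl_eq_flp (z : Finset S) (t : Finset {a // a ∈ z} × Finset {a // ¬ a ∈ z}) :
    gl z (t.1, t.2ᶜ) = flp z (gl z t) := by
  ext a
  rw [mem_flp]
  by_cases ha : a ∈ z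
  · rw [H98.mem_gl_of_mem z _ ha, H98.mem_gl_of_mem z _ ha]
    simp [ha]
  · rw [H98.mem_gl_of_not_mem z _ ha, H98.mem_gl_of_not_mem z _ ha]
    simp [ha]

theorem gl2_eq (z : Finset S) (t : Finset {a // a ∈ z} × Finset {a // ¬ a ∈ z}) :
    gl2 z t = (gl z t, flp z (gl z t)) := by
  unfold gl2
  rw [gl_compl_eq_flp]

theorem agr_gl2 (z : Finset S) (t : Finset {a // a ∈ z} × Finset {a // ¬ a ∈ z}) :
    agr (gl2 z t) = z := by
  rw [gl2_eq, agr_eq_iff]

theorem gl2_injective (z : Finset S) : Function.Injective (gl2 z) := by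
  intro t t' h
  rw [gl2_eq, gl2_eq] at h
  exact H98.gl_injective z (congrArg Prod.fst h)

theorem trv_glp_gl (z : Finset S) (s : Equiv.Perm {a // a ∈ z} × Equiv.Perm {a // ¬ a ∈ z})
    (t : Finset {a // a ∈ z} × Finset {a // ¬ a ∈ z}) :
    Trv (glp z s) (gl z t) ↔ Trv s.1 t.1 ∧ Trv s.2 t.2 := by
  constructor
  · intro h
    constructor
    · rintro ⟨a, ha⟩
      have := h a
      rw [H98.glp_mem z s ha, H98.mem_gl_of_mem z t ha,
        H98.mem_gl_of_mem z t (s.1 ⟨a, ha⟩).2] at this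
      exact this
    · rintro ⟨a, ha⟩
      have := h a
      rw [H98.glp_not_mem z s ha, H98.mem_gl_of_not_mem z t ha,
        H98.mem_gl_of_not_mem z t (s.2 ⟨a, ha⟩).2] at this
      exact this
  · rintro ⟨h1, h2⟩ a
    by_cases ha : a ∈ z
    · rw [H98.glp_mem z s ha, H98.mem_gl_of_mem z t ha, H98.mem_gl_of_mem z t (s.1 ⟨a, ha⟩).2]
      exact h1 ⟨a, ha⟩
    · rw [H98.glp_not_mem z s ha, H98.mem_gl_of_not_mem z t ha,
        H98.mem_gl_of_not_mem z t (s.2 ⟨a, ha⟩).2]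
      exact h2 ⟨a, ha⟩

/-- the slice weight factorises -/
theorem W3_factor {M : ℕ} (hS : Fintype.card S = 2 * M) (z : Finset S)
    (s : Equiv.Perm {a // a ∈ z} × Equiv.Perm {a // ¬ a ∈ z})
    (t : Finset {a // a ∈ z} × Finset {a // ¬ a ∈ z}) :
    (if agr (gl2 z t) = z then W3 S (glp z s) (gl2 z t) else 0)
      = gT M z.card * (Wt {a // a ∈ z} s.1 t.1 * Wt {a // ¬ a ∈ z} s.2 t.2) := by
  classical
  rw [if_pos (agr_gl2 z t), gl2_eq]
  unfold Wt
  by_cases h : (IsM s.1 ∧ Trv s.1 t.1) ∧ (IsM s.2 ∧ Trv s.2 t.2)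
  · have hσ : IsM (glp z s) := (H98.isM_glp z s).2 ⟨h.1.1, h.2.1⟩
    have hy : Trv (glp z s) (gl z t) := (trv_glp_gl z s t).2 ⟨h.1.2, h.2.2⟩
    rw [W3_flp hS hσ hy z, if_pos (H98.clo_glp_self z s), if_pos h.1, if_pos h.2]
    ring
  · have h0 : W3 S (glp z s) (gl z t, flp z (gl z t)) = 0 := by
      unfold W3
      rw [if_neg]
      rintro ⟨g1, g2, -⟩
      have a1 := (H98.isM_glp z s).1 g1
      have a2 := (trv_glp_gl z s t).1 g2
      exact h ⟨⟨a1.1, a2.1⟩, ⟨a1.2, a2.2⟩⟩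
    rw [h0]
    by_cases h1 : IsM s.1 ∧ Trv s.1 t.1
    · rw [if_neg (fun h2 => h ⟨h1, h2⟩)]
      ring
    · rw [if_neg h1]
      ring

/-- support of the slice weight -/
theorem W3_slice_supp (z : Finset S) (σ : Equiv.Perm S) (p : Finset S × Finset S)
    (h : (if agr p = z then W3 S σ p else 0) ≠ 0) :
    (∃ s, glp z s = σ) ∧ (∃ t, gl2 z t = p) := by
  by_cases ha : agr p = z
  · rw [if_pos ha] at h
    have hW : IsM σ ∧ Trv σ p.1 ∧ Trv σ p.2 := by
      by_contra hn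
      apply h
      unfold W3
      rw [if_neg hn]
    obtain ⟨p1, p2⟩ := p
    have e : p2 = flp z p1 := (agr_eq_iff p1 p2 z).mp ha
    have hz : Clo σ z := by
      have := hW.2.2
      simp only at this
      rw [e] at this
      exact (trv_flp hW.1 hW.2.1 z).mp this
    refine ⟨H98.exists_glp hW.1 hz, ?_⟩
    obtain ⟨t, ht⟩ := H98.gl_surjective z p1
    refine ⟨t, ?_⟩
    rw [gl2_eq, ht, e]
  · rw [if_neg ha] at h
    exact absurd rfl h

end Vale.Agent.P162.Mid.T23
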