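import Vale.Agent.P162.KL.Chan

/-!
# P162 (P2) middle layer : definitions

* `klw p q` : normalisation-free relative entropy of two nonnegative weight functions,
  `∑ p log (p/q) - (∑ p) log (∑ p / ∑ q)`.
* `SDPIw W η` : strong data processing inequality for the UNNORMALISED JOINT WEIGHT `W x y`
  (reference input weight `u x = ∑ y, W x y`, reference output weight `∑ x, W x y`,
  input weight `f x * u x`, output weight `∑ x, f x * W x y`).
* matchings of a finite type `S` = permutations `σ` with `IsM σ` (fixed point free involutions);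
  all weights vanish off matchings, so that the input type is always `Equiv.Perm S`.
-/

namespace Vale.Agent.P162.Mid

open Finset

/-- normalisation-free relative entropy -/
noncomputable def klw {A : Type*} [Fintype A] (p q : A → ℝ) : ℝ :=
  ∑ a, p a * Real.log (p a / q a) - (∑ a, p a) * Real.log ((∑ a, p a) / ∑ a, q a)

/-- SDPI for an unnormalised joint weight -/
def SDPIw {X Y : Type*} [Fintype X] [Fintype Y] (W : X → Y → ℝ) (η : ℝ) : Prop :=
  ∀ f : X → ℝ, (∀ x, 0 ≤ f x) →
    klw (fun y => ∑ x, f x * W x y) (fun y => ∑ x, W x y) ≤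
      η * klw (fun x => f x * ∑ y, W x y) (fun x => ∑ y, W x y)

section model

variable {S : Type*}

/-- `σ` is a perfect matching (fixed point free involution) -/
def IsM (σ : Equiv.Perm S) : Prop := (∀ a, σ (σ a) = a) ∧ ∀ a, σ a ≠ a

/-- `z` is a union of edges of `σ` -/
def Clo (σ : Equiv.Perm S) (z : Finset S) : Prop := ∀ a ∈ z, σ a ∈ z

/-- `T` contains exactly one endpoint of every edge of `σ` -/
def Trv (σ : Equiv.Perm S) (T : Finset S) : Prop := ∀ a, a ∈ T ↔ σ a ∉ T

end model

open Classical in
/-- number of perfect matchings of a `k`-set -/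
noncomputable def dm (k : ℕ) : ℝ :=
  ((Finset.univ.filter (fun σ : Equiv.Perm (Fin k) => IsM σ)).card : ℝ)

section weights

variable (S : Type*) [Fintype S] [DecidableEq S]

open Classical in
/-- closed-set channel `Zc` (reverse defined: every even `z` has total weight one) -/
noncomputable def Wc (σ : Equiv.Perm S) (z : Finset S) : ℝ :=
  if IsM σ ∧ Clo σ z then 1 / (dm z.card * dm (Fintype.card S - z.card)) else 0

open Classical in
/-- pair coupling of two closed sets -/
noncomputable def Wp (σ : Equiv.Perm S) (p : Finset S × Finset S) : ℝ :=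
  if IsM σ ∧ Clo σ p.1 ∧ Clo σ p.2 then
    1 / (dm (p.1 ∩ p.2).card * dm (p.1 \ p.2).card * dm (p.2 \ p.1).card *
      dm (Fintype.card S - (p.1 ∪ p.2).card)) else 0

open Classical in
/-- transversal channel -/
noncomputable def Wt (σ : Equiv.Perm S) (T : Finset S) : ℝ :=
  if IsM σ ∧ Trv σ T then 1 else 0

open Classical in
/-- pair coupling of two transversals (independent under the uniform matching) -/
noncomputable def W3 (σ : Equiv.Perm S) (p : Finset S × Finset S) : ℝ :=
  if IsM σ ∧ Trv σ p.1 ∧ Trv σ p.2 then
    1 / (((p.1 ∩ p.2).card.factorial : ℝ) * ((p.1 \ p.2).card.factorial : ℝ)) else 0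

/-- reference weight of the pair of closed sets -/
noncomputable def RS (p : Finset S × Finset S) : ℝ :=
  if Even p.1.card ∧ Even p.2.card ∧ Even (p.1 ∩ p.2).card then 1 else 0

variable {S}

/-- agreement set of two subsets -/
def agr (p : Finset S × Finset S) : Finset S := (p.1 ∩ p.2) ∪ (p.1 ∪ p.2)ᶜ

/-- glue subsets of `x` and of its complement -/
def gl (x : Finset S) (t : Finset {a // a ∈ x} × Finset {a // ¬ a ∈ x}) : Finset S :=
  t.1.map (Function.Embedding.subtype _) ∪ t.2.map (Function.Embedding.subtype _)

/-- glue permutations of `x` and of its complement -/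
def glp (x : Finset S) (s : Equiv.Perm {a // a ∈ x} × Equiv.Perm {a // ¬ a ∈ x}) :
    Equiv.Perm S :=
  Equiv.Perm.subtypeCongr s.1 s.2

/-- the pair of transversals with agreement set `x` built from transversals of the two parts -/
def gl2 (x : Finset S) (t : Finset {a // a ∈ x} × Finset {a // ¬ a ∈ x}) :
    Finset S × Finset S :=
  (gl x t, gl x (t.1, t.2ᶜ))

end weights

/-- `η` is a valid SDPI constant of the closed-set channel on every type with `2 M` points -/
def ZOK (M : ℕ) (η : ℝ) : Prop :=
  0 ≤ η ∧ ∀ (S : Type) [Fintype S] [DecidableEq S], Fintype.card S = 2 * M → SDPIw (Wc S) η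

/-- `η` is a valid SDPI constant of the transversal channel on every type with `2 M` points -/
def TOK (M : ℕ) (η : ℝ) : Prop :=
  0 ≤ η ∧ ∀ (S : Type) [Fintype S] [DecidableEq S], Fintype.card S = 2 * M → SDPIw (Wt S) η

/-- best SDPI constant of the closed-set channel on `2 M` points -/
noncomputable def zc (M : ℕ) : ℝ := sInf {η | ZOK M η}

/-- best SDPI constant of the transversal channel on `2 M` points -/
noncomputable def sc (M : ℕ) : ℝ := sInf {η | TOK M η}

end Vale.Agent.P162.Mid
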