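import Vale.Agent.P162.Mid.Defs
import Vale.Agent.P162.KL.SizeLaws
import Vale.Agent.P162.KL.BL
import Vale.Agent.P162.KL.PairLaw
import Vale.Agent.P162.Scalar.Harmonic
import Vale.Agent.P162.Mid.KlwNonneg
import Vale.Agent.P162.Mid.KlwChain
import Vale.Agent.P162.Mid.KlwChainMap
import Vale.Agent.P162.Mid.KlwMapLe
import Vale.Agent.P162.Mid.KlwSmul
import Vale.Agent.P162.Mid.KlwSumLe
import Vale.Agent.P162.Mid.KlwMonoWeight
import Vale.Agent.P162.Mid.KlwSuper
import Vale.Agent.P162.Mid.SdpiBasic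
import Vale.Agent.P162.Mid.ChainIO
import Vale.Agent.P162.Mid.SdpiOne
import Vale.Agent.P162.Mid.ChainPart
import Vale.Agent.P162.Mid.SdpiEmbed
import Vale.Agent.P162.Mid.SdpiTensor
import Vale.Agent.P162.Mid.SdpiLift
import Vale.Agent.P162.Mid.SdpiReweight
import Vale.Agent.P162.Mid.OutSplit
import Vale.Agent.P162.Mid.Bridge
import Vale.Agent.P162.Mid.StepZAbs
import Vale.Agent.P162.Mid.HalfAbs
import Vale.Agent.P162.Mid.StepTAbs
import Vale.Agent.P162.Mid.GlueP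
import Vale.Agent.P162.Mid.GlueS
import Vale.Agent.P162.Mid.GlueC
import Vale.Agent.P162.Mid.Trv0
import Vale.Agent.P162.Mid.SumTrv
import Vale.Agent.P162.Mid.SumClo
import Vale.Agent.P162.Mid.CountMT
import Vale.Agent.P162.Mid.CardIsM
import Vale.Agent.P162.Mid.DmFormula
import Vale.Agent.P162.Mid.CountClo
import Vale.Agent.P162.Mid.CountClo2
import Vale.Agent.P162.Mid.CountTrv2
import Vale.Agent.P162.Mid.Consts
import Vale.Agent.P162.Mid.SumWp
import Vale.Agent.P162.Mid.SumWcSize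
import Vale.Agent.P162.Mid.SumWc
import Vale.Agent.P162.Mid.WpGlue
import Vale.Agent.P162.Mid.SliceZ
import Vale.Agent.P162.Mid.SumWpRight
import Vale.Agent.P162.Mid.BLEven
import Vale.Agent.P162.Mid.SumW3
import Vale.Agent.P162.Mid.SumW3Right
import Vale.Agent.P162.Mid.SumW3Agr
import Vale.Agent.P162.Mid.W3Glue
import Vale.Agent.P162.Mid.SliceT
import Vale.Agent.P162.Mid.ZcBasic
import Vale.Agent.P162.Mid.ScBasic
import Vale.Agent.P162.Mid.Bad
import Vale.Agent.P162.Mid.ZWeights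
import Vale.Agent.P162.Mid.ZBad
import Vale.Agent.P162.Mid.ZGood
import Vale.Agent.P162.Mid.StepZSdpi
import Vale.Agent.P162.Mid.StepZModel
import Vale.Agent.P162.Mid.TWeights
import Vale.Agent.P162.Mid.TSums
import Vale.Agent.P162.Mid.Ratio
import Vale.Agent.P162.Mid.TGood
import Vale.Agent.P162.Mid.StepTModel
import Vale.Agent.P162.Mid.ScBound
import Vale.Agent.P162.Mid.Flip
import Vale.Agent.P162.Mid.BitChanEq
import Vale.Agent.P162.Mid.BitChanLaw
import Vale.Agent.P162.Mid.Fibre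
import Vale.Agent.P162.Mid.BitOfWt

namespace Vale.Agent.P162.Mid
open Finset

/-- DELIVERABLE (A) of board 328 -/
theorem P2_A (M : ℕ) : KL.SDPI (KL.bitChan M) (1 / 2) := by
  have h := (TOK_half M).2 (Fin (2 * M)) (by simp)
  exact bit_of_Wt M (1 / 2) (by norm_num) h

/-- DELIVERABLE (B) of board 328 -/
theorem P2_B : ∃ j0 : ℕ, ∀ j : ℕ, j0 ≤ j →
    KL.SDPI (KL.bitChan (2 ^ j)) ((17 / 10 : ℝ) / ((j : ℝ) + 1)) := by
  obtain ⟨j0, hj0⟩ := sc_bound
  refine ⟨j0, fun j hj => ?_⟩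
  have h1 := TOK_mono (2 ^ j) (hj0 j hj) (TOK_sc (2 ^ j))
  exact bit_of_Wt (2 ^ j) _ h1.1 (h1.2 (Fin (2 * 2 ^ j)) (by simp))

end Vale.Agent.P162.Mid
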