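import Vale.Agent.P162.Mid.Defs

/-!
# P162 Mid : gluing subsets / permutations of `x` and of its complement
-/

namespace Vale.Agent.P162.Mid.G38
open Finset

variable {S : Type*} [Fintype S] [DecidableEq S]

theorem mem_gl (x : Finset S) (t : Finset {a // a ∈ x} × Finset {a // ¬ a ∈ x}) (a : S) :
    a ∈ gl x t ↔ (∃ h : a ∈ x, (⟨a, h⟩ : {a // a ∈ x}) ∈ t.1) ∨
      (∃ h : ¬ a ∈ x, (⟨a, h⟩ : {a // ¬ a ∈ x}) ∈ t.2) := by
  unfold gl
  rw [Finset.mem_union, Finset.mem_map, Finset.mem_map]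
  constructor
  · rintro (⟨b, hb, rfl⟩ | ⟨b, hb, rfl⟩)
    · exact Or.inl ⟨b.2, hb⟩
    · exact Or.inr ⟨b.2, hb⟩
  · rintro (⟨h, hb⟩ | ⟨h, hb⟩)
    · exact Or.inl ⟨⟨a, h⟩, hb, rfl⟩
    · exact Or.inr ⟨⟨a, h⟩, hb, rfl⟩

theorem mem_gl_of_mem (x : Finset S) (t : Finset {a // a ∈ x} × Finset {a // ¬ a ∈ x}) (a : S)
    (h : a ∈ x) : a ∈ gl x t ↔ (⟨a, h⟩ : {a // a ∈ x}) ∈ t.1 := by
  rw [mem_gl]
  constructor
  · rintro (⟨_, hb⟩ | ⟨h', _⟩)
    · exact hb
    · exact absurd h h'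
  · intro hb
    exact Or.inl ⟨h, hb⟩

theorem mem_gl_of_not_mem (x : Finset S) (t : Finset {a // a ∈ x} × Finset {a // ¬ a ∈ x}) (a : S)
    (h : ¬ a ∈ x) : a ∈ gl x t ↔ (⟨a, h⟩ : {a // ¬ a ∈ x}) ∈ t.2 := by
  rw [mem_gl]
  constructor
  · rintro (⟨h', _⟩ | ⟨_, hb⟩)
    · exact absurd h' h
    · exact hb
  · intro hb
    exact Or.inr ⟨h, hb⟩

theorem glp_apply_mem (x : Finset S) (s : Equiv.Perm {a // a ∈ x} × Equiv.Perm {a // ¬ a ∈ x})
    (a : S) (h : a ∈ x) : glp x s a = (s.1 ⟨a, h⟩ : S) :=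
  Equiv.Perm.subtypeCongr.left_apply s.1 s.2 h

theorem glp_apply_not_mem (x : Finset S)
    (s : Equiv.Perm {a // a ∈ x} × Equiv.Perm {a // ¬ a ∈ x})
    (a : S) (h : ¬ a ∈ x) : glp x s a = (s.2 ⟨a, h⟩ : S) :=
  Equiv.Perm.subtypeCongr.right_apply s.1 s.2 h

theorem gl_injective (x : Finset S) : Function.Injective (gl x) := by
  intro t t' h
  apply Prod.ext
  · ext a
    have := Finset.ext_iff.1 h a.1
    rw [mem_gl_of_mem x t a.1 a.2, mem_gl_of_mem x t' a.1 a.2] at this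
    exact this
  · ext a
    have := Finset.ext_iff.1 h a.1
    rw [mem_gl_of_not_mem x t a.1 a.2, mem_gl_of_not_mem x t' a.1 a.2] at this
    exact this

theorem gl_surjective (x : Finset S) (y : Finset S) : ∃ t, gl x t = y := by
  refine ⟨(y.subtype (fun a => a ∈ x), y.subtype (fun a => ¬ a ∈ x)), ?_⟩
  ext a
  by_cases h : a ∈ x
  · rw [mem_gl_of_mem x _ a h, Finset.mem_subtype]
  · rw [mem_gl_of_not_mem x _ a h, Finset.mem_subtype]

theorem glp_injective (x : Finset S) : Function.Injective (glp x) := by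
  intro s s' h
  apply Prod.ext
  · ext a
    have := Equiv.ext_iff.1 h a.1
    rw [glp_apply_mem x s a.1 a.2, glp_apply_mem x s' a.1 a.2] at this
    exact this
  · ext a
    have := Equiv.ext_iff.1 h a.1
    rw [glp_apply_not_mem x s a.1 a.2, glp_apply_not_mem x s' a.1 a.2] at this
    exact this

theorem glp_surjective (x : Finset S) (σ : Equiv.Perm S) (hM : IsM σ) (hC : Clo σ x) :
    ∃ s, glp x s = σ := by
  have h1 : ∀ a, σ a ∈ x ↔ a ∈ x := by
    intro a
    constructor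
    · intro h
      have := hC _ h
      rwa [hM.1 a] at this
    · exact hC a
  have h2 : ∀ a, ¬ σ a ∈ x ↔ ¬ a ∈ x := fun a => not_congr (h1 a)
  refine ⟨(σ.subtypePerm h1, σ.subtypePerm h2), ?_⟩
  ext a
  by_cases h : a ∈ x
  · rw [glp_apply_mem x _ a h]
    rfl
  · rw [glp_apply_not_mem x _ a h]
    rfl

theorem isM_glp (x : Finset S) (s : Equiv.Perm {a // a ∈ x} × Equiv.Perm {a // ¬ a ∈ x}) :
    IsM (glp x s) ↔ IsM s.1 ∧ IsM s.2 := by
  constructor
  · intro h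
    refine ⟨⟨fun a => ?_, fun a => ?_⟩, ⟨fun a => ?_, fun a => ?_⟩⟩
    · have := h.1 a.1
      rw [glp_apply_mem x s a.1 a.2, glp_apply_mem x s _ (s.1 ⟨a.1, a.2⟩).2] at this
      exact Subtype.ext this
    · intro e
      have := h.2 a.1
      rw [glp_apply_mem x s a.1 a.2] at this
      exact this (congrArg Subtype.val e)
    · have := h.1 a.1
      rw [glp_apply_not_mem x s a.1 a.2, glp_apply_not_mem x s _ (s.2 ⟨a.1, a.2⟩).2] at this
      exact Subtype.ext this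
    · intro e
      have := h.2 a.1
      rw [glp_apply_not_mem x s a.1 a.2] at this
      exact this (congrArg Subtype.val e)
  · rintro ⟨h1, h2⟩
    refine ⟨fun a => ?_, fun a => ?_⟩
    · by_cases h : a ∈ x
      · rw [glp_apply_mem x s a h, glp_apply_mem x s _ (s.1 ⟨a, h⟩).2]
        exact congrArg Subtype.val (h1.1 ⟨a, h⟩)
      · rw [glp_apply_not_mem x s a h, glp_apply_not_mem x s _ (s.2 ⟨a, h⟩).2]
        exact congrArg Subtype.val (h2.1 ⟨a, h⟩)
    · by_cases h : a ∈ x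
      · rw [glp_apply_mem x s a h]
        intro e
        exact h1.2 ⟨a, h⟩ (Subtype.ext e)
      · rw [glp_apply_not_mem x s a h]
        intro e
        exact h2.2 ⟨a, h⟩ (Subtype.ext e)

theorem clo_glp_self (x : Finset S) (s : Equiv.Perm {a // a ∈ x} × Equiv.Perm {a // ¬ a ∈ x}) :
    Clo (glp x s) x := by
  intro a h
  rw [glp_apply_mem x s a h]
  exact (s.1 ⟨a, h⟩).2

theorem clo_glp_gl (x : Finset S) (s : Equiv.Perm {a // a ∈ x} × Equiv.Perm {a // ¬ a ∈ x})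
    (t : Finset {a // a ∈ x} × Finset {a // ¬ a ∈ x}) :
    Clo (glp x s) (gl x t) ↔ Clo s.1 t.1 ∧ Clo s.2 t.2 := by
  constructor
  · intro h
    refine ⟨fun a ha => ?_, fun a ha => ?_⟩
    · have := h a.1 ((mem_gl_of_mem x t a.1 a.2).2 ha)
      rw [glp_apply_mem x s a.1 a.2, mem_gl_of_mem x t _ (s.1 ⟨a.1, a.2⟩).2] at this
      exact this
    · have := h a.1 ((mem_gl_of_not_mem x t a.1 a.2).2 ha)
      rw [glp_apply_not_mem x s a.1 a.2, mem_gl_of_not_mem x t _ (s.2 ⟨a.1, a.2⟩).2] at this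
      exact this
  · rintro ⟨h1, h2⟩ a ha
    by_cases h : a ∈ x
    · rw [glp_apply_mem x s a h, mem_gl_of_mem x t _ (s.1 ⟨a, h⟩).2]
      exact h1 _ ((mem_gl_of_mem x t a h).1 ha)
    · rw [glp_apply_not_mem x s a h, mem_gl_of_not_mem x t _ (s.2 ⟨a, h⟩).2]
      exact h2 _ ((mem_gl_of_not_mem x t a h).1 ha)

theorem inter_gl (x : Finset S) (t : Finset {a // a ∈ x} × Finset {a // ¬ a ∈ x}) :
    x ∩ gl x t = t.1.map (Function.Embedding.subtype _) := by
  ext a
  rw [Finset.mem_inter, Finset.mem_map]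
  constructor
  · rintro ⟨h, hg⟩
    exact ⟨⟨a, h⟩, (mem_gl_of_mem x t a h).1 hg, rfl⟩
  · rintro ⟨b, hb, rfl⟩
    exact ⟨b.2, (mem_gl_of_mem x t b.1 b.2).2 hb⟩

theorem gl_sdiff (x : Finset S) (t : Finset {a // a ∈ x} × Finset {a // ¬ a ∈ x}) :
    gl x t \ x = t.2.map (Function.Embedding.subtype _) := by
  ext a
  rw [Finset.mem_sdiff, Finset.mem_map]
  constructor
  · rintro ⟨hg, h⟩
    exact ⟨⟨a, h⟩, (mem_gl_of_not_mem x t a h).1 hg, rfl⟩
  · rintro ⟨b, hb, rfl⟩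
    exact ⟨(mem_gl_of_not_mem x t b.1 b.2).2 hb, b.2⟩

theorem card_inter_gl (x : Finset S) (t : Finset {a // a ∈ x} × Finset {a // ¬ a ∈ x}) :
    (x ∩ gl x t).card = t.1.card := by
  rw [inter_gl, Finset.card_map]

theorem card_gl_sdiff (x : Finset S) (t : Finset {a // a ∈ x} × Finset {a // ¬ a ∈ x}) :
    (gl x t \ x).card = t.2.card := by
  rw [gl_sdiff, Finset.card_map]

theorem card_sdiff_gl (x : Finset S) (t : Finset {a // a ∈ x} × Finset {a // ¬ a ∈ x}) :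
    (x \ gl x t).card = x.card - t.1.card := by
  rw [Finset.card_sdiff, Finset.inter_comm, card_inter_gl]

theorem card_union_gl (x : Finset S) (t : Finset {a // a ∈ x} × Finset {a // ¬ a ∈ x}) :
    (x ∪ gl x t).card = x.card + t.2.card := by
  rw [← Finset.union_sdiff_self_eq_union, Finset.card_union_of_disjoint Finset.disjoint_sdiff,
    card_gl_sdiff]

theorem card_gl (x : Finset S) (t : Finset {a // a ∈ x} × Finset {a // ¬ a ∈ x}) :
    (gl x t).card = t.1.card + t.2.card := by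
  rw [← Finset.card_inter_add_card_sdiff (gl x t) x, Finset.inter_comm, card_inter_gl,
    card_gl_sdiff]

theorem card_sub_in (x : Finset S) : Fintype.card {a // a ∈ x} = x.card := Fintype.card_coe x

theorem card_sub_out (x : Finset S) : Fintype.card {a // ¬ a ∈ x} = Fintype.card S - x.card := by
  rw [Fintype.card_subtype_compl, Fintype.card_coe]

end Vale.Agent.P162.Mid.G38
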